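import Vale.Agent.P207.N3.H250.PFIn
import Vale.Agent.P207.N3.H780.ExG

/-!
# P207, line N3, P3: germs of families (`JG`), one sided leaf data
-/

open Set Filter Topology Metric MeasureTheory
open scoped ContDiff

noncomputable section

namespace Vale.Agent.P207.N3

variable {E F G H : Type}
  [NormedAddCommGroup E] [NormedSpace ℝ E] [NormedAddCommGroup F] [NormedSpace ℝ F]
  [NormedAddCommGroup G] [NormedSpace ℝ G] [NormedAddCommGroup H] [NormedSpace ℝ H]

/-- smooth near a point -/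
def SG (f : E → F) (a : E) : Prop := ∀ᶠ x in 𝓝 a, ContDiffAt ℝ ∞ f x

/-- germ at `(0, 0)` of a family with jointly continuous derivatives -/
def JG (f : E2 → E → F) : Prop := ∃ S : Set (E2 × E), ((0 : E2), (0 : E)) ∈ S ∧ JC f S

theorem SG.at {f : E → F} {a : E} (h : SG f a) : ContDiffAt ℝ ∞ f a := h.self_of_nhds

theorem SG.contAt {f : E → F} {a : E} (h : SG f a) : ContinuousAt f a := h.at.continuousAt

theorem SG.open {f : E → F} {a : E} (h : SG f a) :
    ∃ U : Set E, IsOpen U ∧ a ∈ U ∧ ContDiffOn ℝ ∞ f U := by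
  obtain ⟨U, hU, hUo, haU⟩ := _root_.eventually_nhds_iff.1 h
  exact ⟨U, hUo, haU, fun x hx => (hU x hx).contDiffWithinAt⟩

theorem SG.diffAt {f : E → F} {a : E} (h : SG f a) : ∀ᶠ x in 𝓝 a, DifferentiableAt ℝ f x :=
  h.mono fun _ hx => hx.differentiableAt (by simp)

theorem SG.comp {f : E → F} {g : F → G} {a : E} (hg : SG g (f a)) (hf : SG f a) :
    SG (fun x => g (f x)) a := by
  filter_upwards [hf, hf.contAt.eventually hg] with x h1 h2
  exact ContDiffAt.comp x h2 h1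

theorem SG.prodMk {f : E → F} {g : E → G} {a : E} (hf : SG f a) (hg : SG g a) :
    SG (fun x => (f x, g x)) a := by
  filter_upwards [hf, hg] with x h1 h2
  exact h1.prodMk h2

theorem SG.congr {f g : E → F} {a : E} (hf : SG f a) (h : ∀ᶠ x in 𝓝 a, g x = f x) : SG g a := by
  filter_upwards [hf, h.eventually_nhds] with x h1 h2
  exact h1.congr_of_eventuallyEq h2

theorem SG.fderiv {f : E → F} {a : E} (hf : SG f a) : SG (fderiv ℝ f) a := by
  filter_upwards [hf] with x h1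
  exact h1.fderiv_right (m := ∞) (by simp)

/-- the gradient as a linear function of the differential -/
def grL : (E2 →L[ℝ] ℝ) →L[ℝ] E2 :=
  LinearMap.toContinuousLinearMap
    { toFun := fun l => (InnerProductSpace.toDual ℝ E2).symm l
      map_add' := fun a b => by simp
      map_smul' := fun c a => by simp }

theorem grL_apply (f : E2 → ℝ) (x : E2) : gradient f x = grL (fderiv ℝ f x) := rfl

theorem gradient_eq_of {f : E2 → ℝ} {x g : E2} (h : ∀ v, fderiv ℝ f x v = inner ℝ g v) :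
    gradient f x = g := by
  refine ext_inner_right ℝ fun v => ?_
  rw [inner_gradient, h]

theorem SG.gradient {f : E2 → ℝ} {a : E2} (hf : SG f a) : SG (gradient f) a := by
  filter_upwards [hf.fderiv] with x h1
  exact (grL.contDiff.contDiffAt).comp x h1

/-! ### germs of families -/

theorem JG.of_jc {f : E2 → E → F} {S : Set (E2 × E)} (h : JC f S) (h0 : ((0 : E2), (0 : E)) ∈ S) :
    JG f := ⟨S, h0, h⟩

theorem JG.smooth {f : E2 → E → F} (h : JG f) :
    ∀ᶠ p in 𝓝 ((0 : E2), (0 : E)), ContDiffAt ℝ ∞ (f p.1) p.2 := by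
  obtain ⟨S, h0, hS⟩ := h
  filter_upwards [hS.isOpen.mem_nhds h0] with p hp
  exact hS.contDiffAt hp

theorem JG.cont {f : E2 → E → F} (h : JG f) :
    ∀ᶠ p in 𝓝 ((0 : E2), (0 : E)), ContinuousAt (fun p : E2 × E => f p.1 p.2) p := by
  obtain ⟨S, h0, hS⟩ := h
  filter_upwards [hS.isOpen.mem_nhds h0] with p hp
  exact hS.continuousOn.continuousAt (hS.isOpen.mem_nhds hp)

theorem JG.contAt {f : E2 → E → F} (h : JG f) :
    ContinuousAt (fun p : E2 × E => f p.1 p.2) (0, 0) := h.cont.self_of_nhds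

theorem JG.slice {f : E2 → E → F} (h : JG f) : SG (f 0) 0 := by
  have h1 := h.smooth
  have h2 : Tendsto (fun u : E => ((0 : E2), u)) (𝓝 0) (𝓝 (0, 0)) :=
    (Continuous.prodMk_right (0 : E2)).tendsto _
  exact h2.eventually h1

theorem JG.congr {f g : E2 → E → F} (h : JG f)
    (hg : ∀ᶠ p in 𝓝 ((0 : E2), (0 : E)), g p.1 p.2 = f p.1 p.2) : JG g := by
  obtain ⟨S, h0, hS⟩ := h
  obtain ⟨U, hU, hUo, h0U⟩ := _root_.eventually_nhds_iff.1 hg
  exact ⟨S ∩ U, ⟨h0, h0U⟩, (hS.mono (hS.isOpen.inter hUo) inter_subset_left).congr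
    fun p hp => hU p hp.2⟩

theorem JG.fderiv {f : E2 → E → F} (h : JG f) : JG (fun y => fderiv ℝ (f y)) := by
  obtain ⟨S, h0, hS⟩ := h
  exact ⟨S, h0, hS.fderiv⟩

theorem JG.clm (L : F →L[ℝ] G) {f : E2 → E → F} (h : JG f) : JG (fun y t => L (f y t)) := by
  obtain ⟨S, h0, hS⟩ := h
  exact ⟨S, h0, hS.clm L⟩

theorem JG.gradient {f : E2 → E2 → ℝ} (h : JG f) : JG (fun y => gradient (f y)) :=
  h.fderiv.clm grL

theorem JG.two {f : E2 → E → F} {g : E2 → E → G} (hf : JG f) (hg : JG g) :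
    ∃ S : Set (E2 × E), ((0 : E2), (0 : E)) ∈ S ∧ JC f S ∧ JC g S := by
  obtain ⟨S, h0, hS⟩ := hf
  obtain ⟨T, h1, hT⟩ := hg
  exact ⟨S ∩ T, ⟨h0, h1⟩, hS.mono (hS.isOpen.inter hT.isOpen) inter_subset_left,
    hT.mono (hS.isOpen.inter hT.isOpen) inter_subset_right⟩

theorem JG.add {f g : E2 → E → F} (hf : JG f) (hg : JG g) : JG (fun y t => f y t + g y t) := by
  obtain ⟨S, h0, h1, h2⟩ := hf.two hg
  exact ⟨S, h0, h1.add h2⟩

theorem JG.sub {f g : E2 → E → F} (hf : JG f) (hg : JG g) : JG (fun y t => f y t - g y t) := by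
  obtain ⟨S, h0, h1, h2⟩ := hf.two hg
  exact ⟨S, h0, h1.sub h2⟩

theorem JG.neg {f : E2 → E → F} (hf : JG f) : JG (fun y t => - f y t) := by
  obtain ⟨S, h0, h1⟩ := hf
  exact ⟨S, h0, h1.neg⟩

theorem JG.const_mul (c : ℝ) {f : E2 → E → ℝ} (hf : JG f) : JG (fun y t => c * f y t) := by
  obtain ⟨S, h0, h1⟩ := hf
  exact ⟨S, h0, h1.const_smul c⟩

theorem JG.prodMk {f : E2 → E → F} {g : E2 → E → G} (hf : JG f) (hg : JG g) :
    JG (fun y t => (f y t, g y t)) := by
  obtain ⟨S, h0, h1, h2⟩ := hf.two hg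
  exact ⟨S, h0, h1.prodMk h2⟩

theorem JG.id : JG (fun (_ : E2) (t : E) => t) :=
  ⟨(univ : Set (E2 × E)), mem_univ _, JC.id isOpen_univ⟩

theorem JG.fst {f : E2 → E → F × G} (h : JG f) : JG (fun y t => (f y t).1) := by
  obtain ⟨S, h0, h1⟩ := h
  exact ⟨S, h0, h1.fst⟩

theorem JG.snd {f : E2 → E → F × G} (h : JG f) : JG (fun y t => (f y t).2) := by
  obtain ⟨S, h0, h1⟩ := h
  exact ⟨S, h0, h1.snd⟩

/-- a smooth function of the values -/
theorem JG.post {φ : F → G} {f : E2 → E → F} (hφ : SG φ (f 0 0)) (h : JG f) :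
    JG (fun y t => φ (f y t)) := by
  obtain ⟨S, h0, hS⟩ := h
  obtain ⟨U, hUo, h0U, hU⟩ := hφ.open
  have hc := hS.continuousOn
  have hT : IsOpen (S ∩ (fun p : E2 × E => f p.1 p.2) ⁻¹' U) :=
    hc.isOpen_inter_preimage hS.isOpen hUo
  exact ⟨S ∩ (fun p : E2 × E => f p.1 p.2) ⁻¹' U, ⟨h0, h0U⟩,
    (hS.mono hT inter_subset_left).comp_contDiffOn hUo hU fun p hp => hp.2⟩

/-- composition -/
theorem JG.comp {f : E2 → F → G} {g : E2 → E → F} (hf : JG f) (hg : JG g) (h0 : g 0 0 = 0) :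
    JG (fun y t => f y (g y t)) := by
  obtain ⟨S, hS0, hS⟩ := hf
  obtain ⟨T, hT0, hT⟩ := hg
  refine ⟨cdom g T S, ⟨hT0, ?_⟩, hS.comp hT⟩
  show ((0 : E2), g 0 0) ∈ S
  rw [h0]; exact hS0

/-- functions of the label only -/
theorem JG.param {c : E2 → F} (hc : ∀ᶠ y in 𝓝 (0 : E2), ContinuousAt c y) :
    JG (fun y (_ : E) => c y) := by
  obtain ⟨U, hU, hUo, h0U⟩ := _root_.eventually_nhds_iff.1 hc
  refine ⟨U ×ˢ univ, ⟨h0U, mem_univ _⟩, JC.param (hUo.prod isOpen_univ) ?_⟩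
  intro p hp
  exact ((hU p.1 hp.1).comp (f := fun p : E2 × E => p.1) continuousAt_fst).continuousWithinAt

theorem JG.zero_cont {f : E2 → E → F} (h : JG f) : ∀ᶠ y in 𝓝 (0 : E2),
    ContinuousAt (fun y => f y 0) y := by
  have h2 : Tendsto (fun y : E2 => (y, (0 : E))) (𝓝 0) (𝓝 (0, 0)) :=
    (Continuous.prodMk_left (0 : E)).tendsto _
  filter_upwards [h2.eventually h.cont] with y hy
  exact ContinuousAt.comp (f := fun y : E2 => (y, (0 : E))) hy
    (Continuous.prodMk_left (0 : E)).continuousAt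

theorem JG.at_zero {f : E2 → E → F} (h : JG f) : JG (fun y (_ : E) => f y 0) :=
  JG.param h.zero_cont

end Vale.Agent.P207.N3
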