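import Vale.Agent.P207.N3.H250.Side2
import Vale.Agent.P207.N3.H780.Chart

/-!
# P207, line N3, P3: statements between the input `PFIn` and the two sides
-/

open Set Filter Topology Metric MeasureTheory
open scoped ContDiff

noncomputable section

namespace Vale.Agent.P207.N3

/-- one sided dynamical data (`M` = action on the labels, `P` = Poincaré map, `ℓ` = its
potential) -/
structure SideDyn (u ρ : E2 → E2 → ℝ) (M : E2 → E2) (P : E2 × E2 → E2 × E2) (ℓ : E2 × E2 → ℝ)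
    (h : ℝ) : Prop where
  ex : ExG P ℓ
  M_zero : M 0 = 0
  M_cont : ContinuousAt M 0
  leaf : ∃ c : E2 → ℝ, ∀ᶠ z in 𝓝 (0 : E2 × E2),
    gradient (u (M z.1)) (P (lf u z)).1 = (P (lf u z)).2 ∧
    u (M z.1) (P (lf u z)).1 = u z.1 z.2 + ℓ (lf u z) + c z.1
  dens : ∃ c : E2 → ℝ, ∀ᶠ z in 𝓝 (0 : E2 × E2),
    ρ (M z.1) (P (lf u z)).1 + Real.log |(fderiv ℝ (fun t => (P (lf u (z.1, t))).1) z.2).det|
      = ρ z.1 z.2 + h * ℓ (lf u z) + c z.1

/-- the negative of a family of functions -/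
def ng (u : E2 → E2 → ℝ) : E2 → E2 → ℝ := fun y t => - u y t

/-- conjugation with `(t, π) ↦ (t, -π)` -/
def ngm (P : E2 × E2 → E2 × E2) : E2 × E2 → E2 × E2 := fun z =>
  ((P (z.1, - z.2)).1, - (P (z.1, - z.2)).2)

/-- the potential of `ngm P` -/
def ngl (ℓ : E2 × E2 → ℝ) : E2 × E2 → ℝ := fun z => - ℓ (z.1, - z.2)

/-- (780) the two sides of the exact chart -/
def SidesStmt : Prop :=
  ∀ (N N' : E2 → E2) (h : ℝ) (I : PFIn N N' h), ∃ (Φ : E2 × E2 → E2 × E2) (K : E2 × E2 → ℝ),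
    Side Φ K (ng I.u) I.ρ I.ϑ (-h) ∧ Side (sw Φ) (swK Φ K) (ng I.s) I.ρ' I.ϑ' (-h)

/-- (780) the dynamics of the two sides -/
def DynStmt : Prop :=
  ∀ (N N' : E2 → E2) (h : ℝ) (I : PFIn N N' h),
    SideDyn (ng I.u) I.ρ N' (ngm I.P) (ngl I.ℓ) (-h) ∧ SideDyn (ng I.s) I.ρ' N I.P I.ℓ (-h)

end Vale.Agent.P207.N3
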