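import Vale.Agent.P207.N3.H250.Prod2

/-!
# P207, line N3, P3: the determinant identity in the variable `t`
-/

open Set Filter Topology Metric MeasureTheory
open scoped ContDiff

noncomputable section

namespace Vale.Agent.P207.N3

open Side

variable {Φ : E2 × E2 → E2 × E2} {K : E2 × E2 → ℝ} {u ρ s ρ' : E2 → E2 → ℝ} {ϑ ϑ' : E2 → E2}
  {h : ℝ} {τ τ' : E2 → E2 → E2}

theorem tendsto_yt : Tendsto (fun z : (E2 × E2) × E2 => (z.1.2, z.2)) (𝓝 0) (𝓝 0) := by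
  have : Continuous (fun z : (E2 × E2) × E2 => (z.1.2, z.2)) := by fun_prop
  exact this.tendsto 0

theorem tendsto_xt : Tendsto (fun z : (E2 × E2) × E2 => (z.1.1, z.2)) (𝓝 0) (𝓝 0) := by
  have : Continuous (fun z : (E2 × E2) × E2 => (z.1.1, z.2)) := by fun_prop
  exact this.tendsto 0

/-- the determinant identity at an intersection point, points `((x, y), t)` -/
theorem det_ev (D : Side Φ K u ρ ϑ h) (D' : Side (sw Φ) (swK Φ K) s ρ' ϑ' h)
    (T : IsTau Φ u τ) (T' : IsTau (sw Φ) s τ')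
    (star : ∀ᶠ z in 𝓝 (0 : (E2 × E2) × E2),
      gradient (u z.1.2) z.2 + gradient (s z.1.1) z.2 = 0 →
      0 < (hess (u z.1.2) z.2 + hess (s z.1.1) z.2).det ∧
      Real.log (hess (u z.1.2) z.2 + hess (s z.1.1) z.2).det = ρ z.1.2 z.2 + ρ' z.1.1 z.2) :
    ∀ᶠ z in 𝓝 (0 : (E2 × E2) × E2),
      gradient (u z.1.2) z.2 + gradient (s z.1.1) z.2 = 0 →
      Real.log (1 - hess (SS K u τ z.1.2) (al Φ u z.1.2 z.2) ∘L
          hess (SS (swK Φ K) s τ' z.1.1) (al (sw Φ) s z.1.1 z.2)).det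
        = ρ z.1.2 z.2 + ρ' z.1.1 z.2 - Real.log |(fderiv ℝ (al Φ u z.1.2) z.2).det|
          - Real.log |(fderiv ℝ (al (sw Φ) s z.1.1) z.2).det| := by
  have c1 := (D.lf_tendsto.comp tendsto_yt).eventually D.ex.sympl
  have c2 := tendsto_yt.eventually D.push
  have c3 := tendsto_xt.eventually D'.push
  have c4 := tendsto_yt.eventually (D.SS_hess T)
  have c5 := tendsto_xt.eventually (D'.SS_hess T')
  have c6 := (D'.al_tendsto.comp tendsto_xt).eventually (D'.SS_symm T')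
  have c7 := tendsto_xt.eventually D'.u_jg.smooth
  have c8 := (D.lf_tendsto.comp tendsto_yt).eventually D.ex.smooth
  have tw : Tendsto (fun z : (E2 × E2) × E2 =>
      (z.1, (al Φ u z.1.2 z.2, al (sw Φ) s z.1.1 z.2))) (𝓝 0) (𝓝 0) := by
    have a1 : Tendsto (fun z : (E2 × E2) × E2 => z.1) (𝓝 0) (𝓝 0) := continuous_fst.tendsto _
    have a0 : Tendsto (Prod.snd : E2 × E2 → E2) (𝓝 0) (𝓝 0) := continuous_snd.tendsto _
    have a2 : Tendsto (fun z : (E2 × E2) × E2 => al Φ u z.1.2 z.2) (𝓝 0) (𝓝 0) :=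
      Tendsto.comp (f := fun z : (E2 × E2) × E2 => (z.1.2, al Φ u z.1.2 z.2)) (g := Prod.snd)
        a0 (D.al_tendsto.comp tendsto_yt)
    have a3 : Tendsto (fun z : (E2 × E2) × E2 => al (sw Φ) s z.1.1 z.2) (𝓝 0) (𝓝 0) :=
      Tendsto.comp (f := fun z : (E2 × E2) × E2 => (z.1.1, al (sw Φ) s z.1.1 z.2)) (g := Prod.snd)
        a0 (D'.al_tendsto.comp tendsto_xt)
    exact a1.prodMk_nhds (a2.prodMk_nhds a3)
  have c9 := tw.eventually (det_pos_ev D D' T T')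
  filter_upwards [c1, c2, c3, c4, c5, c6, c7, c8, c9, star]
    with z d1 d2 d3 d4 d5 d6 d7 d8 d9 d10 hz
  obtain ⟨s1, s2⟩ := d10 hz
  simp only [Function.comp] at d1 d6
  have hgrad : gradient (u z.1.2) z.2 = - gradient (s z.1.1) z.2 := eq_neg_of_add_eq_zero_left hz
  have hlf : lf u (z.1.2, z.2) = (z.2, - gradient (s z.1.1) z.2) := by
    rw [← hgrad]; rfl
  have h1 : ((lf s (z.1.1, z.2)).1, - (lf s (z.1.1, z.2)).2) = lf u (z.1.2, z.2) := by
    rw [hlf]; rfl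
  have d12' : DifferentiableAt ℝ Φ ((lf s (z.1.1, z.2)).1, - (lf s (z.1.1, z.2)).2) := by
    rw [h1]
    exact ContDiffAt.differentiableAt (n := ∞) d8 (by simp)
  have h2 : ∀ v, fderiv ℝ Φ (lf u (z.1.2, z.2)) (v, - hess (s z.1.1) z.2 v)
      = (fderiv ℝ (be (sw Φ) s z.1.1) z.2 v, fderiv ℝ (al (sw Φ) s z.1.1) z.2 v) := by
    intro v
    have h3 : fderiv ℝ (sw Φ) (lf s (z.1.1, z.2)) (v, hess (s z.1.1) z.2 v)
      = (fderiv ℝ (al (sw Φ) s z.1.1) z.2 v, fderiv ℝ (be (sw Φ) s z.1.1) z.2 v) := d3 v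
    rw [fderiv_sw d12', h1] at h3
    exact Prod.ext (congrArg Prod.snd h3) (congrArg Prod.fst h3)
  have hdet := det_id (L := fderiv ℝ Φ (lf u (z.1.2, z.2))) (A := hess (u z.1.2) z.2)
    (B := hess (s z.1.1) z.2) d1 (hess_symm d7) d6 d2 h2 d4 d5
  have n1 : (fderiv ℝ (al (sw Φ) s z.1.1) z.2).det ≠ 0 := by
    intro h0
    rw [hdet, h0] at s1
    simp at s1
  have n2 : (fderiv ℝ (al Φ u z.1.2) z.2).det ≠ 0 := by
    intro h0
    rw [hdet, h0] at s1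
    simp at s1
  have n3 : (1 - hess (SS K u τ z.1.2) (al Φ u z.1.2 z.2) ∘L
          hess (SS (swK Φ K) s τ' z.1.1) (al (sw Φ) s z.1.1 z.2)).det ≠ 0 := d9.ne'
  rw [hdet, Real.log_mul (mul_ne_zero n1 n3) n2, Real.log_mul n1 n3] at s2
  rw [Real.log_abs, Real.log_abs]
  linarith

end Vale.Agent.P207.N3
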