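import Vale.Agent.P207.N3.H250.HalfOf
import Vale.Agent.P207.N3.H250.Prod3
import Vale.Agent.P207.N3.H780.Dyn
import Vale.Agent.P207.N3.H12.DivPF

/-!
# P207, line N3, P3: the product formula `PF` from the input `PFIn`
-/

open Set Filter Topology Metric MeasureTheory InnerProductSpace
open scoped ContDiff RealInnerProductSpace Gradient

noncomputable section

namespace Vale.Agent.P207.N3

open Side

/-- exchange of the factors, as a continuous linear map -/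
def swL : E2 × E2 →L[ℝ] E2 × E2 :=
  (ContinuousLinearMap.snd ℝ E2 E2).prod (ContinuousLinearMap.fst ℝ E2 E2)

theorem swL_apply (z : E2 × E2) : swL z = (z.2, z.1) := rfl

theorem tendsto_swL : Tendsto swL (𝓝 0) (𝓝 0) := by
  have := swL.continuous.tendsto 0
  rwa [map_zero] at this

theorem swm_smooth {φ : E2 × E2 → E2 × E2} (h : ∀ᶠ z in 𝓝 (0 : E2 × E2), ContDiffAt ℝ ∞ φ z) :
    ∀ᶠ z in 𝓝 (0 : E2 × E2), ContDiffAt ℝ ∞ (swm φ) z := by
  filter_upwards [tendsto_swL.eventually h] with z hz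
  have h1 : ContDiffAt ℝ ∞ (fun z => φ (swL z)) z := hz.comp z swL.contDiff.contDiffAt
  exact swL.contDiff.contDiffAt.comp z h1

theorem swm_sympl {φ : E2 × E2 → E2 × E2} (h : ∀ᶠ z in 𝓝 (0 : E2 × E2), ContDiffAt ℝ ∞ φ z)
    (hs : ∀ᶠ z in 𝓝 (0 : E2 × E2), ∀ a b,
      sympl (fderiv ℝ φ z a) (fderiv ℝ φ z b) = sympl a b) :
    ∀ᶠ z in 𝓝 (0 : E2 × E2), ∀ a b,
      sympl (fderiv ℝ (swm φ) z a) (fderiv ℝ (swm φ) z b) = sympl a b := by
  filter_upwards [tendsto_swL.eventually h, tendsto_swL.eventually hs] with z h1 h2 a b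
  have d1 : HasFDerivAt (fun z => φ (swL z)) ((fderiv ℝ φ (swL z)).comp swL) z :=
    (h1.differentiableAt (by simp)).hasFDerivAt.comp z swL.hasFDerivAt
  have d2 : HasFDerivAt (swm φ) (swL.comp ((fderiv ℝ φ (swL z)).comp swL)) z :=
    swL.hasFDerivAt.comp z d1
  have e1 := h2 (swL b) (swL a)
  rw [d2.fderiv]
  simp only [ContinuousLinearMap.comp_apply]
  simp only [sympl, swL_apply] at e1 ⊢
  have i1 := real_inner_comm b.2 a.1
  have i2 := real_inner_comm b.1 a.2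
  have i3 := real_inner_comm ((fderiv ℝ φ (z.2, z.1)) (a.2, a.1)).1
    ((fderiv ℝ φ (z.2, z.1)) (b.2, b.1)).2
  have i4 := real_inner_comm ((fderiv ℝ φ (z.2, z.1)) (a.2, a.1)).2
    ((fderiv ℝ φ (z.2, z.1)) (b.2, b.1)).1
  linarith

/-- The output: the chart `Φ` of the transversal disc, the map `φ` in the chart (the Poincaré map
of `γ⁻¹` conjugated with `π ↦ - π`), its inverse `ψ`, and the structure `PF`. -/
structure PfOut {N N' : E2 → E2} {h : ℝ} (I : PFIn N N' h) (Ni N'i : E2 → E2) where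
  Φ : E2 × E2 → E2 × E2
  K : E2 × E2 → ℝ
  τ : E2 → E2 → E2
  τ' : E2 → E2 → E2
  F : PF
  D : Side Φ K (ng I.u) I.ρ I.ϑ (-h)
  D' : Side (sw Φ) (swK Φ K) (ng I.s) I.ρ' I.ϑ' (-h)
  T : IsTau Φ (ng I.u) τ
  T' : IsTau (sw Φ) (ng I.s) τ'
  φ : E2 × E2 → E2 × E2
  κ : E2 × E2 → ℝ
  φ_ex : ExG φ κ
  φ_conj : ∀ᶠ z in 𝓝 (0 : E2 × E2), φ (Φ z) = Φ (ngm I.P z)
  φ_pot : ∃ c, ∀ᶠ z in 𝓝 (0 : E2 × E2), κ (Φ z) = ngl I.ℓ z + K (ngm I.P z) - K z + c
  ψ : E2 × E2 → E2 × E2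
  κ' : E2 × E2 → ℝ
  ψ_ex : ExG ψ κ'
  ψφ : ∀ᶠ z in 𝓝 (0 : E2 × E2), ψ (φ z) = z
  φψ : ∀ᶠ z in 𝓝 (0 : E2 × E2), φ (ψ z) = z
  Ya : F.Y.a = fun z => (φ z).1
  Yb : F.Y.b = fun z => (φ z).2
  YS : F.Y.S = SS K (ng I.u) τ
  YX : F.Y.X = XX Φ (ng I.u) I.ρ (-h) τ
  YN : F.Y.N = N
  YM : F.Y.M = N'
  Xa : F.X.a = fun z => (ψ (z.2, z.1)).2
  Xb : F.X.b = fun z => (ψ (z.2, z.1)).1
  XS : F.X.S = SS (swK Φ K) (ng I.s) τ'
  XX : F.X.X = XX (sw Φ) (ng I.s) I.ρ' (-h) τ'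
  XN : F.X.N = N'i
  XM : F.X.M = Ni
  Fh : F.h = h
  /-- invariance of both families of leaves under `φ` and `ψ` -/
  inv_Y : ∀ᶠ w in 𝓝 (0 : E2 × E2),
    ∇ (SS K (ng I.u) τ (N' w.1)) (φ (w.2, ∇ (SS K (ng I.u) τ w.1) w.2)).1
      = (φ (w.2, ∇ (SS K (ng I.u) τ w.1) w.2)).2
  inv_X : ∀ᶠ w in 𝓝 (0 : E2 × E2),
    ∇ (SS (swK Φ K) (ng I.s) τ' (N w.1)) (φ (∇ (SS (swK Φ K) (ng I.s) τ' w.1) w.2, w.2)).2
      = (φ (∇ (SS (swK Φ K) (ng I.s) τ' w.1) w.2, w.2)).1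
  inv_Y' : ∀ᶠ w in 𝓝 (0 : E2 × E2),
    ∇ (SS K (ng I.u) τ (N'i w.1)) (ψ (w.2, ∇ (SS K (ng I.u) τ w.1) w.2)).1
      = (ψ (w.2, ∇ (SS K (ng I.u) τ w.1) w.2)).2
  inv_X' : ∀ᶠ w in 𝓝 (0 : E2 × E2),
    ∇ (SS (swK Φ K) (ng I.s) τ' (Ni w.1)) (ψ (∇ (SS (swK Φ K) (ng I.s) τ' w.1) w.2, w.2)).2
      = (ψ (∇ (SS (swK Φ K) (ng I.s) τ' w.1) w.2, w.2)).1

theorem star_ng {N N' : E2 → E2} {h : ℝ} (I : PFIn N N' h) :
    ∀ᶠ z in 𝓝 (0 : (E2 × E2) × E2),
      gradient (ng I.u z.1.2) z.2 + gradient (ng I.s z.1.1) z.2 = 0 →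
      0 < (hess (ng I.u z.1.2) z.2 + hess (ng I.s z.1.1) z.2).det ∧
      Real.log (hess (ng I.u z.1.2) z.2 + hess (ng I.s z.1.1) z.2).det
        = I.ρ z.1.2 z.2 + I.ρ' z.1.1 z.2 := by
  filter_upwards [I.star] with z hz h1
  have h2 : gradient (I.u z.1.2) z.2 + gradient (I.s z.1.1) z.2 = 0 := by
    rw [gradient_ng, gradient_ng, ← neg_add, neg_eq_zero] at h1
    exact h1
  have h3 : hess (ng I.u z.1.2) z.2 + hess (ng I.s z.1.1) z.2
      = - (hess (I.u z.1.2) z.2 + hess (I.s z.1.1) z.2) := by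
    rw [hess_ng, hess_ng]; abel
  rw [h3, det_neg2]
  exact hz h2

theorem ev_ball4 {P : (E2 × E2) × (E2 × E2) → Prop}
    (h : ∀ᶠ z in 𝓝 (0 : (E2 × E2) × (E2 × E2)), P z) :
    ∃ r > 0, ∀ x ∈ ball (0 : E2) r, ∀ y ∈ ball (0 : E2) r, ∀ q ∈ ball (0 : E2) r,
      ∀ p ∈ ball (0 : E2) r, P ((x, y), (q, p)) := by
  obtain ⟨r, hr, h1⟩ := Metric.eventually_nhds_iff_ball.1 h
  refine ⟨r, hr, fun x hx y hy q hq p hp => h1 ((x, y), (q, p)) ?_⟩
  have : ((0 : (E2 × E2) × (E2 × E2))) = (((0 : E2), (0 : E2)), ((0 : E2), (0 : E2))) := rfl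
  rw [this, ← ball_prod_same, ← ball_prod_same]
  exact ⟨⟨hx, hy⟩, ⟨hq, hp⟩⟩

/-- **the product formula of the input** -/
theorem pf_of_in {N N' : E2 → E2} {h : ℝ} (I : PFIn N N' h) (hh : 0 < h) {Ni N'i : E2 → E2}
    (h1 : Ni 0 = 0) (h2 : ContinuousAt Ni 0) (h3 : ∀ᶠ x in 𝓝 (0 : E2), N (Ni x) = x)
    (h1' : N'i 0 = 0) (h2' : ContinuousAt N'i 0) (h3' : ∀ᶠ y in 𝓝 (0 : E2), N' (N'i y) = y) :
    Nonempty (PfOut I Ni N'i) := by
  obtain ⟨Φ, K, D, D'⟩ := sides N N' h I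
  obtain ⟨Y, Y'⟩ := dyn N N' h I
  have W : Two Φ K (ng I.u) I.ρ I.ϑ (ng I.s) I.ρ' I.ϑ' (-h) N N' (ngm I.P) (ngl I.ℓ) :=
    ⟨D, D', Y, by rw [ngm_ngm, ngl_ngl]; exact Y'⟩
  obtain ⟨φ, κ, hφe, hφ, hκ, -⟩ := W.exists_phi
  obtain ⟨ax1, ax2⟩ := W.axes hφ
  obtain ⟨Q, hPQ, hQP, W2⟩ := W.inv h1 h2 h3 h1' h2' h3'
  obtain ⟨ψ, κ', hψe, hψ, -, -⟩ := W2.exists_phi
  obtain ⟨bx1, bx2⟩ := W2.axes hψ
  obtain ⟨τ, T⟩ := D.exists_tau
  obtain ⟨τ', T'⟩ := D'.exists_tau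
  have star := star_ng I
  have hform := formula_ev D D' T T' star
  have hdet := det_ev D D' T T' star
  -- the two divergence formulas
  have form : H12.FormStmt (SS K (ng I.u) τ) (XX Φ (ng I.u) I.ρ (-h) τ)
      (SS (swK Φ K) (ng I.s) τ') (XX (sw Φ) (ng I.s) I.ρ' (-h) τ') h := by
    filter_upwards [hform] with z hz e1 e2
    rw [← hz e1 e2]
    ring
  have hdet' : H12.DetStmt (SS K (ng I.u) τ) (SS (swK Φ K) (ng I.s) τ') (al Φ (ng I.u))
      (al (sw Φ) (ng I.s)) I.u I.s I.ρ I.ρ' := by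
    filter_upwards [hdet] with z hz e1
    refine hz ?_
    rw [gradient_ng, gradient_ng, ← neg_add, neg_eq_zero]
    exact e1
  obtain ⟨ρ₀, hρ₀, hdiv⟩ := H12.div_pf I D D' T T' hdet' form
  -- the map and its inverse
  have hψφ : ∀ᶠ z in 𝓝 (0 : E2 × E2), ψ (φ z) = z := by
    obtain ⟨Ψ, hΨ, hΦΨ, hΨΦ⟩ := D.ex.inv
    filter_upwards [hΨ.tendsto.eventually hφ, hΦΨ, (Y.ex.tendsto.comp hΨ.tendsto).eventually hψ,
      hΨ.tendsto.eventually hQP] with z e1 e2 e3 e4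
    rw [e2] at e1
    rw [e1]
    have e3' : ψ (Φ (ngm I.P (Ψ z))) = Φ (Q (ngm I.P (Ψ z))) := e3
    rw [e3', e4, e2]
  have hφψ : ∀ᶠ z in 𝓝 (0 : E2 × E2), φ (ψ z) = z := by
    obtain ⟨Ψ, hΨ, hΦΨ, hΨΦ⟩ := D.ex.inv
    filter_upwards [hΨ.tendsto.eventually hψ, hΦΨ, (W2.Y.ex.tendsto.comp hΨ.tendsto).eventually hφ,
      hΨ.tendsto.eventually hPQ] with z e1 e2 e3 e4
    rw [e2] at e1
    rw [e1]
    have e3' : φ (Φ (Q (Ψ z))) = Φ (ngm I.P (Q (Ψ z))) := e3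
    rw [e3', e4, e2]
  -- the two halves
  obtain ⟨r1, hr1, HY⟩ := half_of D T Y hφe.smooth hφe.sympl hφ ax1 ax2
    ⟨ρ₀, hρ₀, fun f hf hs v => (hdiv f hf hs v).2⟩
  obtain ⟨r2, hr2, HX⟩ := half_of (φ := swm ψ) (M := Ni) (N := N'i) D' T' W2.Y'
    (swm_smooth hψe.smooth) (swm_sympl hψe.smooth hψe.sympl) (Two.phi_sw hψ)
    (bx2.mono fun q hq => by simp only [swm]; rw [hq])
    (bx1.mono fun q hq => by simp only [swm]; rw [hq])
    ⟨ρ₀, hρ₀, fun f hf hs v => (hdiv f hf hs v).1⟩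
  obtain ⟨H, e0, e1, e2, e3, e4, e5, e6⟩ := HY r1 hr1 le_rfl
  obtain ⟨H', f0, f1, f2, f3, f4, f5, f6⟩ := HX r2 hr2 le_rfl
  obtain ⟨r3, hr3, hF⟩ := ev_ball4 form
  have hδ : 0 < min r3 (min H.ρ H'.ρ) := lt_min hr3 (lt_min H.ρ_pos H'.ρ_pos)
  have bb : ∀ x ∈ ball (0 : E2) (min r3 (min H.ρ H'.ρ)), x ∈ ball (0 : E2) r3 := fun x hx =>
    ball_subset_ball (min_le_left _ _) hx
  refine ⟨{ Φ := Φ
            K := K
            τ := τ
            τ' := τ'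
            F := { Y := H
                   X := H'
                   h := h
                   h_pos := hh
                   δ := min r3 (min H.ρ H'.ρ)
                   δ_pos := hδ
                   δ_le_Y := (min_le_right _ _).trans (min_le_left _ _)
                   δ_le_X := (min_le_right _ _).trans (min_le_right _ _)
                   prod := ?_ }
            D := D
            D' := D'
            T := T
            T' := T'
            φ := φ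
            κ := κ
            φ_ex := hφe
            φ_conj := hφ
            φ_pot := hκ
            ψ := ψ
            κ' := κ'
            ψ_ex := hψe
            ψφ := hψφ
            φψ := hφψ
            Ya := e1
            Yb := e2
            YS := e3
            YX := e4
            YN := e5
            YM := e6
            Xa := f1
            Xb := f2
            XS := f3
            XX := f4
            XN := f5
            XM := f6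
            Fh := rfl
            inv_Y := (inv_ev0 D T Y hφ ax2).mono fun w hw => hw.1
            inv_X := (inv_ev0 D' T' W.Y' (Two.phi_sw hφ)
              (ax1.mono fun q hq => by simp only [swm]; rw [hq])).mono fun w hw => hw.1
            inv_Y' := (inv_ev0 D T W2.Y hψ bx2).mono fun w hw => hw.1
            inv_X' := (inv_ev0 D' T' W2.Y' (Two.phi_sw hψ)
              (bx1.mono fun q hq => by simp only [swm]; rw [hq])).mono fun w hw => hw.1 }⟩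
  intro y hy x hx q hq p hp g1 g2
  rw [e3] at g1
  rw [f3] at g2
  have g3 := hF x (bb x hx) y (bb y hy) q (bb q hq) p (bb p hp) g1.symm g2.symm
  rw [e3, e4, f3, f4]
  simp only at g3
  rw [real_inner_comm p q] 
  exact g3

end Vale.Agent.P207.N3
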