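import Vale.Agent.P207.N3.H250.PF
import Vale.Agent.P207.N3.H862.JC

/-!
# P207, line N3, package P3: the input of the product formula

`ExG Φ K`: exact symplectic germ of `(E2 × E2, 0)` with potential `K`, points `(t, π)`, `(q, p)`.
`PFIn N N' h`: what the geometry gives on a transversal disc `D` of the axis of `γ` (coordinate
`t`): `u y = b_ξ ∘ D`, `ξ = ξ(y)` near `γ⁻` with normal coordinate `y`, `s x = b_η ∘ D`, `η = η(x)`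
near `γ⁺` with normal coordinate `x`, `π` = tangential part of the unit covector, `P` = the
Poincaré map of `γ⁻¹`, `ℓ` = the travel time, `ρ` = `r` + log (cos angle). -/

open Set Filter Topology Metric MeasureTheory
open scoped ContDiff

noncomputable section

namespace Vale.Agent.P207.N3

/-- `Φ₂ dΦ₁ - π dt = dK` at `z = (t, π)` -/
def ExactAt (Φ : E2 × E2 → E2 × E2) (K : E2 × E2 → ℝ) (z : E2 × E2) : Prop :=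
  ∀ v, inner ℝ (Φ z).2 (fderiv ℝ Φ z v).1 - inner ℝ z.2 v.1 = fderiv ℝ K z v

/-- exact symplectic germ at `0` -/
structure ExG (Φ : E2 × E2 → E2 × E2) (K : E2 × E2 → ℝ) : Prop where
  zero : Φ 0 = 0
  smooth : ∀ᶠ z in 𝓝 (0 : E2 × E2), ContDiffAt ℝ ∞ Φ z
  pot : ∀ᶠ z in 𝓝 (0 : E2 × E2), ContDiffAt ℝ ∞ K z
  exact : ∀ᶠ z in 𝓝 (0 : E2 × E2), ExactAt Φ K z

/-- the lift of the leaf `y` (unstable leaves: `π = ∇u_y(t)`) -/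
def lf (u : E2 → E2 → ℝ) (z : E2 × E2) : E2 × E2 := (z.2, gradient (u z.1) z.2)

/-- the lift of the stable leaf `x`: `π = - ∇s_x(t)` -/
def lf' (s : E2 → E2 → ℝ) (z : E2 × E2) : E2 × E2 := (z.2, - gradient (s z.1) z.2)

/-- The input of the product formula at a closed orbit; pairs `z = (label, t)`. -/
structure PFIn (N N' : E2 → E2) (h : ℝ) where
  N_zero : N 0 = 0
  N'_zero : N' 0 = 0
  N_cont : ContinuousAt N 0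
  N'_cont : ContinuousAt N' 0
  u : E2 → E2 → ℝ
  ρ : E2 → E2 → ℝ
  s : E2 → E2 → ℝ
  ρ' : E2 → E2 → ℝ
  W : Set (E2 × E2)
  W_mem : (0, 0) ∈ W
  u_jc : JC u W
  s_jc : JC s W
  ρ_jc : JC ρ W
  ρ'_jc : JC ρ' W
  /-- the disc is orthogonal to the axis -/
  crit : gradient (u 0) 0 = 0
  crit' : gradient (s 0) 0 = 0
  /-- normal coordinates on the two axes -/
  ϑ : E2 → E2
  ϑ' : E2 → E2
  ϑ_smooth : ∀ᶠ t in 𝓝 (0 : E2), ContDiffAt ℝ ∞ ϑ t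
  ϑ'_smooth : ∀ᶠ t in 𝓝 (0 : E2), ContDiffAt ℝ ∞ ϑ' t
  ϑ_zero : ϑ 0 = 0
  ϑ'_zero : ϑ' 0 = 0
  ϑ_inv : (fderiv ℝ ϑ 0).IsInvertible
  norm : ∀ v w, inner ℝ (fderiv ℝ ϑ 0 v) (fderiv ℝ ϑ' 0 w)
    = inner ℝ (hess (u 0) 0 v + hess (s 0) 0 v) w
  /-- labels of the two leaves through a point `(t, π)` -/
  yh : E2 × E2 → E2
  xh : E2 × E2 → E2
  yh_cont : ∀ᶠ z in 𝓝 (0 : E2 × E2), ContinuousAt yh z
  xh_cont : ∀ᶠ z in 𝓝 (0 : E2 × E2), ContinuousAt xh z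
  yh_zero : yh 0 = 0
  xh_zero : xh 0 = 0
  leaf_yh : ∀ᶠ z in 𝓝 (0 : E2 × E2), gradient (u (yh z)) z.1 = z.2
  yh_leaf : ∀ᶠ z in 𝓝 (0 : E2 × E2), yh (lf u z) = z.1
  leaf_xh : ∀ᶠ z in 𝓝 (0 : E2 × E2), gradient (s (xh z)) z.1 = - z.2
  xh_leaf : ∀ᶠ z in 𝓝 (0 : E2 × E2), xh (lf' s z) = z.1
  label : ∀ᶠ t in 𝓝 (0 : E2), yh (lf' s (0, t)) = ϑ' t
  label' : ∀ᶠ t in 𝓝 (0 : E2), xh (lf u (0, t)) = ϑ t
  /-- (1*), points `((x, y), t)` -/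
  star : ∀ᶠ z in 𝓝 (0 : (E2 × E2) × E2), gradient (u z.1.2) z.2 + gradient (s z.1.1) z.2 = 0 →
    0 < (hess (u z.1.2) z.2 + hess (s z.1.1) z.2).det ∧
    Real.log (hess (u z.1.2) z.2 + hess (s z.1.1) z.2).det = ρ z.1.2 z.2 + ρ' z.1.1 z.2
  /-- the Margulis densities of the axes are constant in normal coordinates -/
  dens : ∃ c, ∀ᶠ t in 𝓝 (0 : E2), Real.log |(fderiv ℝ ϑ t).det| = ρ 0 t - h * u 0 t + c
  dens' : ∃ c, ∀ᶠ t in 𝓝 (0 : E2), Real.log |(fderiv ℝ ϑ' t).det| = ρ' 0 t - h * s 0 t + c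
  /-- the Poincaré map of `γ⁻¹` and the travel time -/
  P : E2 × E2 → E2 × E2
  ℓ : E2 × E2 → ℝ
  P_zero : P 0 = 0
  P_smooth : ∀ᶠ z in 𝓝 (0 : E2 × E2), ContDiffAt ℝ ∞ P z
  ℓ_smooth : ∀ᶠ z in 𝓝 (0 : E2 × E2), ContDiffAt ℝ ∞ ℓ z
  P_leaf : ∃ c : E2 → ℝ, ∀ᶠ z in 𝓝 (0 : E2 × E2),
    gradient (u (N' z.1)) (P (lf u z)).1 = (P (lf u z)).2 ∧
    u (N' z.1) (P (lf u z)).1 = u z.1 z.2 + ℓ (lf u z) + c z.1
  P_leaf' : ∃ c : E2 → ℝ, ∀ᶠ z in 𝓝 (0 : E2 × E2),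
    gradient (s (N z.1)) (P (lf' s z)).1 = - (P (lf' s z)).2 ∧
    s (N z.1) (P (lf' s z)).1 = s z.1 z.2 - ℓ (lf' s z) + c z.1
  ρ_inv : ∃ c : E2 → ℝ, ∀ᶠ z in 𝓝 (0 : E2 × E2),
    ρ (N' z.1) (P (lf u z)).1 + Real.log |(fderiv ℝ (fun t => (P (lf u (z.1, t))).1) z.2).det|
      = ρ z.1 z.2 + h * ℓ (lf u z) + c z.1
  ρ'_inv : ∃ c : E2 → ℝ, ∀ᶠ z in 𝓝 (0 : E2 × E2),
    ρ' (N z.1) (P (lf' s z)).1 + Real.log |(fderiv ℝ (fun t => (P (lf' s (z.1, t))).1) z.2).det|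
      = ρ' z.1 z.2 - h * ℓ (lf' s z) + c z.1
  /-- stable and unstable holonomy of the Margulis measures -/
  hol : ∀ᶠ r₁ in 𝓝[>] (0 : ℝ), ∃ r₀ > 0, ∀ᶠ y in 𝓝 (0 : E2), ∀ f : E2 → ℝ, Continuous f →
    tsupport f ⊆ ball 0 r₀ →
    ∫ t in ball (0 : E2) r₁, f (xh (lf u (y, t))) *
        Real.exp (ρ y t + h * s (xh (lf u (y, t))) t)
      = ∫ t in ball (0 : E2) r₁, f (xh (lf u (0, t))) *
        Real.exp (ρ 0 t + h * s (xh (lf u (0, t))) t)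
  hol' : ∀ᶠ r₁ in 𝓝[>] (0 : ℝ), ∃ r₀ > 0, ∀ᶠ x in 𝓝 (0 : E2), ∀ f : E2 → ℝ, Continuous f →
    tsupport f ⊆ ball 0 r₀ →
    ∫ t in ball (0 : E2) r₁, f (yh (lf' s (x, t))) *
        Real.exp (ρ' x t + h * u (yh (lf' s (x, t))) t)
      = ∫ t in ball (0 : E2) r₁, f (yh (lf' s (0, t))) *
        Real.exp (ρ' 0 t + h * u (yh (lf' s (0, t))) t)

/-- (780) the exact symplectic chart straightening the two axes -/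
def ChartStmt : Prop :=
  ∀ (u0 s0 : E2 → ℝ) (ϑ ϑ' : E2 → E2), (∀ᶠ t in 𝓝 (0 : E2), ContDiffAt ℝ ∞ u0 t) →
    (∀ᶠ t in 𝓝 (0 : E2), ContDiffAt ℝ ∞ s0 t) → (∀ᶠ t in 𝓝 (0 : E2), ContDiffAt ℝ ∞ ϑ t) →
    (∀ᶠ t in 𝓝 (0 : E2), ContDiffAt ℝ ∞ ϑ' t) → gradient u0 0 = 0 → gradient s0 0 = 0 →
    ϑ 0 = 0 → ϑ' 0 = 0 → (fderiv ℝ ϑ 0).IsInvertible →
    (hess u0 0 + hess s0 0).IsInvertible →
    (∀ v w, inner ℝ (fderiv ℝ ϑ 0 v) (fderiv ℝ ϑ' 0 w)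
      = - inner ℝ (hess u0 0 v + hess s0 0 v) w) →
    ∃ (Φ : E2 × E2 → E2 × E2) (K : E2 × E2 → ℝ), ExG Φ K ∧
      (∀ᶠ t in 𝓝 (0 : E2), Φ (t, gradient u0 t) = (ϑ t, 0)) ∧
      (∀ᶠ t in 𝓝 (0 : E2), Φ (t, - gradient s0 t) = (0, ϑ' t))

end Vale.Agent.P207.N3
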