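import Vale.Agent.P207.N3.H250.MkSide
import Vale.Agent.P207.N3.H12.POrb
import Vale.Agent.P207.N3.H229.PFStar
import Vale.Agent.P207.N3.Top.Suite

/-!
# P207, line N3, Case 2: both sides of the link at a closed orbit
-/

open Set Filter Topology Metric MeasureTheory InnerProductSpace
open scoped ContDiff RealInnerProductSpace Gradient

noncomputable section

namespace Vale.Agent.P207.N3.H250

open H722 (GeoIn HessIn nor_contAt flip_neg flip_pos inv_zero)
open H722.GeoIn (xip xip_zero xip_cont)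

variable {Γ X B : Type} [Group Γ] [MetricSpace X] [ProperSpace X] [MulAction Γ X]
  [IsIsometricSMul Γ X] [TopologicalSpace B] [CompactSpace B] [T2Space B] [MulAction Γ B]
  [ContinuousConstSMul Γ B] {L : Leaf Γ X B}

section labels

variable (o : Orb L) (n : Nor L o) (n' : Nor L o.flip) (M : E2 ≃L[ℝ] E2)

/-- the label of the points near `γ⁻` -/
def yl (b : B) : E2 := M (n'.x b)

theorem yl_zero : yl o n' M o.neg = 0 := by
  rw [yl, ← flip_pos, n'.base, map_zero]

theorem ev_ne_pos : ∀ᶠ b in 𝓝 o.neg, b ≠ o.pos := isOpen_ne.mem_nhds o.neg_ne_pos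

theorem ev_ne_neg : ∀ᶠ b in 𝓝 o.pos, b ≠ o.neg := isOpen_ne.mem_nhds o.neg_ne_pos.symm

theorem yl_contAt {b : B} (h : b ≠ o.pos) : ContinuousAt (yl o n' M) b := by
  have h1 : ContinuousAt n'.x b := nor_contAt n' (by rw [flip_neg]; exact h)
  exact ContinuousAt.comp (g := M) M.continuous.continuousAt h1

theorem xip_yl {b : B} (h : b ≠ o.pos) : xip o n' M (yl o n' M b) = b := by
  rw [xip, yl, M.symm_apply_apply, n'.inv_left _ (by rw [flip_neg]; exact h)]

theorem yl_xip (a : E2) : yl o n' M (xip o n' M a) = a := by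
  rw [xip, yl, n'.inv_right, M.apply_symm_apply]

/-- the labels, unstable side -/
theorem labU : LabD n.x (yl o n' M) (xip o n' M) n.inv o.neg o.pos where
  y0 := yl_zero o n' M
  x0 := n.base
  yc := (ev_ne_pos o).mono fun _ h => yl_contAt o n' M h
  xc := (ev_ne_neg o).mono fun _ h => nor_contAt n h
  ξc := (xip_cont o n' M).continuousAt
  ξ0 := xip_zero o n' M
  η0 := inv_zero n
  ξy := (ev_ne_pos o).mono fun _ h => xip_yl o n' M h
  yξ := Eventually.of_forall (yl_xip o n' M)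
  ηx := (ev_ne_neg o).mono fun _ h => n.inv_left _ h
  xη := Eventually.of_forall n.inv_right

/-- the labels, stable side -/
theorem labS : LabD (yl o n' M) n.x n.inv (xip o n' M) o.flip.neg o.flip.pos := by
  rw [flip_neg, flip_pos]
  exact
  { y0 := n.base
    x0 := yl_zero o n' M
    yc := (ev_ne_neg o).mono fun _ h => nor_contAt n h
    xc := (ev_ne_pos o).mono fun _ h => yl_contAt o n' M h
    ξc := n.inv_cont.continuousAt
    ξ0 := inv_zero n
    η0 := xip_zero o n' M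
    ξy := (ev_ne_neg o).mono fun _ h => n.inv_left _ h
    yξ := Eventually.of_forall n.inv_right
    ηx := (ev_ne_pos o).mono fun _ h => xip_yl o n' M h
    xη := Eventually.of_forall (yl_xip o n' M) }

theorem smul_ne_pos {b : B} (h : b ≠ o.pos) : o.β⁻¹ • b ≠ o.pos := by
  intro h1
  apply h
  have h2 := congrArg (fun b => o.β • b) h1
  simp only [smul_inv_smul] at h2
  rw [h2, o.smul_pos]

theorem smul_ne_neg {b : B} (h : b ≠ o.neg) : o.β • b ≠ o.neg := by
  intro h1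
  apply h
  have h2 := congrArg (fun b => o.β⁻¹ • b) h1
  simp only [inv_smul_smul] at h2
  rw [h2, inv_smul_eq_iff, o.smul_neg]

/-- `β⁻¹` on the labels of the points near `γ⁻` -/
theorem yl_inv {b : B} (h : b ≠ o.pos) :
    yl o n' M (o.β⁻¹ • b) = H722.GeoIn.N' o n' M (yl o n' M b) := by
  have h1 := n'.equiv (o.β⁻¹ • b) (by rw [flip_neg]; exact smul_ne_pos o h)
  have h2 : o.flip.β⁻¹ • (o.β⁻¹ • b) = b := by
    change o.β⁻¹⁻¹ • (o.β⁻¹ • b) = b
    rw [inv_inv, smul_inv_smul]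
  rw [h2] at h1
  rw [H722.GeoIn.N', yl, yl, M.symm_apply_apply, h1, H790.NF.inv_fn n'.ok]

/-- `β` on the labels of the points near `γ⁻` -/
theorem yl_fn {b : B} (h : b ≠ o.pos) :
    yl o n' M (o.flip.β⁻¹ • b) = M (n'.N.fn (M.symm (yl o n' M b))) := by
  rw [yl, yl, M.symm_apply_apply, n'.equiv b (by rw [flip_neg]; exact h)]

/-- `β` on the labels of the points near `γ⁺` -/
theorem x_inv {b : B} (h : b ≠ o.neg) : n.x (o.flip.β⁻¹ • b) = n.N.inv (n.x b) := by
  have h1 := n.equiv (o.β • b) (smul_ne_neg o h)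
  rw [inv_smul_smul] at h1
  have h2 : o.flip.β⁻¹ = o.β := by
    change o.β⁻¹⁻¹ = o.β
    rw [inv_inv]
  rw [h2, h1, H790.NF.inv_fn n.ok]

end labels

section

variable {V : Type} [NormedAddCommGroup V] [NormedSpace ℝ V] [FiniteDimensional ℝ V]
  {I : GeoIn L V} {Mt : Metr L} (H : HessIn I Mt) (o : Orb L) (n : Nor L o)
  (n' : Nor L o.flip) (M : E2 ≃L[ℝ] E2) {h : ℝ}
  (P : PFIn n.N.fn (H722.GeoIn.N' o n' M) h)
  (hu : P.u = I.uu o n' M) (hs : P.s = I.ss o n) (hxh : P.xh = I.xh o n)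
  (hyh : P.yh = I.yh o n' M)
  (R : PfOut P n.N.inv (fun y => M (n'.N.fn (M.symm y))))

include H hu hs hxh in
/-- **the unstable side** -/
theorem sideU : Nonempty (H143.Side (Ten.tens Mt) o.β⁻¹ o.neg o.pos n.x (yl o n' M)
    R.F.Y R.F.X) := by
  obtain ⟨qq, t, C⟩ := exists_crD P R.D R.D' R.T R.T'
  have hdyn : ∀ᶠ w in 𝓝 (0 : E2 × E2), qq (H722.GeoIn.N' o n' M w.1, n.N.fn w.2)
      = (R.φ (qq w, ∇ (Side.SS R.K (ng P.u) R.τ w.1) (qq w))).1 :=
    cr_dyn C.cr P.N_zero P.N_cont P.N'_zero P.N'_cont R.φ_ex.zero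
      R.φ_ex.smooth.self_of_nhds.continuousAt (gr_cont R.D R.T) R.inv_Y R.inv_X
  rw [← R.YS, ← R.XS] at C
  rw [← R.YS] at hdyn
  rw [hu, hs, hxh] at C
  exact ⟨mkSide C (H306.linkU I H o n n' M) (labU o n n' M) I o.x
    (Eventually.of_forall fun w => H306.ep_zf I _ _) R.Ya
    ((ev_ne_neg o).mono fun b hb => n.equiv b hb)
    ((ev_ne_pos o).mono fun b hb => yl_inv o n' M hb) hdyn⟩

include H hu hs hyh in
/-- **the stable side** -/
theorem sideS : Nonempty (H143.Side (Ten.tens Mt) o.flip.β⁻¹ o.flip.neg o.flip.pos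
    (yl o n' M) n.x R.F.X R.F.Y) := by
  obtain ⟨qq, t, C⟩ := exists_crD' P R.D R.D' R.T R.T'
  have hN' : Continuous (fun y => M (n'.N.fn (M.symm y))) :=
    M.continuous.comp (n'.N.contDiff_fn.continuous.comp M.symm.continuous)
  have hdyn : ∀ᶠ w in 𝓝 (0 : E2 × E2), qq (n.N.inv w.1, M (n'.N.fn (M.symm w.2)))
      = (swm R.ψ (qq w, ∇ (Side.SS (swK R.Φ R.K) (ng P.s) R.τ' w.1) (qq w))).1 := by
    refine cr_dyn (N := fun y => M (n'.N.fn (M.symm y))) (N' := n.N.inv) C.cr ?_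
      hN'.continuousAt (H790.NF.inv_zero n.ok) n.N.contDiff_inv.continuous.continuousAt ?_ ?_
      (gr_cont R.D' R.T') R.inv_X' R.inv_Y'
    · rw [map_zero, H790.NF.fn_zero n'.ok, map_zero]
    · simp only [swm]
      have := R.ψ_ex.zero
      show ((R.ψ (0, 0)).2, (R.ψ (0, 0)).1) = 0
      rw [show ((0, 0) : E2 × E2) = 0 from rfl, this]
      rfl
    · exact (swm_smooth R.ψ_ex.smooth).self_of_nhds.continuousAt
  rw [← R.YS, ← R.XS] at C
  rw [← R.XS] at hdyn
  rw [hu, hs, hyh] at C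
  have g1 : ∀ᶠ b in 𝓝 o.flip.pos, yl o n' M (o.flip.β⁻¹ • b)
      = M (n'.N.fn (M.symm (yl o n' M b))) := by
    rw [flip_pos]
    exact (ev_ne_pos o).mono fun b hb => yl_fn o n' M hb
  have g2 : ∀ᶠ b in 𝓝 o.flip.neg, n.x (o.flip.β⁻¹ • b) = n.N.inv (n.x b) := by
    rw [flip_neg]
    exact (ev_ne_neg o).mono fun b hb => x_inv o n hb
  exact ⟨mkSide C (H306.linkS I H o n n' M) (labS o n n' M) I o.x
    (Eventually.of_forall fun w => H306.ep_zf I _ _)
    (N := fun y => M (n'.N.fn (M.symm y))) (N' := n.N.inv) (φ := swm R.ψ) R.Xa g1 g2 hdyn⟩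

include H in
/-- **the product formula of the geometry with both sides of the link** -/
theorem exists_pOrb_sides (hh : 0 < h) (hu : P.u = I.uu o n' M) (hs : P.s = I.ss o n)
    (hxh : P.xh = I.xh o n) (hyh : P.yh = I.yh o n' M) :
    ∃ R : H12.POrb (Ten.tens Mt) n n', R.M = M ∧ R.D.h = h ∧ R.c = -(I.r₀ ^ 2) ∧
      Nonempty (H143.Side (Ten.tens Mt) o.β⁻¹ o.neg o.pos n.x (yl o n' M) R.D.Y R.D.X) ∧
      Nonempty (H143.Side (Ten.tens Mt) o.flip.β⁻¹ o.flip.neg o.flip.pos (yl o n' M) n.x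
        R.D.X R.D.Y) := by
  have hN' : Continuous (fun y => M (n'.N.fn (M.symm y))) :=
    M.continuous.comp (n'.N.contDiff_fn.continuous.comp M.symm.continuous)
  obtain ⟨R⟩ := pf_of_in P hh (Ni := n.N.inv) (N'i := fun y => M (n'.N.fn (M.symm y)))
    (H790.NF.inv_zero n.ok) n.N.contDiff_inv.continuous.continuousAt
    (Eventually.of_forall fun x => H790.NF.fn_inv n.ok x)
    (by rw [map_zero, H790.NF.fn_zero n'.ok, map_zero]) hN'.continuousAt
    (Eventually.of_forall fun y => by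
      show M (n'.N.inv (M.symm (M (n'.N.fn (M.symm y))))) = y
      rw [ContinuousLinearEquiv.symm_apply_apply, H790.NF.inv_fn n'.ok,
        ContinuousLinearEquiv.apply_symm_apply])
  have sU := sideU H o n n' M P hu hs hxh R
  have sS := sideS H o n n' M P hu hs hyh R
  have lU := H473.linkPF P R.D R.D' R.T R.T'
  have lS := H473.linkPF' P R.D R.D' R.T R.T'
  rw [← R.YS, ← R.XS] at lU lS
  rw [hu, hs, hxh] at lU
  rw [hu, hs, hyh] at lS
  refine ⟨⟨R.F, M, -(I.r₀ ^ 2), ?_, ?_, ?_, ?_, ?_, ?_, ?_⟩, rfl, R.Fh, rfl, sU, sS⟩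
  · exact neg_ne_zero.2 (pow_ne_zero 2 I.r₀_pos.ne')
  · intro x; rw [R.XM]
  · intro y; rw [R.YM]; rfl
  · intro y; rw [R.XN]
  · intro x; rw [R.YN]
  · refine H12.linkAt_of lU (H306.linkU I H o n n' M) ?_ ?_ ?_
    · rw [H306.linkU_ξ, xip_zero]; rfl
    · rw [H306.linkU_η, H722.inv_zero]; rfl
    · refine Eventually.of_forall fun v q hq => ?_
      rw [H306.linkU_η] at hq
      show n.x (L.e o.x v) = q
      rw [hq, n.inv_right]
  · refine H12.linkAt_of lS (H306.linkS I H o n n' M) ?_ ?_ ?_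
    · rw [H306.linkS_ξ, H722.inv_zero]; exact (L.ep_flip o.x).symm
    · rw [H306.linkS_η, xip_zero, L.ep_flip, L.flip_flip]; rfl
    · refine Eventually.of_forall fun v q hq => ?_
      rw [H306.linkS_η] at hq
      show M (n'.x (L.e (L.flip o.x) v)) = q
      rw [hq]
      show M (n'.x (n'.inv (M.symm q))) = q
      rw [n'.inv_right, ContinuousLinearEquiv.apply_symm_apply]

end

end Vale.Agent.P207.N3.H250

namespace Vale.Agent.P207.N3

variable {Γ X B : Type} [Group Γ] [MetricSpace X] [ProperSpace X] [MulAction Γ X]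
  [IsIsometricSMul Γ X] [TopologicalSpace B] [CompactSpace B] [T2Space B] [MulAction Γ B]
  [ContinuousConstSMul Γ B] {L : Leaf Γ X B} [MeasurableSpace B] [BorelSpace B] {V : Type}
  [NormedAddCommGroup V] [NormedSpace ℝ V] [FiniteDimensional ℝ V]

/-- **the product formula at a closed orbit of a suite, with both sides of the link** -/
theorem Suite.exists_pOrb (S : Suite L V) (o : Orb L) (n : Nor L o) (n' : Nor L o.flip) :
    ∃ R : H12.POrb S.T n n', R.D.h = S.A.h ∧ R.c = -(S.I.r₀ ^ 2) ∧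
      Nonempty (H143.Side S.T o.β⁻¹ o.neg o.pos n.x (fun b => R.M (n'.x b)) R.D.Y R.D.X) ∧
      Nonempty (H143.Side S.T o.flip.β⁻¹ o.flip.neg o.flip.pos (fun b => R.M (n'.x b)) n.x
        R.D.X R.D.Y) := by
  obtain ⟨M, P, hu, hs, hxh, hyh, -⟩ := H229.exists_pfIn S.I S.A o n n' S.H S.norm
  obtain ⟨R, e1, e2, e3, e4, e5⟩ := H250.exists_pOrb_sides S.H o n n' M P S.A.h_pos hu hs hxh hyh
  subst e1
  exact ⟨R, e2, e3, e4, e5⟩

end Vale.Agent.P207.N3
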