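import Vale.Agent.P207.N3.H250.InvFn

/-!
# P207, line N3, P3: determinants on the plane
-/

open Set Filter Topology Metric MeasureTheory
open scoped ContDiff

noncomputable section

namespace Vale.Agent.P207.N3

theorem det_E2 (A : E2 →L[ℝ] E2) : A.det = (A (EuclideanSpace.single 0 1)) 0 *
    (A (EuclideanSpace.single 1 1)) 1 - (A (EuclideanSpace.single 1 1)) 0 *
    (A (EuclideanSpace.single 0 1)) 1 := by
  have h1 : A.det = LinearMap.det (A : E2 →ₗ[ℝ] E2) := rfl
  rw [h1, ← LinearMap.det_toMatrix (EuclideanSpace.basisFun (Fin 2) ℝ).toBasis,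
    Matrix.det_fin_two]
  simp [LinearMap.toMatrix_apply]

theorem contDiff_det2 : ContDiff ℝ ∞ (fun A : E2 →L[ℝ] E2 => A.det) := by
  have h1 : (fun A : E2 →L[ℝ] E2 => A.det) = fun A => (A (EuclideanSpace.single 0 1)) 0 *
    (A (EuclideanSpace.single 1 1)) 1 - (A (EuclideanSpace.single 1 1)) 0 *
    (A (EuclideanSpace.single 0 1)) 1 := funext det_E2
  rw [h1]
  have h2 : ∀ (i j : Fin 2), ContDiff ℝ ∞ (fun A : E2 →L[ℝ] E2 =>
      (A (EuclideanSpace.single i 1)) j) := by
    intro i j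
    have : (fun A : E2 →L[ℝ] E2 => (A (EuclideanSpace.single i 1)) j) =
        fun A : E2 →L[ℝ] E2 => ((EuclideanSpace.proj j : E2 →L[ℝ] ℝ).comp
          (ContinuousLinearMap.apply ℝ E2 (EuclideanSpace.single i (1 : ℝ)))) A := rfl
    rw [this]
    exact ContinuousLinearMap.contDiff _
  exact ((h2 0 0).mul (h2 1 1)).sub ((h2 1 0).mul (h2 0 1))

theorem det_comp2 (A B : E2 →L[ℝ] E2) : (A ∘L B).det = A.det * B.det := by
  show LinearMap.det ((A : E2 →ₗ[ℝ] E2) ∘ₗ (B : E2 →ₗ[ℝ] E2)) = _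
  rw [LinearMap.det_comp]

theorem det_neg2 (A : E2 →L[ℝ] E2) : (-A).det = A.det := by
  rw [det_E2, det_E2]
  simp

theorem det_ne_zero_iff (A : E2 →L[ℝ] E2) : A.det ≠ 0 ↔ A.IsInvertible := by
  constructor
  · intro h
    have h1 : IsUnit (LinearMap.det (A : E2 →ₗ[ℝ] E2)) := isUnit_iff_ne_zero.2 h
    refine ⟨(LinearEquiv.ofIsUnitDet (f := (A : E2 →ₗ[ℝ] E2))
      (v := (EuclideanSpace.basisFun (Fin 2) ℝ).toBasis)
      (v' := (EuclideanSpace.basisFun (Fin 2) ℝ).toBasis) ?_).toContinuousLinearEquiv, ?_⟩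
    · rwa [LinearMap.det_toMatrix]
    · ext x; rfl
  · rintro ⟨B, rfl⟩
    have h1 : ((B : E2 →L[ℝ] E2) ∘L (B.symm : E2 →L[ℝ] E2)).det = 1 := by
      have : (B : E2 →L[ℝ] E2) ∘L (B.symm : E2 →L[ℝ] E2) = ContinuousLinearMap.id ℝ E2 := by
        ext x; simp
      rw [this]
      show LinearMap.det (LinearMap.id : E2 →ₗ[ℝ] E2) = 1
      exact LinearMap.det_id
    rw [det_comp2] at h1
    intro h0
    rw [h0, zero_mul] at h1
    exact zero_ne_one h1

theorem det_adjoint2 (A B : E2 →L[ℝ] E2) (h : ∀ v w, inner ℝ (A v) w = inner ℝ v (B w)) :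
    A.det = B.det := by
  have h1 : ∀ i j : Fin 2, (A (EuclideanSpace.single i 1)) j = (B (EuclideanSpace.single j 1)) i := by
    intro i j
    have h2 := h (EuclideanSpace.single i 1) (EuclideanSpace.single j 1)
    simp only [EuclideanSpace.inner_single_left, EuclideanSpace.inner_single_right] at h2
    simpa using h2
  rw [det_E2, det_E2, h1, h1, h1, h1]
  ring

theorem det_one_sub_comm (A B : E2 →L[ℝ] E2) : (1 - A ∘L B).det = (1 - B ∘L A).det := by
  have key : ∀ (P Q : E2 →L[ℝ] E2) (i j : Fin 2), (P (Q (EuclideanSpace.single i 1))) j =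
      (Q (EuclideanSpace.single i 1)) 0 * (P (EuclideanSpace.single 0 1)) j +
      (Q (EuclideanSpace.single i 1)) 1 * (P (EuclideanSpace.single 1 1)) j := by
    intro P Q i j
    set v := Q (EuclideanSpace.single i 1) with hv
    have h1 : v = v 0 • EuclideanSpace.single (0 : Fin 2) (1 : ℝ) +
        v 1 • EuclideanSpace.single (1 : Fin 2) (1 : ℝ) := by
      ext k
      fin_cases k <;> simp
    conv_lhs => rw [h1]
    simp
  rw [det_E2, det_E2]
  simp only [sub_apply, one_apply_eq_self,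
    ContinuousLinearMap.comp_apply, PiLp.sub_apply]
  rw [key A B 0 0, key A B 0 1, key A B 1 0, key A B 1 1, key B A 0 0, key B A 0 1, key B A 1 0,
    key B A 1 1]
  simp
  ring

end Vale.Agent.P207.N3
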