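import Vale.Agent.P207.N3.H250.Germ

/-!
# P207, line N3, P3: inverse function theorem for germs of families
-/

open Set Filter Topology Metric MeasureTheory
open scoped ContDiff

noncomputable section

namespace Vale.Agent.P207.N3

set_option linter.unusedSectionVars false

variable {E : Type} [NormedAddCommGroup E] [NormedSpace ℝ E] [CompleteSpace E] [Nontrivial E]

/-- `‖(t - t') ‖ ≤ C ‖f t - f t'‖` when `f` is close to a linear isomorphism -/
theorem antilip_of_close {f : E → E} {A : E ≃L[ℝ] E} {r : ℝ}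
    (hd : ∀ t ∈ ball (0 : E) r, DifferentiableAt ℝ f t)
    (hb : ∀ t ∈ ball (0 : E) r, ‖fderiv ℝ f t - A‖ ≤ 1 / (2 * (‖(A.symm : E →L[ℝ] E)‖ + 1)))
    {t t' : E} (ht : t ∈ ball (0 : E) r) (ht' : t' ∈ ball (0 : E) r) :
    ‖t - t'‖ ≤ 2 * (‖(A.symm : E →L[ℝ] E)‖ + 1) * ‖f t - f t'‖ := by
  set c := ‖(A.symm : E →L[ℝ] E)‖ + 1 with hc
  have hc0 : 0 < c := by positivity
  have h1 : ‖f t - f t' - A (t - t')‖ ≤ 1 / (2 * c) * ‖t - t'‖ :=
    (convex_ball (0 : E) r).norm_image_sub_le_of_norm_hasFDerivWithin_le' (f := f)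
      (f' := fun x => fderiv ℝ f x) (φ := (A : E →L[ℝ] E))
      (fun x hx => (hd x hx).hasFDerivAt.hasFDerivWithinAt) (fun x hx => hb x hx) ht' ht
  have h2 : ‖t - t'‖ ≤ c * ‖A (t - t')‖ := by
    have h3 : t - t' = A.symm (A (t - t')) := by simp
    calc ‖t - t'‖ = ‖(A.symm : E →L[ℝ] E) (A (t - t'))‖ := by
          rw [ContinuousLinearEquiv.coe_coe, ← h3]
      _ ≤ ‖(A.symm : E →L[ℝ] E)‖ * ‖A (t - t')‖ := ContinuousLinearMap.le_opNorm _ _
      _ ≤ c * ‖A (t - t')‖ := by gcongr; rw [hc]; linarith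
  have h4 : ‖A (t - t')‖ ≤ ‖f t - f t'‖ + 1 / (2 * c) * ‖t - t'‖ := by
    have : A (t - t') = (f t - f t') - (f t - f t' - A (t - t')) := by abel
    rw [this]
    exact (norm_sub_le _ _).trans (by linarith)
  have h5 : ‖t - t'‖ ≤ c * ‖f t - f t'‖ + 1 / 2 * ‖t - t'‖ := by
    calc ‖t - t'‖ ≤ c * (‖f t - f t'‖ + 1 / (2 * c) * ‖t - t'‖) := h2.trans (by gcongr)
      _ = c * ‖f t - f t'‖ + 1 / 2 * ‖t - t'‖ := by field_simp
  linarith

/-- the image of a ball contains a ball -/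
theorem surj_of_close {f : E → E} {A : E ≃L[ℝ] E} {r : ℝ} (hr : 0 < r)
    (hd : ∀ t ∈ ball (0 : E) r, DifferentiableAt ℝ f t)
    (hb : ∀ t ∈ ball (0 : E) r, ‖fderiv ℝ f t - A‖ ≤ 1 / (2 * (‖(A.symm : E →L[ℝ] E)‖ + 1)))
    {q : E} (hq : ‖q - f 0‖ < r / (8 * (‖(A.symm : E →L[ℝ] E)‖ + 1))) :
    ∃ t ∈ ball (0 : E) r, f t = q := by
  set c := ‖(A.symm : E →L[ℝ] E)‖ + 1 with hc
  have hc0 : 0 < c := by positivity
  have happ : ApproximatesLinearOn f (A : E →L[ℝ] E) (closedBall (0 : E) (r / 2))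
      (Real.toNNReal (1 / (2 * c))) := by
    intro x hx y hy
    rw [Real.coe_toNNReal _ (by positivity)]
    exact (convex_closedBall (0 : E) (r / 2)).norm_image_sub_le_of_norm_hasFDerivWithin_le'
      (f := f) (f' := fun x => fderiv ℝ f x) (φ := (A : E →L[ℝ] E))
      (fun x hx => (hd x (closedBall_subset_ball (by linarith) hx)).hasFDerivAt.hasFDerivWithinAt)
      (fun x hx => hb x (closedBall_subset_ball (by linarith) hx)) hy hx
  have hsurj := happ.surjOn_closedBall_of_nonlinearRightInverse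
    (A.toNonlinearRightInverse) (ε := r / 2) (by linarith) (b := 0) (subset_refl _)
  have hN : ((A.toNonlinearRightInverse.nnnorm : ℝ)) = ‖(A.symm : E →L[ℝ] E)‖ := rfl
  have hle : r / (8 * c) ≤ (((A.toNonlinearRightInverse.nnnorm : ℝ))⁻¹ -
      (Real.toNNReal (1 / (2 * c)) : ℝ)) * (r / 2) := by
    rw [Real.coe_toNNReal _ (by positivity), hN]
    rcases eq_or_lt_of_le (norm_nonneg (A.symm : E →L[ℝ] E)) with h0 | h0
    · -- trivial space
      exfalso
      have hA : (A.symm : E →L[ℝ] E) = 0 := norm_eq_zero.1 h0.symm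
      obtain ⟨x, hx⟩ := exists_ne (0 : E)
      refine hx ?_
      have : x = (A.symm : E →L[ℝ] E) (A x) := by simp
      rw [this, hA]
      rfl
    · have h1 : c⁻¹ ≤ (‖(A.symm : E →L[ℝ] E)‖)⁻¹ := by
        gcongr
        rw [hc]; linarith
      have h2 : r / (8 * c) = (c⁻¹ - 1 / (2 * c)) * (r / 2) * (1 / 2) := by field_simp; ring
      rw [h2]
      have h3 : 0 ≤ (c⁻¹ - 1 / (2 * c)) := by
        have : c⁻¹ - 1 / (2 * c) = 1 / (2 * c) := by field_simp; ring
        rw [this]; positivity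
      nlinarith [mul_nonneg h3 hr.le, mul_le_mul_of_nonneg_right (sub_le_sub_right h1 (1 / (2 * c)))
        (by linarith : (0 : ℝ) ≤ r / 2)]
  obtain ⟨t, ht, htq⟩ := hsurj (show q ∈ closedBall (f 0) _ from by
    rw [mem_closedBall, dist_eq_norm]
    exact hq.le.trans hle)
  exact ⟨t, closedBall_subset_ball (by linarith) ht, htq⟩

/-- **inverse function theorem with a parameter** -/
theorem jg_inverse {f : E2 → E → E} (hf : JG f) (h0 : f 0 0 = 0)
    (hA : (fderiv ℝ (f 0) 0).IsInvertible) :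
    ∃ τ : E2 → E → E, JG τ ∧ τ 0 0 = 0 ∧
      (∀ᶠ p in 𝓝 ((0 : E2), (0 : E)), f p.1 (τ p.1 p.2) = p.2) ∧
      ∀ᶠ p in 𝓝 ((0 : E2), (0 : E)), τ p.1 (f p.1 p.2) = p.2 := by
  obtain ⟨S, hS0, hS⟩ := hf
  obtain ⟨A, hA⟩ := hA
  set c := ‖(A.symm : E →L[ℝ] E)‖ + 1 with hc
  have hc0 : 0 < c := by positivity
  have hSd := hS.fderiv
  have hcd : ContinuousAt (fun p : E2 × E => fderiv ℝ (f p.1) p.2) (0, 0) :=
    hSd.continuousOn.continuousAt (hS.isOpen.mem_nhds hS0)
  have hUo : IsOpen {B : E →L[ℝ] E | B.IsInvertible} := ContinuousLinearEquiv.isOpen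
  have ev : ∀ᶠ p in 𝓝 ((0 : E2), (0 : E)), p ∈ S ∧
      ‖fderiv ℝ (f p.1) p.2 - A‖ < 1 / (2 * c) ∧ (fderiv ℝ (f p.1) p.2).IsInvertible := by
    have e1 := hS.isOpen.mem_nhds hS0
    have e2 : ∀ᶠ p in 𝓝 ((0 : E2), (0 : E)), ‖fderiv ℝ (f p.1) p.2 - A‖ < 1 / (2 * c) := by
      have h1 : ContinuousAt (fun p : E2 × E => ‖fderiv ℝ (f p.1) p.2 - A‖) (0, 0) :=
        (hcd.sub continuousAt_const).norm
      refine h1.eventually_lt continuousAt_const ?_
      show ‖fderiv ℝ (f 0) 0 - (A : E →L[ℝ] E)‖ < 1 / (2 * c)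
      rw [← hA, sub_self, norm_zero]
      positivity
    have e3 : ∀ᶠ p in 𝓝 ((0 : E2), (0 : E)), (fderiv ℝ (f p.1) p.2).IsInvertible :=
      hcd.eventually (hUo.mem_nhds ⟨A, hA⟩)
    filter_upwards [e1, e2, e3] with p h1 h2 h3
    exact ⟨h1, h2, h3⟩
  obtain ⟨δ, hδ, hev⟩ := Metric.eventually_nhds_iff_ball.1 ev
  have hball : ∀ {y : E2} {t : E}, y ∈ ball (0 : E2) δ → t ∈ ball (0 : E) δ →
      (y, t) ∈ ball ((0 : E2), (0 : E)) δ := by
    intro y t hy ht
    rw [← ball_prod_same]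
    exact ⟨hy, ht⟩
  have hfc : ContinuousOn (fun p : E2 × E => f p.1 p.2) S := hS.continuousOn
  have hη : 0 < δ / (16 * c) := by positivity
  have ev2 : ∀ᶠ y in 𝓝 (0 : E2), ‖f y 0‖ < δ / (16 * c) := by
    have h1 : ContinuousAt (fun p : E2 × E => f p.1 p.2) (0, 0) :=
      hfc.continuousAt (hS.isOpen.mem_nhds hS0)
    have h2 : ContinuousAt (fun y : E2 => f y 0) 0 :=
      ContinuousAt.comp (f := fun y : E2 => (y, (0 : E))) h1
        (Continuous.prodMk_left (0 : E)).continuousAt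
    refine h2.norm.eventually_lt continuousAt_const ?_
    rw [h0, norm_zero]; exact hη
  obtain ⟨δ1, hδ1, hev2⟩ := Metric.eventually_nhds_iff_ball.1 ev2
  set δ2 := min δ δ1 with hδ2
  have hδ2p : 0 < δ2 := lt_min hδ hδ1
  set τ : E2 → E → E := fun y q => Function.invFunOn (f y) (ball (0 : E) δ) q with hτ
  set T : Set (E2 × E) := ball (0 : E2) δ2 ×ˢ ball (0 : E) (δ / (16 * c)) with hT
  have hTo : IsOpen T := isOpen_ball.prod isOpen_ball
  have hex : ∀ p ∈ T, τ p.1 p.2 ∈ ball (0 : E) δ ∧ f p.1 (τ p.1 p.2) = p.2 := by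
    rintro ⟨y, q⟩ ⟨hy, hq⟩
    have hyδ : y ∈ ball (0 : E2) δ := ball_subset_ball (min_le_left _ _) hy
    have hy1 : ‖f y 0‖ < δ / (16 * c) := hev2 y (ball_subset_ball (min_le_right _ _) hy)
    have hq1 : ‖q‖ < δ / (16 * c) := by simpa using hq
    have hs := surj_of_close (f := f y) (A := A) hδ
      (fun t ht => hS.differentiableAt (p := (y, t)) (hev _ (hball hyδ ht)).1)
      (fun t ht => (hev _ (hball hyδ ht)).2.1.le) (q := q) (by
        refine (norm_sub_le _ _).trans_lt ?_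
        have : δ / (8 * c) = δ / (16 * c) + δ / (16 * c) := by field_simp; ring
        rw [this]; linarith)
    obtain ⟨t, ht, htq⟩ := hs
    have hmem : ∃ t ∈ ball (0 : E) δ, f y t = q := ⟨t, ht, htq⟩
    exact ⟨Function.invFunOn_mem hmem, Function.invFunOn_eq hmem⟩
  have hanti : ∀ y ∈ ball (0 : E2) δ, ∀ t ∈ ball (0 : E) δ, ∀ t' ∈ ball (0 : E) δ,
      ‖t - t'‖ ≤ 2 * c * ‖f y t - f y t'‖ := by
    intro y hy t ht t' ht'
    exact antilip_of_close (f := f y) (A := A)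
      (fun t ht => hS.differentiableAt (p := (y, t)) (hev _ (hball hy ht)).1)
      (fun t ht => (hev _ (hball hy ht)).2.1.le) ht ht'
  have hcont : ContinuousOn (fun p : E2 × E => τ p.1 p.2) T := by
    intro p hp
    refine ContinuousAt.continuousWithinAt ?_
    have hp' := hex p hp
    have hpδ : p.1 ∈ ball (0 : E2) δ := ball_subset_ball (min_le_left _ _) hp.1
    have hc1 : ContinuousAt (fun p' : E2 × E => p'.2 - f p'.1 (τ p.1 p.2)) p := by
      have h2 : ContinuousAt (fun p : E2 × E => f p.1 p.2) (p.1, τ p.1 p.2) :=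
        hfc.continuousAt (hS.isOpen.mem_nhds (hev _ (hball hpδ hp'.1)).1)
      exact continuousAt_snd.sub (ContinuousAt.comp (f := fun p' : E2 × E => (p'.1, τ p.1 p.2)) h2
        (continuousAt_fst.prodMk continuousAt_const))
    have hlim : Tendsto (fun p' : E2 × E => 2 * c * ‖p'.2 - f p'.1 (τ p.1 p.2)‖) (𝓝 p) (𝓝 0) := by
      have h3 := (hc1.norm.tendsto.const_mul (2 * c))
      simpa [hp'.2] using h3
    refine tendsto_iff_norm_sub_tendsto_zero.2 (squeeze_zero' (Eventually.of_forall fun _ =>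
      norm_nonneg _) ?_ hlim)
    filter_upwards [hTo.mem_nhds hp] with p' hp1
    have h4 := hex p' hp1
    have h5 := hanti p'.1 (ball_subset_ball (min_le_left _ _) hp1.1) _ h4.1 _ hp'.1
    rwa [h4.2] at h5
  have hder : ∀ p ∈ T, HasFDerivAt (τ p.1) ((fderiv ℝ (f p.1) (τ p.1 p.2)).inverse) p.2 := by
    intro p hp
    have hp' := hex p hp
    have hpδ : p.1 ∈ ball (0 : E2) δ := ball_subset_ball (min_le_left _ _) hp.1
    have hinv := (hev _ (hball hpδ hp'.1)).2.2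
    obtain ⟨B, hB⟩ := hinv
    have h1 : HasFDerivAt (f p.1) (B : E →L[ℝ] E) (τ p.1 p.2) := by
      rw [hB]
      exact (hS.differentiableAt (p := (p.1, τ p.1 p.2)) (hev _ (hball hpδ hp'.1)).1).hasFDerivAt
    have h2 : ContinuousAt (τ p.1) p.2 := by
      have := (hcont.continuousAt (hTo.mem_nhds hp))
      exact ContinuousAt.comp (f := fun q : E => (p.1, q)) this
        (Continuous.prodMk_right p.1).continuousAt
    have h3 : ∀ᶠ q in 𝓝 p.2, f p.1 (τ p.1 q) = q := by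
      have h6 : Tendsto (fun q : E => (p.1, q)) (𝓝 p.2) (𝓝 p) :=
        (Continuous.prodMk_right p.1).tendsto _
      filter_upwards [h6.eventually (hTo.mem_nhds hp)] with q hq
      exact (hex _ hq).2
    have h4 := HasFDerivAt.of_local_left_inverse h2 h1 h3
    have h5 : (fderiv ℝ (f p.1) (τ p.1 p.2)).inverse = (B.symm : E →L[ℝ] E) := by
      show (fderiv ℝ (f p.1) (τ p.1 p.2)).inverse = _
      rw [← hB, ContinuousLinearMap.inverse_equiv]
    rw [h5]
    exact h4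
  have hjc : ∀ n : ℕ, JCn n τ T := by
    intro n
    induction n with
    | zero => exact JCn_zero.2 ⟨hTo, hcont⟩
    | succ n ih =>
      refine JCn.of_hasFDerivAt (f1 := fun y q => (fderiv ℝ (f y) (τ y q)).inverse) hcont hder ?_
      have h1 : JCn n (fun y q => fderiv ℝ (f y) (τ y q)) (cdom τ T S) := (hSd.jcn n).comp ih
      have h2 : JC (fun (_ : E2) (B : E →L[ℝ] E) => B.inverse)
          ((univ : Set E2) ×ˢ {B : E →L[ℝ] E | B.IsInvertible}) := by
        refine JC.of_contDiffOn hUo (fun B hB => ?_) (isOpen_univ.prod hUo) fun _ hp => hp.2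
        obtain ⟨e, rfl⟩ := hB
        exact (contDiffAt_map_inverse e).contDiffWithinAt
      refine ((h2.jcn n).comp h1).mono hTo fun p hp => ?_
      have hp' := hex p hp
      have hpδ : p.1 ∈ ball (0 : E2) δ := ball_subset_ball (min_le_left _ _) hp.1
      exact ⟨⟨hp, (hev _ (hball hpδ hp'.1)).1⟩, mem_univ _, (hev _ (hball hpδ hp'.1)).2.2⟩
  have hT0 : ((0 : E2), (0 : E)) ∈ T := ⟨mem_ball_self hδ2p, mem_ball_self hη⟩
  have hinj : ∀ p ∈ T, ∀ t ∈ ball (0 : E) δ, f p.1 t = p.2 → τ p.1 p.2 = t := by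
    intro p hp t ht hft
    have hp' := hex p hp
    have h5 := hanti p.1 (ball_subset_ball (min_le_left _ _) hp.1) _ hp'.1 _ ht
    rw [hp'.2, hft, sub_self, norm_zero, mul_zero] at h5
    exact sub_eq_zero.1 (norm_le_zero_iff.1 h5)
  refine ⟨τ, ⟨T, hT0, JC.of_jcn hjc⟩, hinj (0, 0) hT0 0 (mem_ball_self hδ) h0, ?_, ?_⟩
  · filter_upwards [hTo.mem_nhds hT0] with p hp
    exact (hex p hp).2
  · have h1 : ContinuousAt (fun p : E2 × E => (p.1, f p.1 p.2)) (0, 0) :=
      continuousAt_fst.prodMk (hfc.continuousAt (hS.isOpen.mem_nhds hS0))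
    have h2 : ∀ᶠ p in 𝓝 ((0 : E2), (0 : E)), (p.1, f p.1 p.2) ∈ T := by
      refine h1.eventually (hTo.mem_nhds ?_)
      show ((0 : E2), f 0 0) ∈ T
      rw [h0]; exact hT0
    filter_upwards [h2, Metric.ball_mem_nhds ((0 : E2), (0 : E)) hδ] with p hp hp2
    rw [← ball_prod_same] at hp2
    exact hinj (p.1, f p.1 p.2) hp p.2 hp2.2 rfl

end Vale.Agent.P207.N3
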