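import Vale.Agent.P207.N3.H250.PfOfIn
import Vale.Agent.P207.N3.H473.LinkInst
import Vale.Agent.P207.N3.H722.Germ

/-!
# P207, line N3: the crossing point of two leaves in the exact chart
-/

open Set Filter Topology Metric MeasureTheory InnerProductSpace
open scoped ContDiff RealInnerProductSpace Gradient

noncomputable section

namespace Vale.Agent.P207.N3

open Side

/-- `qq (y, x)` is the `q`-coordinate of the crossing point of the leaves `p = ∇ S_y (q)` and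
`q = ∇ S'_x (p)`. -/
structure Cr (S S' : E2 → E2 → ℝ) (qq : E2 × E2 → E2) : Prop where
  cont : ∀ᶠ w in 𝓝 (0 : E2 × E2), ContinuousAt qq w
  zero : qq 0 = 0
  fix : ∀ᶠ w in 𝓝 (0 : E2 × E2), qq w = ∇ (S' w.2) (∇ (S w.1) (qq w))
  uniq : ∀ᶠ p in 𝓝 (0 : (E2 × E2) × E2), p.2 = ∇ (S' p.1.2) (∇ (S p.1.1) p.2) → qq p.1 = p.2

theorem exists_cr {S S' : E2 → E2 → ℝ} (hS : JG fun y => ∇ (S y)) (hS' : JG fun x => ∇ (S' x))
    (base : ∀ᶠ q in 𝓝 (0 : E2), ∇ (S 0) q = 0) (base' : ∀ᶠ p in 𝓝 (0 : E2), ∇ (S' 0) p = 0) :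
    ∃ qq, Cr S S' qq := by
  obtain ⟨A, hA0, hA⟩ := hS
  obtain ⟨A', hA'0, hA'⟩ := hS'
  have j1 := hA.pullback (continuous_fst : Continuous (Prod.fst : E2 × E2 → E2))
  have j2 := hA'.pullback (continuous_snd : Continuous (Prod.snd : E2 × E2 → E2))
  have j3 := j2.comp j1
  have j4 := (JC.id (Z := E2 × E2) j3.isOpen).sub j3
  have b0 : ∇ (S 0) 0 = 0 := base.self_of_nhds
  have b0' : ∇ (S' 0) 0 = 0 := base'.self_of_nhds
  set F : E2 × E2 → E2 → E2 := fun w q => q - ∇ (S' w.2) (∇ (S w.1) q) with hF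
  have hmem : (((0 : E2 × E2), (0 : E2))) ∈ cdom (fun (w : E2 × E2) q => ∇ (S w.1) q)
      {p : (E2 × E2) × E2 | (p.1.1, p.2) ∈ A} {p : (E2 × E2) × E2 | (p.1.2, p.2) ∈ A'} := by
    refine ⟨hA0, ?_⟩
    show ((0 : E2), ∇ (S 0) 0) ∈ A'
    rw [b0]
    exact hA'0
  have hF0 : F 0 =ᶠ[𝓝 (0 : E2)] fun q => q := by
    filter_upwards [base] with q hq
    simp only [hF]
    show q - ∇ (S' 0) (∇ (S 0) q) = q
    rw [hq, b0', sub_zero]
  have hbij : Function.Bijective (fderiv ℝ (F 0) 0) := by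
    rw [hF0.fderiv_eq]
    have : fderiv ℝ (fun q : E2 => q) 0 = ContinuousLinearMap.id ℝ E2 := fderiv_id
    rw [this]
    exact Function.bijective_id
  obtain ⟨T, g, h1, h2, h3, h4, h5⟩ := H722.invThm (E2 × E2) E2 E2 F _ 0 0 j4 hmem hbij
  have hF00 : F 0 0 = 0 := hF0.self_of_nhds
  rw [hF00] at h2 h3
  have c0 : Continuous (fun w : E2 × E2 => (w, (0 : E2))) := by fun_prop
  have hT : ∀ᶠ w in 𝓝 (0 : E2 × E2), (w, (0 : E2)) ∈ T :=
    c0.continuousAt.eventually (h1.isOpen.mem_nhds h2)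
  refine ⟨fun w => g w 0, ?_, h3, ?_, ?_⟩
  · filter_upwards [hT] with w hw
    have h6 := h1.continuousOn.continuousAt (h1.isOpen.mem_nhds hw)
    exact ContinuousAt.comp (f := fun w : E2 × E2 => (w, (0 : E2))) h6 c0.continuousAt
  · filter_upwards [hT] with w hw
    have h6 := (h4 _ hw).2
    simp only [hF] at h6
    exact sub_eq_zero.1 h6
  · have h6 : ∀ᶠ p in 𝓝 (0 : (E2 × E2) × E2), (p.1, F p.1 p.2) ∈ T ∧ g p.1 (F p.1 p.2) = p.2 := h5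
    filter_upwards [h6] with p hp hp2
    have h7 : F p.1 p.2 = 0 := sub_eq_zero.2 hp2
    rw [h7] at hp
    exact hp.2

theorem Cr.tendsto {S S' : E2 → E2 → ℝ} {qq : E2 × E2 → E2} (C : Cr S S' qq) :
    Tendsto qq (𝓝 0) (𝓝 0) := by
  have := C.cont.self_of_nhds.tendsto
  rwa [C.zero] at this

open H473 in
/-- the crossing point, from a point of the disc -/
theorem cr_leaf {u s S S' : E2 → E2 → ℝ} {xh : E2 × E2 → E2} {Φ : E2 × E2 → E2 × E2}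
    (D : LinkPF (ng u) (ng s) (xhn xh) Φ S S') {qq : E2 × E2 → E2} (C : Cr S S' qq) :
    ∀ᶠ w in 𝓝 (0 : E2 × E2), qq (w.1, xh (lf u w)) = (Φ (lf (ng u) w)).1 := by
  have t1 : Tendsto (fun w : E2 × E2 => ((w.1, xhn xh (lf (ng u) w)), (Φ (lf (ng u) w)).1))
      (𝓝 0) (𝓝 (0 : (E2 × E2) × E2)) := by
    have a1 : Tendsto (fun w : E2 × E2 => w.1) (𝓝 0) (𝓝 0) := continuous_fst.tendsto _
    have a2 : Tendsto (fun w : E2 × E2 => (Φ (lf (ng u) w)).1) (𝓝 0) (𝓝 0) :=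
      (continuous_fst.tendsto (0 : E2 × E2)).comp D.Φ_tend
    exact (a1.prodMk_nhds D.x_tend).prodMk_nhds a2
  filter_upwards [t1.eventually C.uniq, D.leaf_S, D.xt_tend.eventually D.leaf_S',
    D.lf_tend.eventually D.leaf_xh] with w h1 h2 h3 h4
  rw [xhn_lf] at h1
  refine h1 ?_
  have h5 : lf' (ng s) (xhn xh (lf (ng u) w), w.2) = lf (ng u) w := by
    simp only [lf', lf]
    have h6 : gradient (ng s (xhn xh (lf (ng u) w))) w.2 = - (lf (ng u) w).2 := h4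
    simp only [lf] at h6
    rw [h6, neg_neg]
  rw [h5, xhn_lf] at h3
  rw [h2]
  exact h3.symm

/-- the point of the disc, from the labels -/
theorem cr_label {Φ : E2 × E2 → E2 × E2} {K : E2 × E2 → ℝ} {u s ρ ρ' : E2 → E2 → ℝ}
    {ϑ ϑ' : E2 → E2} {h : ℝ} {τ τ' : E2 → E2 → E2} (D : Side Φ K (ng u) ρ ϑ h)
    (D' : Side (sw Φ) (swK Φ K) (ng s) ρ' ϑ' h) (T : IsTau Φ (ng u) τ)
    (T' : IsTau (sw Φ) (ng s) τ') {xh : E2 × E2 → E2}
    (xh_leaf : ∀ᶠ z in 𝓝 (0 : E2 × E2), xh (lf' s z) = z.1) {qq : E2 × E2 → E2}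
    (C : Cr (SS K (ng u) τ) (SS (swK Φ K) (ng s) τ') qq) :
    ∀ᶠ w in 𝓝 (0 : E2 × E2), xh (lf u (w.1, τ w.1 (qq w))) = w.2 := by
  obtain ⟨Ψ, hΨ, hΦΨ, hΨΦ⟩ := D.ex.inv
  have a1 : Tendsto (fun w : E2 × E2 => w.1) (𝓝 0) (𝓝 0) := continuous_fst.tendsto _
  have a2 : Tendsto (fun w : E2 × E2 => w.2) (𝓝 0) (𝓝 0) := continuous_snd.tendsto _
  have tq : Tendsto (fun w : E2 × E2 => (w.1, qq w)) (𝓝 0) (𝓝 (0 : E2 × E2)) :=
    a1.prodMk_nhds C.tendsto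
  have tt : Tendsto (fun w : E2 × E2 => (w.1, τ w.1 (qq w))) (𝓝 0) (𝓝 (0 : E2 × E2)) :=
    (τ_tendsto T).comp tq
  have tp : Tendsto (fun w : E2 × E2 => (w.2, ∇ (SS K (ng u) τ w.1) (qq w))) (𝓝 0)
      (𝓝 (0 : E2 × E2)) := a2.prodMk_nhds ((gr_cont D T).comp tq)
  have tt' : Tendsto (fun w : E2 × E2 => (w.2, τ' w.2 (∇ (SS K (ng u) τ w.1) (qq w)))) (𝓝 0)
      (𝓝 (0 : E2 × E2)) := (τ_tendsto T').comp tp
  have tl' : Tendsto (lf' (ng s)) (𝓝 0) (𝓝 0) := tendsto_neg_snd.comp D'.lf_tendsto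
  filter_upwards [C.fix, tq.eventually T.right, tq.eventually (D.SS_grad T),
    tp.eventually T'.right, tp.eventually (D'.SS_grad T'),
    (D.lf_tendsto.comp tt).eventually hΨΦ, (tl'.comp tt').eventually hΨΦ,
    tt'.eventually xh_leaf] with w e1 e2 e3 e4 e5 e6 e7 e8
  set q := qq w with hq
  set p := ∇ (SS K (ng u) τ w.1) q with hp
  set t := τ w.1 q with ht
  set t' := τ' w.2 p with ht'
  have f1 : Φ (lf (ng u) (w.1, t)) = (q, p) := Prod.ext e2 e3.symm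
  have f2 : sw Φ (lf (ng s) (w.2, t')) = (p, q) := by
    refine Prod.ext e4 ?_
    rw [e1]
    exact e5.symm
  have f3 : Φ (lf' (ng s) (w.2, t')) = (q, p) :=
    Prod.ext (congrArg Prod.snd f2) (congrArg Prod.fst f2)
  have f4 : lf' (ng s) (w.2, t') = lf (ng u) (w.1, t) := by
    have e6' : Ψ (Φ (lf (ng u) (w.1, t))) = lf (ng u) (w.1, t) := e6
    have e7' : Ψ (Φ (lf' (ng s) (w.2, t'))) = lf' (ng s) (w.2, t') := e7
    rw [← e7', f3, ← f1, e6']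
  have f5 : t' = t := congrArg Prod.fst f4
  have f6 : - gradient (ng s w.2) t' = gradient (ng u w.1) t := congrArg Prod.snd f4
  have f7 : lf u (w.1, t) = lf' s (w.2, t') := by
    simp only [lf, lf']
    rw [gradient_ng, gradient_ng, neg_neg] at f6
    rw [f5, ← f5, f6, neg_neg, f5]
  show xh (lf u (w.1, t)) = w.2
  rw [f7]
  exact e8

/-- the crossing point under a map which respects both families -/
theorem cr_dyn {S S' : E2 → E2 → ℝ} {qq : E2 × E2 → E2} (C : Cr S S' qq) {N N' : E2 → E2}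
    (hN0 : N 0 = 0) (hN : ContinuousAt N 0) (hN'0 : N' 0 = 0) (hN' : ContinuousAt N' 0)
    {φ : E2 × E2 → E2 × E2} (hφ0 : φ 0 = 0) (hφ : ContinuousAt φ 0)
    (gS : Tendsto (fun w : E2 × E2 => ∇ (S w.1) w.2) (𝓝 0) (𝓝 0))
    (inv : ∀ᶠ w in 𝓝 (0 : E2 × E2), ∇ (S (N' w.1)) (φ (w.2, ∇ (S w.1) w.2)).1
      = (φ (w.2, ∇ (S w.1) w.2)).2)
    (inv' : ∀ᶠ w in 𝓝 (0 : E2 × E2), ∇ (S' (N w.1)) (φ (∇ (S' w.1) w.2, w.2)).2
      = (φ (∇ (S' w.1) w.2, w.2)).1) :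
    ∀ᶠ w in 𝓝 (0 : E2 × E2), qq (N' w.1, N w.2) = (φ (qq w, ∇ (S w.1) (qq w))).1 := by
  have a1 : Tendsto (fun w : E2 × E2 => w.1) (𝓝 0) (𝓝 0) := continuous_fst.tendsto _
  have a2 : Tendsto (fun w : E2 × E2 => w.2) (𝓝 0) (𝓝 0) := continuous_snd.tendsto _
  have tq : Tendsto (fun w : E2 × E2 => (w.1, qq w)) (𝓝 0) (𝓝 (0 : E2 × E2)) :=
    a1.prodMk_nhds C.tendsto
  have tp : Tendsto (fun w : E2 × E2 => (w.2, ∇ (S w.1) (qq w))) (𝓝 0)
      (𝓝 (0 : E2 × E2)) := a2.prodMk_nhds (gS.comp tq)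
  have tz : Tendsto (fun w : E2 × E2 => (qq w, ∇ (S w.1) (qq w))) (𝓝 0)
      (𝓝 (0 : E2 × E2)) := C.tendsto.prodMk_nhds (gS.comp tq)
  have tφ : Tendsto φ (𝓝 0) (𝓝 0) := by
    have := hφ.tendsto
    rwa [hφ0] at this
  have tN : Tendsto N (𝓝 0) (𝓝 0) := by
    have := hN.tendsto
    rwa [hN0] at this
  have tN' : Tendsto N' (𝓝 0) (𝓝 0) := by
    have := hN'.tendsto
    rwa [hN'0] at this
  have tt : Tendsto (fun w : E2 × E2 => ((N' w.1, N w.2), (φ (qq w, ∇ (S w.1) (qq w))).1)) (𝓝 0)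
      (𝓝 (0 : (E2 × E2) × E2)) :=
    ((tN'.comp a1).prodMk_nhds (tN.comp a2)).prodMk_nhds
      ((continuous_fst.tendsto (0 : E2 × E2)).comp (tφ.comp tz))
  filter_upwards [C.fix, tq.eventually inv, tp.eventually inv', tt.eventually C.uniq]
    with w e1 e2 e3 e4
  refine e4 ?_
  rw [e2]
  rw [← e1] at e3
  exact e3.symm

end Vale.Agent.P207.N3
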