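import Vale.Agent.P207.N3.H250.Two2
import Vale.Agent.P207.N3.H391.PF

/-!
# P207, line N3, P3: construction of a `Half`
-/

open Set Filter Topology Metric MeasureTheory InnerProductSpace
open scoped ContDiff RealInnerProductSpace Gradient

noncomputable section

namespace Vale.Agent.P207.N3

open Side

variable {Φ : E2 × E2 → E2 × E2} {K : E2 × E2 → ℝ} {u ρ s ρ' : E2 → E2 → ℝ} {ϑ ϑ' : E2 → E2}
  {h : ℝ} {τ τ' : E2 → E2 → E2}

theorem gr_cont (D : Side Φ K u ρ ϑ h) (T : IsTau Φ u τ) :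
    Tendsto (fun w : E2 × E2 => ∇ (SS K u τ w.1) w.2) (𝓝 0) (𝓝 0) := by
  have h1 := (D.SS_jg T).gradient.contAt.tendsto
  have h2 : ∇ (SS K u τ 0) 0 = 0 := (D.SS_grad_base T).self_of_nhds
  simp only [h2] at h1
  exact h1

/-- the determinants of the two axes are inverse to each other -/
theorem det_axis (D : Side Φ K u ρ ϑ h) (T : IsTau Φ u τ) {M : E2 → E2} {φ : E2 × E2 → E2 × E2}
    (hs : ∀ᶠ z in 𝓝 (0 : E2 × E2), ContDiffAt ℝ ∞ φ z)
    (hsy : ∀ᶠ z in 𝓝 (0 : E2 × E2), ∀ a b, sympl (fderiv ℝ φ z a) (fderiv ℝ φ z b) = sympl a b)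
    (hM : ∀ᶠ p in 𝓝 (0 : E2), φ (0, p) = (0, M p)) :
    ∀ᶠ y in 𝓝 (0 : E2),
      (fderiv ℝ (fun q => (φ (q, ∇ (SS K u τ y) q)).1) 0).det * (fderiv ℝ M y).det = 1 := by
  have t1 : Tendsto (fun y : E2 => ((0 : E2), y)) (𝓝 0) (𝓝 0) :=
    (Continuous.prodMk_right (0 : E2)).tendsto _
  filter_upwards [t1.eventually hs, t1.eventually hsy, hM.eventually_nhds, D.SS_label T,
    ev_left (D.SS_jg T).gradient.smooth] with y e1 e2 e3 e4 e5
  have d0 : DifferentiableAt ℝ φ (0, y) := e1.differentiableAt (by simp)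
  have d1 : HasFDerivAt (∇ (SS K u τ y)) (hess (SS K u τ y) 0) 0 :=
    (e5.differentiableAt (by simp)).hasFDerivAt
  have d2 : HasFDerivAt (fun q => (q, ∇ (SS K u τ y) q))
      ((ContinuousLinearMap.id ℝ E2).prod (hess (SS K u τ y) 0)) 0 :=
    (hasFDerivAt_id 0).prodMk d1
  have d3 : HasFDerivAt φ (fderiv ℝ φ (0, y)) ((fun q => (q, ∇ (SS K u τ y) q)) 0) := by
    show HasFDerivAt φ (fderiv ℝ φ (0, y)) (0, ∇ (SS K u τ y) 0)
    rw [e4]; exact d0.hasFDerivAt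
  have d4 : HasFDerivAt (fun q => φ (q, ∇ (SS K u τ y) q)) ((fderiv ℝ φ (0, y)) ∘L
      ((ContinuousLinearMap.id ℝ E2).prod (hess (SS K u τ y) 0))) 0 :=
    HasFDerivAt.comp (0 : E2) (f := fun q => (q, ∇ (SS K u τ y) q)) (g := φ) d3 d2
  have d5 := d4.fst
  -- the axis
  have d6 : HasFDerivAt (fun p : E2 => ((0 : E2), p))
      ((0 : E2 →L[ℝ] E2).prod (ContinuousLinearMap.id ℝ E2)) y :=
    (hasFDerivAt_const (0 : E2) y).prodMk (hasFDerivAt_id y)
  have d7 : HasFDerivAt (fun p : E2 => φ (0, p)) ((fderiv ℝ φ (0, y)) ∘L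
      ((0 : E2 →L[ℝ] E2).prod (ContinuousLinearMap.id ℝ E2))) y :=
    HasFDerivAt.comp y (f := fun p : E2 => ((0 : E2), p)) (g := φ) d0.hasFDerivAt d6
  have d8 : HasFDerivAt (fun p : E2 => (φ (0, p)).2) _ y := d7.snd
  have d9 : HasFDerivAt (fun p : E2 => (φ (0, p)).1) _ y := d7.fst
  have d10 : HasFDerivAt (fun p : E2 => (φ (0, p)).1) (0 : E2 →L[ℝ] E2) y := by
    refine (hasFDerivAt_const (0 : E2) y).congr_of_eventuallyEq ?_
    filter_upwards [e3] with p hp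
    rw [hp]
  have d11 : HasFDerivAt M _ y := d8.congr_of_eventuallyEq (by
    filter_upwards [e3] with p hp
    rw [hp])
  have key : ∀ v w, ⟪fderiv ℝ (fun q => (φ (q, ∇ (SS K u τ y) q)).1) 0 v, fderiv ℝ M y w⟫
      = ⟪v, w⟫ := by
    intro v w
    have f1 := e2 (v, hess (SS K u τ y) 0 v) (0, w)
    have f2 : (fderiv ℝ φ (0, y) (0, w)).1 = 0 := by
      have := congrArg (fun L : E2 →L[ℝ] E2 => L w) (d9.unique d10)
      simpa using this
    have f3 : fderiv ℝ (fun q => (φ (q, ∇ (SS K u τ y) q)).1) 0 v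
        = (fderiv ℝ φ (0, y) (v, hess (SS K u τ y) 0 v)).1 := by
      rw [d5.fderiv]; rfl
    have f4 : fderiv ℝ M y w = (fderiv ℝ φ (0, y) (0, w)).2 := by
      rw [d11.fderiv]; rfl
    rw [f3, f4]
    simp only [sympl] at f1
    rw [f2] at f1
    simp only [inner_zero_right, zero_sub] at f1
    linarith
  have e6 : ContinuousLinearMap.adjoint (fderiv ℝ M y) ∘L
      (fderiv ℝ (fun q => (φ (q, ∇ (SS K u τ y) q)).1) 0) = 1 := by
    ext1 v
    refine ext_inner_right ℝ fun w => ?_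
    rw [ContinuousLinearMap.comp_apply, ContinuousLinearMap.adjoint_inner_left, key]
    rfl
  have e7 := congrArg ContinuousLinearMap.det e6
  rw [det_comp2, det_one2, det_adjoint2 (ContinuousLinearMap.adjoint (fderiv ℝ M y))
    (fderiv ℝ M y) fun v w => ContinuousLinearMap.adjoint_inner_left _ _ _] at e7
  rw [mul_comm]; exact e7

theorem ev_ball2 {P : E2 × E2 → Prop} (h : ∀ᶠ z in 𝓝 (0 : E2 × E2), P z) :
    ∃ r > 0, ∀ x ∈ ball (0 : E2) r, ∀ y ∈ ball (0 : E2) r, P (x, y) := by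
  obtain ⟨r, hr, h1⟩ := Metric.eventually_nhds_iff_ball.1 h
  refine ⟨r, hr, fun x hx y hy => h1 (x, y) ?_⟩
  have : ((0 : E2 × E2)) = ((0 : E2), (0 : E2)) := rfl
  rw [this, ← ball_prod_same]
  exact ⟨hx, hy⟩

theorem ev_ball1 {P : E2 → Prop} (h : ∀ᶠ z in 𝓝 (0 : E2), P z) :
    ∃ r > 0, ∀ x ∈ ball (0 : E2) r, P x := by
  obtain ⟨r, hr, h1⟩ := Metric.eventually_nhds_iff_ball.1 h
  exact ⟨r, hr, h1⟩

theorem JG.ball {F : Type} [NormedAddCommGroup F] [NormedSpace ℝ F] {f : E2 → E2 → F}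
    (h : JG f) : ∃ r > 0, JC f (Metric.ball (0 : E2) r ×ˢ Metric.ball (0 : E2) r) := by
  obtain ⟨S, h0, hS⟩ := h
  obtain ⟨r, hr, h1⟩ := Metric.isOpen_iff.1 hS.isOpen _ h0
  refine ⟨r, hr, hS.mono (isOpen_ball.prod isOpen_ball) ?_⟩
  rw [ball_prod_same]
  exact h1

/-- **construction of a half** -/
theorem half_of (D : Side Φ K u ρ ϑ h) (T : IsTau Φ u τ) {M N : E2 → E2}
    {P : E2 × E2 → E2 × E2} {ℓ : E2 × E2 → ℝ} (Y : SideDyn u ρ M P ℓ h) {φ : E2 × E2 → E2 × E2}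
    (hs : ∀ᶠ z in 𝓝 (0 : E2 × E2), ContDiffAt ℝ ∞ φ z)
    (hsy : ∀ᶠ z in 𝓝 (0 : E2 × E2), ∀ a b, sympl (fderiv ℝ φ z a) (fderiv ℝ φ z b) = sympl a b)
    (hφ : ∀ᶠ z in 𝓝 (0 : E2 × E2), φ (Φ z) = Φ (P z))
    (hN : ∀ᶠ q in 𝓝 (0 : E2), φ (q, 0) = (N q, 0))
    (hM : ∀ᶠ p in 𝓝 (0 : E2), φ (0, p) = (0, M p))
    (hdiv : ∃ ρ₀ > 0, ∀ f : E2 → ℝ, ContDiff ℝ ∞ f → tsupport f ⊆ ball 0 ρ₀ → ∀ v : E2,
      ∫ x, (⟪fderiv ℝ (∇ (SS K u τ x)) 0 v, ∇ f x⟫ + fderiv ℝ (XX Φ u ρ h τ x) 0 v * f x) = 0) :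
    ∃ r₁ > 0, ∀ r, 0 < r → r ≤ r₁ → ∃ H : Half, H.r = r ∧ H.a = (fun z => (φ z).1) ∧
      H.b = (fun z => (φ z).2) ∧ H.S = SS K u τ ∧ H.X = XX Φ u ρ h τ ∧ H.N = N ∧ H.M = M := by
  obtain ⟨r1, h1, c1⟩ := ev_ball2 hs
  obtain ⟨r2, h2, c2⟩ := ev_ball2 hsy
  obtain ⟨r3, h3, c3⟩ := ev_ball1 hN
  obtain ⟨r4, h4, c4⟩ := ev_ball1 hM
  obtain ⟨r5, h5, c5⟩ := (D.SS_jg T).ball
  obtain ⟨r6, h6, c6⟩ := (D.XX_jg T).ball
  obtain ⟨r7, h7, c7⟩ := ev_ball1 (D.SS_label T)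
  obtain ⟨r8, h8, c8⟩ := ev_ball1 (D.SS_base T)
  obtain ⟨r9, h9, c9⟩ := ev_ball1 (D.XX_base T)
  obtain ⟨r10, h10, c10⟩ := hdiv
  obtain ⟨r11, h11, c11⟩ := ev_ball2 (inv_ev0 D T Y hφ hM)
  obtain ⟨r12, h12, c12⟩ := ev_ball1 (det_axis D T hs hsy hM)
  refine ⟨min r1 (min r2 (min r3 (min r4 (min r5 (min r6 (min r7 (min r8 (min r9 r10)))))))),
    by positivity, fun r hr hrr => ?_⟩
  simp only [le_min_iff] at hrr
  obtain ⟨g1, g2, g3, g4, g5, g6, g7, g8, g9, g10⟩ := hrr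
  -- the smaller ball
  have φ0 : φ 0 = 0 := by
    have := c4 0 (mem_ball_self h4)
    rw [Y.M_zero] at this
    exact this
  have tM : Tendsto M (𝓝 0) (𝓝 0) := by
    have := Y.M_cont.tendsto
    rwa [Y.M_zero] at this
  have tg := gr_cont D T
  have tφ : Tendsto φ (𝓝 0) (𝓝 0) := by
    have := (hs.self_of_nhds).continuousAt.tendsto
    rwa [φ0] at this
  have ta : Tendsto (fun w : E2 × E2 => (φ (w.2, ∇ (SS K u τ w.1) w.2)).1) (𝓝 0) (𝓝 0) := by
    have k1 : Tendsto (fun w : E2 × E2 => (w.2, ∇ (SS K u τ w.1) w.2)) (𝓝 0) (𝓝 0) :=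
      (continuous_snd.tendsto (0 : E2 × E2)).prodMk_nhds tg
    have k2 : Tendsto (Prod.fst : E2 × E2 → E2) (𝓝 0) (𝓝 0) := continuous_fst.tendsto _
    exact k2.comp (tφ.comp k1)
  obtain ⟨ρ1, m1, n1⟩ := ev_ball1 (tM.eventually (Metric.ball_mem_nhds (0 : E2) hr))
  obtain ⟨ρ2, m2, n2⟩ := ev_ball2 (tg.eventually (Metric.ball_mem_nhds (0 : E2) hr))
  obtain ⟨ρ3, m3, n3⟩ := ev_ball2 (ta.eventually (Metric.ball_mem_nhds (0 : E2) hr))
  set ρ₁ : ℝ := min r (min ρ1 (min ρ2 (min ρ3 (min r11 r12)))) with hρ₁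
  have hρpos : 0 < ρ₁ := by positivity
  have q0 : ρ₁ ≤ r := min_le_left _ _
  have q1 : ρ₁ ≤ ρ1 := (min_le_right _ _).trans (min_le_left _ _)
  have q2 : ρ₁ ≤ ρ2 := (min_le_right _ _).trans ((min_le_right _ _).trans (min_le_left _ _))
  have q3 : ρ₁ ≤ ρ3 := (min_le_right _ _).trans ((min_le_right _ _).trans
    ((min_le_right _ _).trans (min_le_left _ _)))
  have q4 : ρ₁ ≤ r11 := (min_le_right _ _).trans ((min_le_right _ _).trans
    ((min_le_right _ _).trans ((min_le_right _ _).trans (min_le_left _ _))))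
  have q5 : ρ₁ ≤ r12 := (min_le_right _ _).trans ((min_le_right _ _).trans
    ((min_le_right _ _).trans ((min_le_right _ _).trans (min_le_right _ _))))
  have bb : ∀ {a b : ℝ}, a ≤ b → ∀ x ∈ ball (0 : E2) a, x ∈ ball (0 : E2) b :=
    fun h x hx => ball_subset_ball h hx
  have sm : ∀ z ∈ ball (0 : E2) r ×ˢ ball (0 : E2) r, ContDiffAt ℝ ∞ φ z := fun z hz =>
    c1 z.1 (bb g1 _ hz.1) z.2 (bb g1 _ hz.2)
  refine ⟨{ r := r
            r_pos := hr
            a := fun z => (φ z).1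
            b := fun z => (φ z).2
            a_smooth := fun z hz => (sm z hz).fst.contDiffWithinAt
            b_smooth := fun z hz => (sm z hz).snd.contDiffWithinAt
            N := N
            M := M
            a_zero := fun p hp => by rw [c4 p (bb g4 _ hp)]
            b_zero := fun q hq => by rw [c3 q (bb g3 _ hq)]
            a_axis := fun q hq => by rw [c3 q (bb g3 _ hq)]
            b_axis := fun p hp => by rw [c4 p (bb g4 _ hp)]
            symp := ?_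
            S := SS K u τ
            S_smooth := fun y hy => (c5.smooth y).mono fun q hq => ⟨bb g5 _ hy, bb g5 _ hq⟩
            S_cont := fun k => (c5.cont k).mono (prod_mono (ball_subset_ball g5)
              (ball_subset_ball g5))
            S_val := fun y _ => SS_zero y
            S_grad := fun y hy => c7 y (bb g7 _ hy)
            S_zero := fun q hq => c8 q (bb g8 _ hq)
            X := XX Φ u ρ h τ
            X_smooth := fun y hy => (c6.smooth y).mono fun q hq => ⟨bb g6 _ hy, bb g6 _ hq⟩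
            X_cont := fun k => (c6.cont k).mono (prod_mono (ball_subset_ball g6)
              (ball_subset_ball g6))
            X_val := fun y _ => XX_zero y
            X_zero := fun q hq => c9 q (bb g9 _ hq)
            ρ := ρ₁
            ρ_pos := hρpos
            ρ_le := q0
            M_maps := fun y hy => n1 y (bb q1 _ hy)
            S_maps := fun y hy q hq => ⟨n2 y (bb q2 _ hy) q (bb q2 _ hq),
              n3 y (bb q3 _ hy) q (bb q3 _ hq)⟩
            S_inv := fun y hy q hq => (c11 y (bb q4 _ hy) q (bb q4 _ hq)).1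
            X_inv := ?_
            div := fun χ hχ _ hχs v => c10 χ hχ (hχs.trans (ball_subset_ball g10)) v },
    rfl, rfl, rfl, rfl, rfl, rfl, rfl⟩
  · intro z hz a b
    have e1 := c2 z.1 (bb g2 _ hz.1) z.2 (bb g2 _ hz.2) a b
    have e2 : DifferentiableAt ℝ φ z := (sm z hz).differentiableAt (by simp)
    have e3 : ∀ v, fderiv ℝ (fun z => (φ z).1) z v = (fderiv ℝ φ z v).1 := fun v => by
      rw [e2.hasFDerivAt.fst.fderiv]; rfl
    have e4 : ∀ v, fderiv ℝ (fun z => (φ z).2) z v = (fderiv ℝ φ z v).2 := fun v => by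
      rw [e2.hasFDerivAt.snd.fderiv]; rfl
    rw [e3, e3, e4, e4]
    simp only [sympl, Prod.mk.eta] at e1
    linarith
  · intro y hy q hq
    obtain ⟨f1, f2, f3⟩ := c11 y (bb q4 _ hy) q (bb q4 _ hq)
    have f4 := c12 y (bb q5 _ hy)
    have n5 : (fderiv ℝ M y).det ≠ 0 := by
      intro h0
      rw [h0, mul_zero] at f4
      exact zero_ne_one f4
    have n6 : (fderiv ℝ (fun q => (φ (q, ∇ (SS K u τ y) q)).1) 0).det ≠ 0 := by
      intro h0
      rw [h0, zero_mul] at f4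
      exact zero_ne_one f4
    have f5 := congrArg Real.log f4
    rw [Real.log_mul n6 n5, Real.log_one] at f5
    have f3' : (fderiv ℝ (fun q => (φ (q, ∇ (SS K u τ y) q)).1) q).det ≠ 0 := f3
    rw [f2, Real.log_abs, Real.log_abs, Real.log_abs, Real.log_mul f3' n5]
    linarith

end Vale.Agent.P207.N3
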