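import Vale.Agent.P207.N3.H250.Cross
import Vale.Agent.P207.N3.H722.Lab
import Vale.Agent.P207.N3.H143.Side

/-!
# P207, line N3, Case 2: the structure `H143.Side` from the chart and the link
-/

open Set Filter Topology Metric MeasureTheory InnerProductSpace
open scoped ContDiff RealInnerProductSpace Gradient

noncomputable section

namespace Vale.Agent.P207.N3.H250

open H473 (LinkPF LinkIn xhn xhn_lf link)
open H722 (GeoIn HessIn)
open Ten (cj tens)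

/-- the two families of leaves and their crossing point -/
structure CrD (u s S S' : E2 → E2 → ℝ) (xh : E2 × E2 → E2) (Φ : E2 × E2 → E2 × E2)
    (qq t : E2 × E2 → E2) : Prop where
  lp : LinkPF (ng u) (ng s) (xhn xh) Φ S S'
  cr : Cr S S' qq
  tt : Tendsto t (𝓝 0) (𝓝 0)
  lab : ∀ᶠ w in 𝓝 (0 : E2 × E2), xh (lf u (w.1, t w)) = w.2
  gS : JG fun y => ∇ (S y)
  gS' : JG fun x => ∇ (S' x)
  base' : ∀ᶠ p in 𝓝 (0 : E2), ∇ (S' 0) p = 0
  al : JG fun y t => (Φ (lf (ng u) (y, t))).1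

section exist

variable {N N' : E2 → E2} {h h' : ℝ} (I : PFIn N N' h) {Φ : E2 × E2 → E2 × E2} {K : E2 × E2 → ℝ}
  {τ τ' : E2 → E2 → E2}

theorem tau_tendsto {Φ : E2 × E2 → E2 × E2} {u : E2 → E2 → ℝ} {τ : E2 → E2 → E2}
    (T : IsTau Φ u τ) : Tendsto (fun w : E2 × E2 => τ w.1 w.2) (𝓝 0) (𝓝 0) := by
  have h1 := T.jg.contAt.tendsto
  rw [T.zero] at h1
  exact h1

theorem exists_crD (D : Side Φ K (ng I.u) I.ρ I.ϑ h')
    (D' : Side (sw Φ) (swK Φ K) (ng I.s) I.ρ' I.ϑ' h') (T : IsTau Φ (ng I.u) τ)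
    (T' : IsTau (sw Φ) (ng I.s) τ') :
    ∃ qq t, CrD I.u I.s (Side.SS K (ng I.u) τ) (Side.SS (swK Φ K) (ng I.s) τ') I.xh Φ qq t := by
  obtain ⟨qq, C⟩ := exists_cr (D.SS_jg T).gradient (D'.SS_jg T').gradient (D.SS_grad_base T)
    (D'.SS_grad_base T')
  have a1 : Tendsto (fun w : E2 × E2 => w.1) (𝓝 0) (𝓝 0) := continuous_fst.tendsto _
  exact ⟨qq, fun w => τ w.1 (qq w), H473.linkPF I D D' T T', C,
    (tau_tendsto T).comp (a1.prodMk_nhds C.tendsto), cr_label D D' T T' I.xh_leaf C,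
    (D.SS_jg T).gradient, (D'.SS_jg T').gradient, D'.SS_grad_base T', D.al_jg⟩

theorem exists_crD' (D : Side Φ K (ng I.u) I.ρ I.ϑ h')
    (D' : Side (sw Φ) (swK Φ K) (ng I.s) I.ρ' I.ϑ' h') (T : IsTau Φ (ng I.u) τ)
    (T' : IsTau (sw Φ) (ng I.s) τ') :
    ∃ qq t, CrD I.s I.u (Side.SS (swK Φ K) (ng I.s) τ') (Side.SS K (ng I.u) τ) (xhn I.yh)
      (sw Φ) qq t := by
  have D'' : Side (sw (sw Φ)) (swK (sw Φ) (swK Φ K)) (ng I.u) I.ρ I.ϑ h' := by
    rw [H12.sw_sw, H12.swK_swK]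
    exact D
  have T'' : IsTau (sw (sw Φ)) (ng I.u) τ := by
    rw [H12.sw_sw]
    exact T
  obtain ⟨qq, C⟩ := exists_cr (D'.SS_jg T').gradient (D.SS_jg T).gradient (D'.SS_grad_base T')
    (D.SS_grad_base T)
  have a1 : Tendsto (fun w : E2 × E2 => w.1) (𝓝 0) (𝓝 0) := continuous_fst.tendsto _
  have hl : ∀ᶠ z in 𝓝 (0 : E2 × E2), xhn I.yh (lf' I.u z) = z.1 := by
    filter_upwards [I.yh_leaf] with z hz
    simp only [xhn, lf', neg_neg]
    exact hz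
  refine ⟨qq, fun w => τ' w.1 (qq w), H473.linkPF' I D D' T T', C,
    (tau_tendsto T').comp (a1.prodMk_nhds C.tendsto), ?_,
    (D'.SS_jg T').gradient, (D.SS_jg T).gradient, D.SS_grad_base T, D'.al_jg⟩
  exact cr_label D' D'' T' T'' hl (by rw [H12.swK_swK]; exact C)

end exist

variable {Γ X B : Type} [Group Γ] [MetricSpace X] [ProperSpace X] [MulAction Γ X]
  [IsIsometricSMul Γ X] [TopologicalSpace B] [CompactSpace B] [T2Space B] [MulAction Γ B]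
  [ContinuousConstSMul Γ B] {L : Leaf Γ X B}

/-- the labels of the end points near `neg`, `pos` -/
structure LabD (x y : B → E2) (ξ η : E2 → B) (neg pos : B) : Prop where
  y0 : y neg = 0
  x0 : x pos = 0
  yc : ∀ᶠ b in 𝓝 neg, ContinuousAt y b
  xc : ∀ᶠ b in 𝓝 pos, ContinuousAt x b
  ξc : ContinuousAt ξ 0
  ξ0 : ξ 0 = neg
  η0 : η 0 = pos
  ξy : ∀ᶠ b in 𝓝 neg, ξ (y b) = b
  yξ : ∀ᶠ a in 𝓝 (0 : E2), y (ξ a) = a
  ηx : ∀ᶠ b in 𝓝 pos, η (x b) = b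
  xη : ∀ᶠ a in 𝓝 (0 : E2), x (η a) = a

variable {u s S S' : E2 → E2 → ℝ} {xh : E2 × E2 → E2} {Φ : E2 × E2 → E2 × E2}
  {qq t : E2 × E2 → E2} {x y : B → E2} {neg pos : B} {Mt : Metr L}

/-- the operator `1 - S'' S''` at the crossing point -/
def op1 (S S' : E2 → E2 → ℝ) (qq : E2 × E2 → E2) (w : E2 × E2) : E2 →L[ℝ] E2 :=
  1 - hess (S' w.2) (∇ (S w.1) (qq w)) ∘L hess (S w.1) (qq w)

/-- the smooth part of the tensor -/
def KK (T : Tens L) (c : ℝ) (S S' : E2 → E2 → ℝ) (qq : E2 × E2 → E2) (x y : B → E2) (f : X)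
    (v : E2) : E2 →L[ℝ] E2 :=
  c • cj (fderiv ℝ (fun v => qq (y (L.em f), x (L.e f v))) v) (T.N f v)
    + (op1 S S' qq (y (L.em f), x (L.e f v))).inverse ∘L
      hess (S' (x (L.e f v))) (∇ (S (y (L.em f))) (qq (y (L.em f), x (L.e f v))))

theorem op1_inv (C : CrD u s S S' xh Φ qq t) :
    ∀ᶠ w in 𝓝 (0 : E2 × E2), (op1 S S' qq w).IsInvertible := by
  have a1 : Tendsto (fun w : E2 × E2 => w.1) (𝓝 0) (𝓝 0) := continuous_fst.tendsto _
  have a2 : Tendsto (fun w : E2 × E2 => w.2) (𝓝 0) (𝓝 0) := continuous_snd.tendsto _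
  have b0 : ∇ (S 0) 0 = 0 := C.lp.base.self_of_nhds
  have tg : Tendsto (fun w : E2 × E2 => ∇ (S w.1) w.2) (𝓝 0) (𝓝 0) := by
    have h1 := C.gS.contAt.tendsto
    simp only [b0] at h1
    exact h1
  have tq : Tendsto (fun w : E2 × E2 => (w.1, qq w)) (𝓝 0) (𝓝 (0 : E2 × E2)) :=
    a1.prodMk_nhds C.cr.tendsto
  have tp : Tendsto (fun w : E2 × E2 => (w.2, ∇ (S w.1) (qq w))) (𝓝 0)
      (𝓝 (0 : E2 × E2)) := a2.prodMk_nhds (tg.comp tq)
  have h0 : hess (S 0) 0 = 0 := by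
    have h1 : ∇ (S 0) =ᶠ[𝓝 (0 : E2)] fun _ => 0 := C.lp.base
    rw [hess, h1.fderiv_eq]
    simp
  have h0' : hess (S' 0) 0 = 0 := by
    have h1 : ∇ (S' 0) =ᶠ[𝓝 (0 : E2)] fun _ => 0 := C.base'
    rw [hess, h1.fderiv_eq]
    simp
  have th : Tendsto (fun w : E2 × E2 => hess (S w.1) w.2) (𝓝 0) (𝓝 0) := by
    have h1 : Tendsto (fun w : E2 × E2 => hess (S w.1) w.2) (𝓝 (0, 0)) (𝓝 (hess (S 0) 0)) :=
      C.gS.fderiv.contAt.tendsto
    rwa [h0] at h1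
  have th' : Tendsto (fun w : E2 × E2 => hess (S' w.1) w.2) (𝓝 0) (𝓝 0) := by
    have h1 : Tendsto (fun w : E2 × E2 => hess (S' w.1) w.2) (𝓝 (0, 0)) (𝓝 (hess (S' 0) 0)) :=
      C.gS'.fderiv.contAt.tendsto
    rwa [h0'] at h1
  have t1 : Tendsto (op1 S S' qq) (𝓝 0) (𝓝 1) := by
    have h1 : Tendsto (fun w : E2 × E2 => hess (S' w.2) (∇ (S w.1) (qq w))) (𝓝 0) (𝓝 0) :=
      th'.comp tp
    have h2 : Tendsto (fun w : E2 × E2 => hess (S w.1) (qq w)) (𝓝 0) (𝓝 0) := th.comp tq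
    have h3 : Tendsto (fun w : E2 × E2 => hess (S' w.2) (∇ (S w.1) (qq w)) ∘L
        hess (S w.1) (qq w)) (𝓝 0) (𝓝 ((0 : E2 →L[ℝ] E2) ∘L (0 : E2 →L[ℝ] E2))) := by
      have h4 : Continuous fun p : (E2 →L[ℝ] E2) × (E2 →L[ℝ] E2) => p.1 ∘L p.2 := by fun_prop
      exact (h4.tendsto ((0 : E2 →L[ℝ] E2), (0 : E2 →L[ℝ] E2))).comp (h1.prodMk_nhds h2)
    have h5 : Tendsto (fun w : E2 × E2 => (1 : E2 →L[ℝ] E2) - hess (S' w.2) (∇ (S w.1) (qq w)) ∘L
        hess (S w.1) (qq w)) (𝓝 0) (𝓝 (1 - (0 : E2 →L[ℝ] E2) ∘L (0 : E2 →L[ℝ] E2))) :=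
      tendsto_const_nhds.sub h3
    have h6 : (1 : E2 →L[ℝ] E2) - (0 : E2 →L[ℝ] E2) ∘L (0 : E2 →L[ℝ] E2) = 1 := by simp
    rw [h6] at h5
    exact h5
  exact t1.eventually (H473.isInv_ev ⟨ContinuousLinearEquiv.refl ℝ E2, rfl⟩)

theorem ev_pairs {p : B × B → Prop} {q : E2 × E2 → Prop} {neg pos : B} {x y : B → E2}
    (yc : ContinuousAt y neg) (xc : ContinuousAt x pos) (y0 : y neg = 0) (x0 : x pos = 0)
    (hq : ∀ᶠ w in 𝓝 (0 : E2 × E2), q w) (h : ∀ z : B × B, q (y z.1, x z.2) → p z) :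
    ∀ᶠ z in 𝓝 (neg, pos), p z := by
  have h1 : ContinuousAt (fun z : B × B => (y z.1, x z.2)) (neg, pos) :=
    (ContinuousAt.comp (f := fun z : B × B => z.1) (x := (neg, pos)) yc continuousAt_fst).prodMk
      (ContinuousAt.comp (f := fun z : B × B => z.2) (x := (neg, pos)) xc continuousAt_snd)
  have h2 : Tendsto (fun z : B × B => (y z.1, x z.2)) (𝓝 (neg, pos)) (𝓝 0) := by
    have h3 := h1.tendsto
    simp only [y0, x0] at h3
    exact h3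
  exact (h2.eventually hq).mono fun z hz => h z hz

/-- the crossing point along a leaf -/
theorem qq_leaf (C : CrD u s S S' xh Φ qq t) (K : LinkIn L Mt u s xh)
    (l : LabD x y K.ξ K.η neg pos) : ∀ᶠ w in 𝓝 (0 : E2 × E2),
    x (L.ep (K.z w)) = xh (lf u w) ∧ y (K.ξ w.1) = w.1 ∧
      qq (w.1, x (L.ep (K.z w))) = (Φ (lf (ng u) w)).1 ∧
      ∇ (S w.1) (qq (w.1, x (L.ep (K.z w)))) = (Φ (lf (ng u) w)).2 := by
  have tx : Tendsto (fun w => xh (lf u w)) (𝓝 0) (𝓝 0) := by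
    refine C.lp.x_tend.congr fun w => ?_
    exact xhn_lf xh u w
  have a1 : Tendsto (fun w : E2 × E2 => w.1) (𝓝 0) (𝓝 0) := continuous_fst.tendsto _
  filter_upwards [cr_leaf C.lp C.cr, K.ep_z, tx.eventually l.xη, a1.eventually l.yξ, C.lp.leaf_S]
    with w h1 h2 h3 h4 h5
  have h6 : x (L.ep (K.z w)) = xh (lf u w) := by rw [h2, h3]
  refine ⟨h6, h4, by rw [h6, h1], ?_⟩
  rw [h6, h1]
  exact h5

/-- **the local form of the link**, in terms of the labels -/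
theorem link_loc (C : CrD u s S S' xh Φ qq t) (K : LinkIn L Mt u s xh)
    (l : LabD x y K.ξ K.η neg pos) : ∀ᶠ z : B × B in 𝓝 (neg, pos), ∀ f : X, L.em f = z.1 →
    ∀ u₀ ∈ ball (0 : E2) 3, L.e f u₀ = z.2 →
      SG (fun v => qq (y (L.em f), x (L.e f v))) u₀ ∧
      (fderiv ℝ (fun v => qq (y (L.em f), x (L.e f v))) u₀).IsInvertible ∧
      SG (KK (tens Mt) (-(K.r0 ^ 2)⁻¹) S S' qq x y f) u₀ := by
  have a1 : Tendsto (fun w : E2 × E2 => w.1) (𝓝 0) (𝓝 0) := continuous_fst.tendsto _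
  have tw : Tendsto (fun w : E2 × E2 => (w.1, t w)) (𝓝 0) (𝓝 (0 : E2 × E2)) :=
    a1.prodMk_nhds C.tt
  have c6 : ∀ᶠ z : B × B in 𝓝 (neg, pos), ContinuousAt x z.2 :=
    (continuous_snd.tendsto (neg, pos)).eventually l.xc
  have c0 : ∀ᶠ z : B × B in 𝓝 (neg, pos), K.ξ (y z.1) = z.1 ∧ K.η (x z.2) = z.2 := by
    have h1 : ∀ᶠ z : B × B in 𝓝 (neg, pos), K.ξ (y z.1) = z.1 :=
      (continuous_fst.tendsto (neg, pos)).eventually l.ξy
    have h2 : ∀ᶠ z : B × B in 𝓝 (neg, pos), K.η (x z.2) = z.2 :=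
      (continuous_snd.tendsto (neg, pos)).eventually l.ηx
    exact h1.and h2
  have c1 : ∀ᶠ w in 𝓝 (0 : E2 × E2), L.ep (K.z (w.1, t w)) = K.η w.2 := by
    filter_upwards [tw.eventually K.ep_z, C.lab] with w h1 h2
    rw [h1, h2]
  have c2 := tw.eventually (link C.lp K)
  have c3 := tw.eventually (qq_leaf C K l).eventually_nhds
  have c4 : ∀ᶠ w in 𝓝 (0 : E2 × E2), ∀ᶠ w' in 𝓝 w, (op1 S S' qq w').IsInvertible :=
    (op1_inv C).eventually_nhds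
  have c5 : ∀ᶠ z : B × B in 𝓝 (neg, pos), L.ep (K.z (y z.1, t (y z.1, x z.2))) = K.η (x z.2) ∧
      (∀ (f : X) (u₀ : E2), L.em f = K.ξ (y z.1) → u₀ ∈ ball (0 : E2) 3 →
      L.e f u₀ = L.ep (K.z (y z.1, t (y z.1, x z.2))) → ∃ (θ Q : E2 → E2) (N' : E2 → E2 →L[ℝ] E2),
      SG θ u₀ ∧ θ u₀ = t (y z.1, x z.2) ∧ SG Q u₀ ∧ SG N' u₀ ∧ (fderiv ℝ Q u₀).IsInvertible ∧
      ∀ᶠ v in 𝓝 u₀, L.e f v = L.ep (K.z (y z.1, θ v)) ∧
        Q v = (Φ (lf (ng u) (y z.1, θ v))).1 ∧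
        (1 - hess (S' (xh (lf u (y z.1, θ v)))) (Φ (lf (ng u) (y z.1, θ v))).2 ∘L
            hess (S (y z.1)) (Q v)) ∘L
          (N' v + (K.r0 ^ 2)⁻¹ • cj (fderiv ℝ Q v) ((tens Mt).N f v))
          = hess (S' (xh (lf u (y z.1, θ v)))) (Φ (lf (ng u) (y z.1, θ v))).2) ∧
      (∀ᶠ w' in 𝓝 (y z.1, t (y z.1, x z.2)), x (L.ep (K.z w')) = xh (lf u w') ∧
        y (K.ξ w'.1) = w'.1 ∧
        qq (w'.1, x (L.ep (K.z w'))) = (Φ (lf (ng u) w')).1 ∧
        ∇ (S w'.1) (qq (w'.1, x (L.ep (K.z w')))) = (Φ (lf (ng u) w')).2) ∧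
      (∀ᶠ w' in 𝓝 (y z.1, x z.2), (op1 S S' qq w').IsInvertible) ∧
      ContinuousAt qq (y z.1, x z.2) :=
    ev_pairs l.yc.self_of_nhds l.xc.self_of_nhds l.y0 l.x0 (c1.and (c2.and (c3.and (c4.and C.cr.cont)))) fun z hz => hz
  filter_upwards [c0, c5, c6] with z ⟨g1, g2⟩ ⟨e1, e2, e3, e4, e5⟩ e6
  intro f hf u₀ hu₀ hfu
  obtain ⟨θ, Q, N₁, θS, θ0, QS, NS, Qi, hev⟩ := e2 f u₀ (by rw [g1, hf]) hu₀ (by rw [hfu, e1, g2])
  have hb : y (L.em f) = y z.1 := by rw [hf]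
  have tθ : Tendsto (fun v => (y z.1, θ v)) (𝓝 u₀) (𝓝 (y z.1, t (y z.1, x z.2))) := by
    have h1 := θS.contAt.tendsto
    rw [θ0] at h1
    exact tendsto_const_nhds.prodMk_nhds h1
  -- `Q` is the crossing point
  have hQ : ∀ᶠ v in 𝓝 u₀, qq (y (L.em f), x (L.e f v)) = Q v ∧
      x (L.e f v) = xh (lf u (y z.1, θ v)) ∧
      ∇ (S (y z.1)) (Q v) = (Φ (lf (ng u) (y z.1, θ v))).2 := by
    filter_upwards [hev, tθ.eventually e3] with v h1 h2
    obtain ⟨k1, k2, k3⟩ := h1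
    obtain ⟨m1, m2, m3, m4⟩ := h2
    have n1 : qq (y (L.em f), x (L.e f v)) = Q v := by rw [hb, k1, m3, k2]
    refine ⟨n1, by rw [k1, m1], ?_⟩
    rw [← m4, ← n1, hb, k1]
  have hQe : (fun v => qq (y (L.em f), x (L.e f v))) =ᶠ[𝓝 u₀] Q := hQ.mono fun v hv => hv.1
  have hQd : ∀ᶠ v in 𝓝 u₀, fderiv ℝ (fun v => qq (y (L.em f), x (L.e f v))) v = fderiv ℝ Q v := by
    filter_upwards [hQe.eventually_nhds] with v hv
    exact Filter.EventuallyEq.fderiv_eq hv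
  have hx0 : x (L.e f u₀) = x z.2 := by rw [hfu]
  -- the labels are continuous along the leaf
  have tl : Tendsto (fun v => (y z.1, xh (lf u (y z.1, θ v)))) (𝓝 u₀) (𝓝 (y z.1, x z.2)) := by
    have h1 : ContinuousAt (fun v => L.e f v) u₀ := by
      have h2 : ContinuousAt (fun p : X × E2 => L.e p.1 p.2) (f, u₀) :=
        L.e_cont.continuousAt (prod_mem_nhds univ_mem
          (mem_of_superset (isOpen_ball.mem_nhds hu₀) ball_subset_closedBall))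
      exact ContinuousAt.comp (f := fun v : E2 => (f, v)) h2 (by fun_prop)
    have h3 : ContinuousAt x (L.e f u₀) := by rw [hfu]; exact e6
    have h4 : Tendsto (fun v => x (L.e f v)) (𝓝 u₀) (𝓝 (x z.2)) := by
      rw [← hfu]
      exact (ContinuousAt.comp (g := x) (f := fun v => L.e f v) h3 h1).tendsto
    exact tendsto_const_nhds.prodMk_nhds (h4.congr' (hQ.mono fun v hv => hv.2.1))
  refine ⟨QS.congr (hQ.mono fun v hv => hv.1), ?_, NS.congr ?_⟩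
  · rw [hQd.self_of_nhds]
    exact Qi
  · filter_upwards [hev, hQ, hQd, tl.eventually e4] with v h1 h2 h3 h4
    obtain ⟨k1, k2, k3⟩ := h1
    obtain ⟨m1, m2, m3⟩ := h2
    have h5 : op1 S S' qq (y (L.em f), x (L.e f v)) = 1 - hess (S' (xh (lf u (y z.1, θ v))))
        (Φ (lf (ng u) (y z.1, θ v))).2 ∘L hess (S (y z.1)) (Q v) := by
      simp only [op1]
      rw [m1, hb, m2, m3]
    have h6 : (op1 S S' qq (y (L.em f), x (L.e f v))).IsInvertible := by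
      rw [hb, m2]; exact h4
    have h7 : hess (S' (x (L.e f v))) (∇ (S (y (L.em f))) (qq (y (L.em f), x (L.e f v))))
        = hess (S' (xh (lf u (y z.1, θ v)))) (Φ (lf (ng u) (y z.1, θ v))).2 := by
      rw [m1, hb, m2, m3]
    simp only [KK]
    rw [h3, h7, ← k3, ← h5]
    have h8 : (op1 S S' qq (y (L.em f), x (L.e f v))).inverse ∘L
        ((op1 S S' qq (y (L.em f), x (L.e f v))) ∘L
          (N₁ v + (K.r0 ^ 2)⁻¹ • cj (fderiv ℝ Q v) ((tens Mt).N f v)))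
        = N₁ v + (K.r0 ^ 2)⁻¹ • cj (fderiv ℝ Q v) ((tens Mt).N f v) := by
      obtain ⟨e, he⟩ := h6
      rw [← he]
      ext1 w
      simp
    rw [h8]
    module

variable {V : Type} [NormedAddCommGroup V] [NormedSpace ℝ V] [FiniteDimensional ℝ V]

/-- the point of a leaf chart below a point of the disc -/
theorem e_of_A (I : GeoIn L V) {f : X} {q : V} {p : ℝ × E2} (hp : p.2 ∈ closedBall (0 : E2) 3)
    (h : I.S.A f p = q) : L.e f p.2 = I.S.line (L.em f) q := by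
  rw [← I.e_eq f p.2 hp]
  change I.S.line (I.S.em f) (I.S.A f (0, p.2)) = _
  rw [I.em_eq, I.S.line_iff]
  refine ⟨p.1, ?_⟩
  have h1 := I.S.A_psi f p.1 p.2 (I.S.mem_R hp)
  rw [Prod.mk.eta, I.em_eq] at h1
  rw [← h1]
  exact h.symm

/-- the derivative of the crossing point is continuous in the frame -/
theorem dcont_loc (C : CrD u s S S' xh Φ qq t) (K : LinkIn L Mt u s xh)
    (l : LabD x y K.ξ K.η neg pos) (I : GeoIn L V) (x₀ : X)
    (hz : ∀ᶠ w in 𝓝 (0 : E2 × E2), L.ep (K.z w) = I.S.line (K.ξ w.1) (I.D x₀ w.2)) {f₀ : X}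
    (hf1 : L.em f₀ = neg) (hf2 : L.ep f₀ = pos) :
    ContinuousAt (fun f : X => fderiv ℝ (fun v => qq (y (L.em f), x (L.e f v))) 0) f₀ := by
  -- the frame `f₀` lies on the axis
  have hxh0 : xh (lf u 0) = 0 := by
    have h1 : Tendsto (fun w => xhn xh (lf (ng u) w)) (𝓝 0) (𝓝 0) := C.lp.x_tend
    have h2 : xhn xh (lf (ng u) 0) = xh (lf u 0) := xhn_lf xh u 0
    have h3 : lf (ng u) 0 = 0 := by
      show ((0 : E2), gradient (ng u 0) 0) = 0
      rw [C.lp.crit]; rfl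
    rw [← h2, h3]
    exact C.lp.xh_zero
  have hz0 : L.ep (K.z 0) = pos := by
    rw [K.ep_z.self_of_nhds, hxh0, l.η0]
  have hax : I.S.line neg (I.S.ft f₀) = I.S.line neg (I.D x₀ 0) := by
    have h1 := hz.self_of_nhds
    have h2 := I.line_eq f₀
    rw [hf1, hf2] at h2
    rw [h2, ← hz0, h1]
    congr 1
    exact l.ξ0
  obtain ⟨s₀, hs₀⟩ := (I.S.line_iff _ _ _).1 hax
  have hA0 : I.S.A f₀ (s₀, 0) = I.S.A x₀ (0, 0) := by
    rw [I.S.A_psi f₀ s₀ 0 I.S.zero_mem]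
    have h1 : I.S.A f₀ (0, 0) = I.S.ft f₀ := I.S.A_zero f₀
    rw [h1, I.em_eq, hf1]
    exact hs₀.symm
  obtain ⟨T, G, j1, h2, h3, h4⟩ := I.S.cross H722.invThm (x₀ := x₀) (y₀ := f₀) (u₀ := 0)
    I.S.zero_mem (s₀ := s₀) I.S.zero_mem hA0
  have cX : Continuous (fun f : X => ((x₀, f) : X × X)) := by fun_prop
  have jg := (j1.pullback cX).snd
  set g : X → E2 → E2 := fun f v => (G (x₀, f) v).2 with hg
  have hg0 : g f₀ 0 = 0 := by
    simp only [hg]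
    rw [h3]
  have hmem : ((f₀, (0 : E2)) : X × E2) ∈ {p : X × E2 | ((x₀, p.1), p.2) ∈ T} := h2
  -- the leaf chart below the disc
  have tg : Tendsto (fun p : X × E2 => g p.1 p.2) (𝓝 (f₀, 0)) (𝓝 0) := by
    have h5 := (jg.continuousOn.continuousAt (jg.isOpen.mem_nhds hmem)).tendsto
    have h6 : g ((f₀, 0) : X × E2).1 ((f₀, 0) : X × E2).2 = 0 := hg0
    rw [h6] at h5
    exact h5
  have hge : ∀ᶠ p in 𝓝 ((f₀, 0) : X × E2), L.e p.1 (g p.1 p.2)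
      = I.S.line (L.em p.1) (I.D x₀ p.2) ∧ g p.1 p.2 ∈ closedBall (0 : E2) 3 := by
    filter_upwards [jg.isOpen.mem_nhds hmem,
      tg.eventually (closedBall_mem_nhds (0 : E2) (by norm_num : (0 : ℝ) < 3))] with p hp hp2
    obtain ⟨-, -, h5⟩ := h4 _ hp
    exact ⟨e_of_A I (f := p.1) (p := G (x₀, p.1) p.2) hp2 h5, hp2⟩
  -- the derivative of `g f₀` is bijective
  have hbij : Function.Bijective (fderiv ℝ (g f₀) 0) := by
    obtain ⟨θ, Q, N₁, θS, θ0, -, -, -, hev⟩ := (link C.lp K).self_of_nhds f₀ 0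
      (by rw [hf1]; exact l.ξ0.symm) (mem_ball_self (by norm_num))
      (by rw [L.e_zero, hf2, hz0])
    have tθ : Tendsto θ (𝓝 0) (𝓝 0) := by
      have h5 := θS.contAt.tendsto
      rw [θ0] at h5
      exact h5
    have t1 : Tendsto (fun v => (f₀, θ v)) (𝓝 (0 : E2)) (𝓝 ((f₀, 0) : X × E2)) :=
      tendsto_const_nhds.prodMk_nhds tθ
    have t2 : Tendsto (fun v => ((0 : E2), θ v)) (𝓝 (0 : E2)) (𝓝 (0 : E2 × E2)) :=
      tendsto_const_nhds.prodMk_nhds tθ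
    have h5 : ∀ᶠ v in 𝓝 (0 : E2), g f₀ (θ v) = v := by
      filter_upwards [hev, t1.eventually hge, t2.eventually hz,
        closedBall_mem_nhds (0 : E2) (by norm_num : (0 : ℝ) < 3)] with v k1 k2 k3 k4
      have k5 : L.e f₀ (g f₀ (θ v)) = L.e f₀ v := by
        rw [k1.1]
        have k6 : L.e f₀ (g f₀ (θ v)) = I.S.line (L.em f₀) (I.D x₀ (θ v)) := k2.1
        have k7 : L.ep (K.z (0, θ v)) = I.S.line (K.ξ 0) (I.D x₀ (θ v)) := k3
        rw [k6, hf1]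
        show _ = L.ep (K.z (0, θ v))
        rw [k7, l.ξ0]
      exact L.e_inj f₀ k2.2 k4 k5
    have d1 : HasFDerivAt θ (fderiv ℝ θ 0) 0 :=
      (θS.at.differentiableAt (by simp)).hasFDerivAt
    have d2 : HasFDerivAt (g f₀) (fderiv ℝ (g f₀) 0) (θ 0) := by
      rw [θ0]
      exact jg.hasFDerivAt hmem
    have d3 := d2.comp (0 : E2) d1
    have d4 : HasFDerivAt (g f₀ ∘ θ) (ContinuousLinearMap.id ℝ E2) 0 :=
      (hasFDerivAt_id (0 : E2)).congr_of_eventuallyEq h5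
    have d5 := d3.unique d4
    have hsurj : Function.Surjective (fderiv ℝ (g f₀) 0) := fun w => by
      refine ⟨fderiv ℝ θ 0 w, ?_⟩
      have := congrArg (fun A : E2 →L[ℝ] E2 => A w) d5
      simpa using this
    exact ⟨LinearMap.injective_iff_surjective.2 hsurj, hsurj⟩
  obtain ⟨T', θ, jθ, m2, m3, m4, -⟩ := H722.invThm X E2 E2 g _ f₀ 0 jg hmem hbij
  rw [hg0] at m2 m3
  have tem : Tendsto (fun p : X × E2 => y (L.em p.1)) (𝓝 (f₀, 0)) (𝓝 0) := by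
    have h5 : ContinuousAt y (L.em f₀) := by rw [hf1]; exact l.yc.self_of_nhds
    have h6 : ContinuousAt (fun f => y (L.em f)) f₀ :=
      ContinuousAt.comp (g := y) (f := L.em) h5 L.em_cont.continuousAt
    have h7 : ContinuousAt (fun p : X × E2 => y (L.em p.1)) (f₀, 0) :=
      ContinuousAt.comp (g := fun f => y (L.em f)) (f := fun p : X × E2 => p.1) h6 continuousAt_fst
    have h8 := h7.tendsto
    simp only [hf1, l.y0] at h8
    exact h8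
  have tθ : Tendsto (fun p : X × E2 => θ p.1 p.2) (𝓝 (f₀, 0)) (𝓝 0) := by
    have h5 := (jθ.continuousOn.continuousAt (jθ.isOpen.mem_nhds m2)).tendsto
    simp only [m3] at h5
    exact h5
  have tw : Tendsto (fun p : X × E2 => (y (L.em p.1), θ p.1 p.2)) (𝓝 (f₀, 0))
      (𝓝 (0 : E2 × E2)) := tem.prodMk_nhds tθ
  have tf : Tendsto (fun p : X × E2 => (p.1, θ p.1 p.2)) (𝓝 (f₀, 0)) (𝓝 ((f₀, 0) : X × E2)) :=
    (continuous_fst.tendsto ((f₀, 0) : X × E2)).prodMk_nhds tθ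
  have tξ : ∀ᶠ p in 𝓝 ((f₀, 0) : X × E2), K.ξ (y (L.em p.1)) = L.em p.1 := by
    have h5 : Tendsto (fun p : X × E2 => L.em p.1) (𝓝 (f₀, 0)) (𝓝 neg) := by
      rw [← hf1]
      exact (L.em_cont.tendsto f₀).comp (continuous_fst.tendsto ((f₀, 0) : X × E2))
    exact h5.eventually l.ξy
  -- the crossing point in the two parameters
  have key : ∀ᶠ p in 𝓝 ((f₀, 0) : X × E2), qq (y (L.em p.1), x (L.e p.1 p.2))
      = (Φ (lf (ng u) (y (L.em p.1), θ p.1 p.2))).1 := by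
    filter_upwards [jθ.isOpen.mem_nhds m2, tf.eventually hge, tξ, tw.eventually hz,
      tw.eventually (qq_leaf C K l)] with p k1 k2 k3 k4 k5
    have k6 : g p.1 (θ p.1 p.2) = p.2 := (m4 p k1).2
    have k7 : L.e p.1 (g p.1 (θ p.1 p.2)) = I.S.line (L.em p.1) (I.D x₀ (θ p.1 p.2)) := k2.1
    have k8 : L.ep (K.z (y (L.em p.1), θ p.1 p.2))
        = I.S.line (K.ξ (y (L.em p.1))) (I.D x₀ (θ p.1 p.2)) := k4
    rw [k6] at k7
    rw [k3, ← k7] at k8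
    rw [← k8]
    exact k5.2.2.1
  have key2 : ∀ᶠ f in 𝓝 f₀, fderiv ℝ (fun v => qq (y (L.em f), x (L.e f v))) 0
      = (fderiv ℝ (fun t => (Φ (lf (ng u) (y (L.em f), t))).1) (θ f 0)) ∘L
        (fderiv ℝ (θ f) 0) := by
    have c1 : Continuous (fun f : X => ((f, 0) : X × E2)) := by fun_prop
    have t1 : Tendsto (fun f : X => ((f, 0) : X × E2)) (𝓝 f₀) (𝓝 (f₀, 0)) := c1.tendsto f₀
    filter_upwards [t1.eventually key.eventually_nhds, t1.eventually (jθ.isOpen.mem_nhds m2),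
      (tw.comp t1).eventually C.al.smooth] with f k1 k2 k3
    have c2 : Tendsto (fun v : E2 => ((f, v) : X × E2)) (𝓝 0) (𝓝 (f, 0)) :=
      (Continuous.prodMk_right f).tendsto _
    have k4 : (fun v => qq (y (L.em f), x (L.e f v))) =ᶠ[𝓝 (0 : E2)]
        fun v => (Φ (lf (ng u) (y (L.em f), θ f v))).1 := c2.eventually k1
    rw [k4.fderiv_eq]
    have d1 : HasFDerivAt (θ f) (fderiv ℝ (θ f) 0) 0 := jθ.hasFDerivAt k2
    have d2 : HasFDerivAt (fun t => (Φ (lf (ng u) (y (L.em f), t))).1)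
        (fderiv ℝ (fun t => (Φ (lf (ng u) (y (L.em f), t))).1) (θ f 0)) (θ f 0) :=
      (ContDiffAt.differentiableAt (n := ∞) k3 (by simp)).hasFDerivAt
    exact (d2.comp (0 : E2) d1).fderiv
  refine ContinuousAt.congr ?_ (key2.mono fun f hf => hf.symm)
  have c1 : Continuous (fun f : X => ((f, 0) : X × E2)) := by fun_prop
  have e1 : ContinuousAt (fun f => fderiv ℝ (θ f) 0) f₀ := by
    have h5 := jθ.fderiv.continuousOn.continuousAt (jθ.isOpen.mem_nhds m2)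
    exact ContinuousAt.comp (f := fun f : X => ((f, 0) : X × E2)) h5 c1.continuousAt
  have e2 : ContinuousAt (fun f => fderiv ℝ (fun t => (Φ (lf (ng u) (y (L.em f), t))).1) (θ f 0))
      f₀ := by
    have h5 := C.al.fderiv.contAt
    have h6 : ContinuousAt (fun f : X => (y (L.em f), θ f 0)) f₀ := by
      have h7 : Tendsto (fun f : X => (y (L.em f), θ f 0)) (𝓝 f₀) (𝓝 (0 : E2 × E2)) :=
        tw.comp (c1.tendsto f₀)
      have h8 : ((y (L.em f₀), θ f₀ 0) : E2 × E2) = 0 := by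
        rw [hf1, l.y0, m3]
        rfl
      rw [ContinuousAt, h8]
      exact h7
    have h9 : ((y (L.em f₀), θ f₀ 0) : E2 × E2) = (0, 0) := by rw [hf1, l.y0, m3]
    refine ContinuousAt.comp (g := fun p : E2 × E2 =>
      fderiv ℝ (fun t => (Φ (lf (ng u) (p.1, t))).1) p.2)
      (f := fun f : X => (y (L.em f), θ f 0)) ?_ h6
    rw [h9]
    exact h5
  exact e2.clm_comp e1

/-- **One side of the link.** -/
def mkSide {H H' : Half} (C : CrD u s H.S H'.S xh Φ qq t) (K : LinkIn L Mt u s xh)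
    (l : LabD x y K.ξ K.η neg pos) (I : GeoIn L V) (x₀ : X)
    (hz : ∀ᶠ w in 𝓝 (0 : E2 × E2), L.ep (K.z w) = I.S.line (K.ξ w.1) (I.D x₀ w.2))
    {g : Γ} {N N' : E2 → E2} {φ : E2 × E2 → E2 × E2} (Ha : H.a = fun z => (φ z).1)
    (gx : ∀ᶠ b in 𝓝 pos, x (g • b) = N (x b)) (gy : ∀ᶠ b in 𝓝 neg, y (g • b) = N' (y b))
    (hdyn : ∀ᶠ w in 𝓝 (0 : E2 × E2), qq (N' w.1, N w.2)
      = (φ (qq w, ∇ (H.S w.1) (qq w))).1) :
    H143.Side (tens Mt) g neg pos x y H H' where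
  c := -(K.r0 ^ 2)⁻¹
  c_ne := neg_ne_zero.2 (inv_ne_zero (pow_ne_zero 2 K.r0_pos.ne'))
  Q b b' := qq (y b, x b')
  K := KK (tens Mt) (-(K.r0 ^ 2)⁻¹) H.S H'.S qq x y
  cont := by
    have h1 : ContinuousAt (fun z : B × B => (y z.1, x z.2)) (neg, pos) :=
      (ContinuousAt.comp (f := fun z : B × B => z.1) (x := (neg, pos)) l.yc.self_of_nhds
        continuousAt_fst).prodMk
      (ContinuousAt.comp (f := fun z : B × B => z.2) (x := (neg, pos)) l.xc.self_of_nhds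
        continuousAt_snd)
    refine ContinuousAt.comp (g := qq) (f := fun z : B × B => (y z.1, x z.2)) ?_ h1
    have h2 : ((y (neg, pos).1, x (neg, pos).2) : E2 × E2) = 0 := by
      show (y neg, x pos) = 0
      rw [l.y0, l.x0]
      rfl
    rw [h2]
    exact C.cr.cont.self_of_nhds
  zero := by
    show qq (y neg, x pos) = 0
    rw [l.y0, l.x0]
    exact C.cr.zero
  pt := ev_pairs l.yc.self_of_nhds l.xc.self_of_nhds l.y0 l.x0 C.cr.fix fun z hz => hz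
  dyn := by
    have h1 : ∀ᶠ z : B × B in 𝓝 (neg, pos), x (g • z.2) = N (x z.2) :=
      (continuous_snd.tendsto (neg, pos)).eventually gx
    have h2 : ∀ᶠ z : B × B in 𝓝 (neg, pos), y (g • z.1) = N' (y z.1) :=
      (continuous_fst.tendsto (neg, pos)).eventually gy
    have h3 : ∀ᶠ z : B × B in 𝓝 (neg, pos), qq (N' (y z.1), N (x z.2))
      = (φ (qq (y z.1, x z.2), ∇ (H.S (y z.1)) (qq (y z.1, x z.2)))).1 :=
      ev_pairs l.yc.self_of_nhds l.xc.self_of_nhds l.y0 l.x0 hdyn fun z hz => hz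
    filter_upwards [h1, h2, h3] with z k1 k2 k3
    rw [k1, k2, k3, Ha]
  smooth := by
    filter_upwards [link_loc C K l] with z hz f hf u₀ hu hfu
    obtain ⟨h1, h2, h3⟩ := hz f hf u₀ hu hfu
    rw [← hf]
    exact ⟨h1.at, (det_ne_zero_iff _).2 h2, h3.at⟩
  link := by
    have h0 : ∀ᶠ z : B × B in 𝓝 (neg, pos), (op1 H.S H'.S qq (y z.1, x z.2)).IsInvertible :=
      ev_pairs l.yc.self_of_nhds l.xc.self_of_nhds l.y0 l.x0 (op1_inv C) fun z hz => hz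
    filter_upwards [h0] with z hz f hf u₀ hu hfu
    have h1 : KK (tens Mt) (-(K.r0 ^ 2)⁻¹) H.S H'.S qq x y f u₀ - (-(K.r0 ^ 2)⁻¹) •
        (fderiv ℝ (fun u => qq (y z.1, x (L.e f u))) u₀ ∘L (tens Mt).N f u₀ ∘L
          ContinuousLinearMap.adjoint (fderiv ℝ (fun u => qq (y z.1, x (L.e f u))) u₀))
        = (op1 H.S H'.S qq (y z.1, x z.2)).inverse ∘L
          hess (H'.S (x z.2)) (∇ (H.S (y z.1)) (qq (y z.1, x z.2))) := by
      simp only [KK, cj]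
      rw [hf, hfu]
      abel
    rw [h1]
    have h2 : (1 : E2 →L[ℝ] E2) - fderiv ℝ (∇ (H'.S (x z.2))) (∇ (H.S (y z.1)) (qq (y z.1, x z.2)))
        ∘L fderiv ℝ (∇ (H.S (y z.1))) (qq (y z.1, x z.2)) = op1 H.S H'.S qq (y z.1, x z.2) := rfl
    rw [h2]
    obtain ⟨e, he⟩ := hz
    rw [← he]
    ext1 w
    simp [hess]
  dcont f₀ h1 h2 := by
    have h3 := dcont_loc C K l I x₀ hz h1 h2
    exact h3

end Vale.Agent.P207.N3.H250
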