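import Vale.Agent.P207.N3.Spec

/-!
# P207, line N3, package P3: the local product structure near a closed orbit

Straight exact symplectic chart `(q, p)` of the space of geodesics near the closed orbit `γ`,
`φ = γ⁻¹`: `q = x` on the unstable leaf `{p = 0}` of `γ⁻`, `p = y` on the stable leaf `{q = 0}` of
`γ⁺`; unstable leaves `p = ∇(S y)(q)`, stable leaves `q = ∇(S' x)(p)`. The structure `PF` itself is
in `H391/PF.lean`.
-/

open Set Filter Topology Metric MeasureTheory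
open scoped ContDiff

noncomputable section

namespace Vale.Agent.P207.N3

/-- The Hessian of a function as a linear map. -/
def hess (f : E2 → ℝ) (q : E2) : E2 →L[ℝ] E2 := fderiv ℝ (gradient f) q

/-- The symplectic form `dp ∧ dq` of the plane times the plane, points `(q, p)`. -/
def sympl (a b : E2 × E2) : ℝ := inner ℝ a.2 b.1 - inner ℝ a.1 b.2

/-- A family of functions near `0`, labelled by the gradient at `0`. -/
structure LeafFam (R : ℝ) (S X : E2 → E2 → ℝ) : Prop where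
  S_smooth : ∀ y ∈ ball (0 : E2) R, ContDiffOn ℝ ∞ (S y) (ball 0 R)
  S_cont : ∀ k : ℕ, ContinuousOn (fun z : E2 × E2 => iteratedFDeriv ℝ k (S z.1) z.2)
    (ball 0 R ×ˢ ball 0 R)
  S_zero : ∀ y ∈ ball (0 : E2) R, S y 0 = 0
  S_label : ∀ y ∈ ball (0 : E2) R, gradient (S y) 0 = y
  S_base : ∀ q ∈ ball (0 : E2) R, S 0 q = 0
  X_smooth : ∀ y ∈ ball (0 : E2) R, ContDiffOn ℝ ∞ (X y) (ball 0 R)
  X_cont : ∀ k : ℕ, ContinuousOn (fun z : E2 × E2 => iteratedFDeriv ℝ k (X z.1) z.2)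
    (ball 0 R ×ˢ ball 0 R)
  X_zero : ∀ y ∈ ball (0 : E2) R, X y 0 = 0
  X_base : ∀ q ∈ ball (0 : E2) R, X 0 q = 0
  /-- the divergence formula `∑ᵢ ∂_{yᵢ} T_{ij}(y) = X_j(y)`, weakly -/
  div : ∀ (f : E2 → ℝ), ContDiff ℝ ∞ f → HasCompactSupport f → tsupport f ⊆ ball 0 R →
    ∀ v : E2, ∫ y, inner ℝ (hess (S y) 0 (gradient f y)) v
      = - ∫ y, f y * inner ℝ (gradient (X y) 0) v

end Vale.Agent.P207.N3
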