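import Vale.Agent.P207.N3.H250.Dyn0

/-!
# P207, line N3, P3: the determinant identity and the product formula
-/

open Set Filter Topology Metric MeasureTheory
open scoped ContDiff

noncomputable section

namespace Vale.Agent.P207.N3

/-- the determinant identity at an intersection point (linear algebra) -/
theorem det_id {L : E2 × E2 →L[ℝ] E2 × E2} {A B α β α' β' M M' : E2 →L[ℝ] E2}
    (hL : ∀ a b, sympl (L a) (L b) = sympl a b)
    (hB : ∀ v w, inner ℝ (B v) w = inner ℝ v (B w))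
    (hM' : ∀ v w, inner ℝ (M' v) w = inner ℝ v (M' w))
    (h1 : ∀ v, L (v, A v) = (α v, β v)) (h2 : ∀ w, L (w, - B w) = (β' w, α' w))
    (h3 : M ∘L α = β) (h4 : M' ∘L α' = β') :
    (A + B).det = α'.det * (1 - M ∘L M').det * α.det := by
  have key : ∀ v w, inner ℝ ((A + B) v) w = inner ℝ ((M' ∘L M - 1) (α v)) (α' w) := by
    intro v w
    have e1 := hL (v, A v) (w, - B w)
    rw [h1, h2] at e1
    simp only [sympl] at e1
    have e2 : β v = M (α v) := by rw [← h3]; rfl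
    have e3 : β' w = M' (α' w) := by rw [← h4]; rfl
    rw [e2, e3, ← hM' (M (α v)), inner_neg_right, ← hB v w] at e1
    simp only [add_apply, sub_apply, ContinuousLinearMap.comp_apply, one_apply_eq_self,
      inner_add_left, inner_sub_left]
    linarith
  have e4 : A + B = ContinuousLinearMap.adjoint α' ∘L ((M' ∘L M - 1) ∘L α) := by
    ext1 v
    refine ext_inner_right ℝ fun w => ?_
    rw [key, ContinuousLinearMap.comp_apply, ContinuousLinearMap.adjoint_inner_left]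
    rfl
  have e5 : (ContinuousLinearMap.adjoint α').det = α'.det :=
    det_adjoint2 _ _ fun v w => ContinuousLinearMap.adjoint_inner_left _ _ _
  have e6 : (M' ∘L M - 1).det = (1 - M ∘L M').det := by
    rw [det_one_sub_comm, ← det_neg2]
    congr 1
    abel
  rw [e4, det_comp2, det_comp2, e5, e6]
  ring

theorem fderiv_sw {Φ : E2 × E2 → E2 × E2} {z : E2 × E2}
    (hd : DifferentiableAt ℝ Φ (z.1, - z.2)) (v : E2 × E2) :
    fderiv ℝ (sw Φ) z v = ((fderiv ℝ Φ (z.1, - z.2) (v.1, - v.2)).2,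
      (fderiv ℝ Φ (z.1, - z.2) (v.1, - v.2)).1) := by
  let ν : E2 × E2 →L[ℝ] E2 × E2 := (ContinuousLinearMap.fst ℝ E2 E2).prod
    (-(ContinuousLinearMap.snd ℝ E2 E2))
  have d1 : HasFDerivAt (fun y => Φ (ν y)) ((fderiv ℝ Φ (ν z)).comp ν) z :=
    hd.hasFDerivAt.comp z ν.hasFDerivAt
  have e1 : HasFDerivAt (sw Φ) _ z := d1.snd.prodMk d1.fst
  rw [e1.fderiv]
  rfl

namespace Side

variable {Φ : E2 × E2 → E2 × E2} {K : E2 × E2 → ℝ} {u ρ : E2 → E2 → ℝ} {ϑ : E2 → E2} {h : ℝ}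
  {τ : E2 → E2 → E2}

theorem push (D : Side Φ K u ρ ϑ h) : ∀ᶠ z in 𝓝 (0 : E2 × E2), ∀ v,
    fderiv ℝ Φ (lf u z) (v, hess (u z.1) z.2 v)
      = (fderiv ℝ (al Φ u z.1) z.2 v, fderiv ℝ (be Φ u z.1) z.2 v) := by
  have hΦ := D.lf_tendsto.eventually D.ex.smooth
  filter_upwards [D.u_jg.gradient.smooth, hΦ] with z h2 h4 v
  have e2 : DifferentiableAt ℝ (gradient (u z.1)) z.2 := h2.differentiableAt (by simp)
  have e4 : DifferentiableAt ℝ Φ (lf u (z.1, z.2)) := h4.differentiableAt (by simp)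
  have e5 : HasFDerivAt (fun t => lf u (z.1, t))
      ((ContinuousLinearMap.id ℝ E2).prod (hess (u z.1) z.2)) z.2 :=
    (hasFDerivAt_id z.2).prodMk e2.hasFDerivAt
  have e6 := e4.hasFDerivAt.comp z.2 e5
  have d1 : HasFDerivAt (al Φ u z.1) _ z.2 := e6.fst
  have d2 : HasFDerivAt (be Φ u z.1) _ z.2 := e6.snd
  rw [d1.fderiv, d2.fderiv]
  rfl

theorem SS_symm (D : Side Φ K u ρ ϑ h) (T : IsTau Φ u τ) : ∀ᶠ p in 𝓝 (0 : E2 × E2), ∀ v w,
    inner ℝ (hess (SS K u τ p.1) p.2 v) w = inner ℝ v (hess (SS K u τ p.1) p.2 w) := by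
  filter_upwards [(D.SS_jg T).smooth] with p hp v w
  exact hess_symm hp v w

end Side

open Side

variable {Φ : E2 × E2 → E2 × E2} {K : E2 × E2 → ℝ} {u ρ s ρ' : E2 → E2 → ℝ} {ϑ ϑ' : E2 → E2}
  {h : ℝ} {τ τ' : E2 → E2 → E2}

theorem tendsto_yq : Tendsto (fun w : (E2 × E2) × (E2 × E2) => (w.1.2, w.2.1)) (𝓝 0) (𝓝 0) := by
  have : Continuous (fun w : (E2 × E2) × (E2 × E2) => (w.1.2, w.2.1)) := by fun_prop
  exact this.tendsto 0

theorem tendsto_xp : Tendsto (fun w : (E2 × E2) × (E2 × E2) => (w.1.1, w.2.2)) (𝓝 0) (𝓝 0) := by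
  have : Continuous (fun w : (E2 × E2) × (E2 × E2) => (w.1.1, w.2.2)) := by fun_prop
  exact this.tendsto 0

theorem tendsto_neg_snd : Tendsto (fun z : E2 × E2 => (z.1, - z.2)) (𝓝 0) (𝓝 0) := by
  have : Continuous (fun z : E2 × E2 => (z.1, - z.2)) := by fun_prop
  have h1 := this.tendsto 0
  have h2 : ((0 : E2 × E2).1, - (0 : E2 × E2).2) = 0 := by simp
  rwa [h2] at h1

theorem det_pos_ev (D : Side Φ K u ρ ϑ h) (D' : Side (sw Φ) (swK Φ K) s ρ' ϑ' h)
    (T : IsTau Φ u τ) (T' : IsTau (sw Φ) s τ') :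
    ∀ᶠ w in 𝓝 (0 : (E2 × E2) × (E2 × E2)), 0 < (1 - hess (SS K u τ w.1.2) w.2.1 ∘L
      hess (SS (swK Φ K) s τ' w.1.1) w.2.2).det := by
  have c1 : ContinuousAt (fun p : E2 × E2 => hess (SS K u τ p.1) p.2) (0, 0) :=
    (D.SS_jg T).gradient.fderiv.contAt
  have c2 : ContinuousAt (fun p : E2 × E2 => hess (SS (swK Φ K) s τ' p.1) p.2) (0, 0) :=
    (D'.SS_jg T').gradient.fderiv.contAt
  have z1 : hess (SS K u τ 0) 0 = 0 := by
    have h1 : gradient (SS K u τ 0) =ᶠ[𝓝 0] fun _ => 0 := D.SS_grad_base T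
    rw [hess, h1.fderiv_eq]
    simp
  have h3 : Tendsto (fun w : (E2 × E2) × (E2 × E2) => (1 - hess (SS K u τ w.1.2) w.2.1 ∘L
      hess (SS (swK Φ K) s τ' w.1.1) w.2.2).det) (𝓝 0)
      (𝓝 ((1 - hess (SS K u τ 0) 0 ∘L hess (SS (swK Φ K) s τ' 0) 0).det)) := by
    refine (contDiff_det2.continuous.tendsto _).comp ?_
    refine tendsto_const_nhds.sub ?_
    have a1 := c1.tendsto.comp tendsto_yq
    have a2 := c2.tendsto.comp tendsto_xp
    exact ((ContinuousLinearMap.compL ℝ E2 E2 E2).isBoundedBilinearMap.continuous.tendsto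
      (hess (SS K u τ 0) 0, hess (SS (swK Φ K) s τ' 0) 0)).comp (a1.prodMk_nhds a2)
  rw [z1, ContinuousLinearMap.zero_comp, sub_zero] at h3
  have h4 : (1 : E2 →L[ℝ] E2).det = 1 := by
    show LinearMap.det (LinearMap.id : E2 →ₗ[ℝ] E2) = 1
    exact LinearMap.det_id
  rw [h4] at h3
  exact h3.eventually (lt_mem_nhds one_pos)

/-- the contribution of the label to the constant in the product formula -/
def kk (Φ : E2 × E2 → E2 × E2) (K : E2 × E2 → ℝ) (u ρ : E2 → E2 → ℝ) (h : ℝ)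
    (τ : E2 → E2 → E2) (y : E2) : ℝ := - xx Φ u ρ h y (τ y 0) - h * gg K u y (τ y 0)

/-- the two leaves through a point of intersection -/
theorem crossing (D : Side Φ K u ρ ϑ h) (D' : Side (sw Φ) (swK Φ K) s ρ' ϑ' h)
    (T : IsTau Φ u τ) (T' : IsTau (sw Φ) s τ') :
    ∀ᶠ w in 𝓝 (0 : (E2 × E2) × (E2 × E2)),
      gradient (SS K u τ w.1.2) w.2.1 = w.2.2 →
      gradient (SS (swK Φ K) s τ' w.1.1) w.2.2 = w.2.1 →
      Φ (lf u (w.1.2, τ w.1.2 w.2.1)) = w.2 ∧ τ' w.1.1 w.2.2 = τ w.1.2 w.2.1 ∧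
      gradient (u w.1.2) (τ w.1.2 w.2.1) + gradient (s w.1.1) (τ w.1.2 w.2.1) = 0 := by
  obtain ⟨Ψ, -, -, hΨ⟩ := D.ex.inv
  have c1 := tendsto_yq.eventually T.right
  have c2 := tendsto_xp.eventually T'.right
  have c3 := tendsto_yq.eventually (D.SS_grad T)
  have c4 := tendsto_xp.eventually (D'.SS_grad T')
  have c5 := ((D.lf_tendsto.comp (τ_tendsto T)).comp tendsto_yq).eventually hΨ
  have c6 := (((tendsto_neg_snd.comp D'.lf_tendsto).comp (τ_tendsto T')).comp tendsto_xp).eventually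
    hΨ
  filter_upwards [c1, c2, c3, c4, c5, c6] with w e1 e2 e3 e4 e5 e6 hp hq
  have f1 : Φ (lf u (w.1.2, τ w.1.2 w.2.1)) = w.2 := by
    refine Prod.ext e1 ?_
    rw [← hp]
    exact e3.symm
  have f2 : Φ (τ' w.1.1 w.2.2, - gradient (s w.1.1) (τ' w.1.1 w.2.2)) = w.2 := by
    refine Prod.ext ?_ ?_
    · rw [← hq]
      exact e4.symm
    · exact e2
  have f3 : lf u (w.1.2, τ w.1.2 w.2.1)
      = (τ' w.1.1 w.2.2, - gradient (s w.1.1) (τ' w.1.1 w.2.2)) := by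
    have g1 : Ψ (Φ (lf u (w.1.2, τ w.1.2 w.2.1))) = lf u (w.1.2, τ w.1.2 w.2.1) := e5
    have g2 : Ψ (Φ (τ' w.1.1 w.2.2, - gradient (s w.1.1) (τ' w.1.1 w.2.2)))
      = (τ' w.1.1 w.2.2, - gradient (s w.1.1) (τ' w.1.1 w.2.2)) := e6
    rw [← g1, ← g2, f1, f2]
  have f4 : τ w.1.2 w.2.1 = τ' w.1.1 w.2.2 := congrArg Prod.fst f3
  have f5 : gradient (u w.1.2) (τ w.1.2 w.2.1) = - gradient (s w.1.1) (τ' w.1.1 w.2.2) :=
    congrArg Prod.snd f3
  refine ⟨f1, f4.symm, ?_⟩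
  rw [f5, f4, neg_add_cancel]

/-- the product formula up to a function of the labels -/
theorem formula_kk (D : Side Φ K u ρ ϑ h) (D' : Side (sw Φ) (swK Φ K) s ρ' ϑ' h)
    (T : IsTau Φ u τ) (T' : IsTau (sw Φ) s τ')
    (star : ∀ᶠ z in 𝓝 (0 : (E2 × E2) × E2),
      gradient (u z.1.2) z.2 + gradient (s z.1.1) z.2 = 0 →
      0 < (hess (u z.1.2) z.2 + hess (s z.1.1) z.2).det ∧
      Real.log (hess (u z.1.2) z.2 + hess (s z.1.1) z.2).det = ρ z.1.2 z.2 + ρ' z.1.1 z.2) :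
    ∀ᶠ w in 𝓝 (0 : (E2 × E2) × (E2 × E2)),
      gradient (SS K u τ w.1.2) w.2.1 = w.2.2 →
      gradient (SS (swK Φ K) s τ' w.1.1) w.2.2 = w.2.1 →
      XX Φ u ρ h τ w.1.2 w.2.1 + XX (sw Φ) s ρ' h τ' w.1.1 w.2.2 +
        h * (SS K u τ w.1.2 w.2.1 + SS (swK Φ K) s τ' w.1.1 w.2.2 - inner ℝ w.2.2 w.2.1)
      = Real.log (1 - hess (SS K u τ w.1.2) w.2.1 ∘L
          hess (SS (swK Φ K) s τ' w.1.1) w.2.2).det
        + (kk Φ K u ρ h τ w.1.2 + kk (sw Φ) (swK Φ K) s ρ' h τ' w.1.1) := by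
  have ty := (τ_tendsto T).comp tendsto_yq
  have tx := (τ_tendsto T').comp tendsto_xp
  have c1 := crossing D D' T T'
  have c2 := det_pos_ev D D' T T'
  have c3 := (D.lf_tendsto.comp ty).eventually D.ex.sympl
  have c4 := ty.eventually D.push
  have c5 := tx.eventually D'.push
  have c6 := ty.eventually (D.SS_hess T)
  have c7 := tx.eventually (D'.SS_hess T')
  have c8 := tendsto_xp.eventually (D'.SS_symm T')
  have c9 := tx.eventually D'.u_jg.smooth
  have c10 := tendsto_yq.eventually T.right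
  have c11 := tendsto_xp.eventually T'.right
  have c12 := (D.lf_tendsto.comp ty).eventually D.ex.smooth
  have c13 : ∀ᶠ w in 𝓝 (0 : (E2 × E2) × (E2 × E2)),
      gradient (u w.1.2) (τ w.1.2 w.2.1) + gradient (s w.1.1) (τ w.1.2 w.2.1) = 0 →
      0 < (hess (u w.1.2) (τ w.1.2 w.2.1) + hess (s w.1.1) (τ w.1.2 w.2.1)).det ∧
      Real.log (hess (u w.1.2) (τ w.1.2 w.2.1) + hess (s w.1.1) (τ w.1.2 w.2.1)).det
        = ρ w.1.2 (τ w.1.2 w.2.1) + ρ' w.1.1 (τ w.1.2 w.2.1) := by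
    have t1 : Tendsto (fun w : (E2 × E2) × (E2 × E2) => (w.1, τ w.1.2 w.2.1)) (𝓝 0) (𝓝 0) := by
      have a1 : Tendsto (fun w : (E2 × E2) × (E2 × E2) => w.1) (𝓝 0) (𝓝 0) :=
        continuous_fst.tendsto _
      have a2 : Tendsto (fun w : (E2 × E2) × (E2 × E2) => τ w.1.2 w.2.1) (𝓝 0) (𝓝 0) :=
        (continuous_snd.tendsto (0 : E2 × E2)).comp ty
      exact a1.prodMk_nhds a2
    exact t1.eventually star
  filter_upwards [c1, c2, c3, c4, c5, c6, c7, c8, c9, c10, c11, c12, c13]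
    with w d1 d2 d3 d4 d5 d6 d7 d8 d9 d10 d11 d12 d13 hp hq
  obtain ⟨f1, f2, f3⟩ := d1 hp hq
  obtain ⟨s1, s2⟩ := d13 f3
  set x := w.1.1 with hx
  set y := w.1.2 with hy
  set q := w.2.1 with hqq
  set p := w.2.2 with hpp
  set t := τ y q with ht
  have d3' : ∀ a b, sympl (fderiv ℝ Φ (lf u (y, t)) a) (fderiv ℝ Φ (lf u (y, t)) b)
      = sympl a b := d3
  have d4' : ∀ v, fderiv ℝ Φ (lf u (y, t)) (v, hess (u y) t v)
      = (fderiv ℝ (al Φ u y) t v, fderiv ℝ (be Φ u y) t v) := d4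
  have d5' : ∀ v, fderiv ℝ (sw Φ) (lf s (x, t)) (v, hess (s x) t v)
      = (fderiv ℝ (al (sw Φ) s x) t v, fderiv ℝ (be (sw Φ) s x) t v) := by
    have := d5
    simp only [Function.comp] at this
    rw [f2] at this
    exact this
  have d6' : hess (SS K u τ y) q ∘L fderiv ℝ (al Φ u y) t = fderiv ℝ (be Φ u y) t := by
    have := d6
    simp only [Function.comp] at this
    rw [d10] at this
    exact this
  have d7' : hess (SS (swK Φ K) s τ' x) p ∘L fderiv ℝ (al (sw Φ) s x) t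
      = fderiv ℝ (be (sw Φ) s x) t := by
    have := d7
    simp only [Function.comp] at this
    rw [d11, f2] at this
    exact this
  have d9' : ContDiffAt ℝ ∞ (s x) t := by
    have := d9
    simp only [Function.comp] at this
    rw [f2] at this
    exact this
  have hgrad : gradient (u y) t = - gradient (s x) t := eq_neg_of_add_eq_zero_left f3
  have hlf : lf u (y, t) = (t, - gradient (s x) t) := by
    rw [← hgrad]; rfl
  have d12' : DifferentiableAt ℝ Φ ((lf s (x, t)).1, - (lf s (x, t)).2) := by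
    have h1 : ((lf s (x, t)).1, - (lf s (x, t)).2) = lf u (y, t) := by rw [hlf]; rfl
    rw [h1]
    exact ContDiffAt.differentiableAt (n := ∞) d12 (by simp)
  have h2 : ∀ v, fderiv ℝ Φ (lf u (y, t)) (v, - hess (s x) t v)
      = (fderiv ℝ (be (sw Φ) s x) t v, fderiv ℝ (al (sw Φ) s x) t v) := by
    intro v
    have h3 := d5' v
    rw [fderiv_sw d12'] at h3
    have h4 : ((lf s (x, t)).1, - (lf s (x, t)).2) = lf u (y, t) := by rw [hlf]; rfl
    rw [h4] at h3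
    exact Prod.ext (congrArg Prod.snd h3) (congrArg Prod.fst h3)
  have hdet := det_id (L := fderiv ℝ Φ (lf u (y, t))) (A := hess (u y) t) (B := hess (s x) t)
    d3' (hess_symm d9') d8 d4' h2 d6' d7'
  have n1 : (fderiv ℝ (al (sw Φ) s x) t).det ≠ 0 := by
    intro h0
    rw [hdet, h0] at s1
    simp at s1
  have n2 : (fderiv ℝ (al Φ u y) t).det ≠ 0 := by
    intro h0
    rw [hdet, h0] at s1
    simp at s1
  have hlog : Real.log (hess (u y) t + hess (s x) t).det =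
      Real.log |(fderiv ℝ (al (sw Φ) s x) t).det| +
      Real.log (1 - hess (SS K u τ y) q ∘L hess (SS (swK Φ K) s τ' x) p).det +
      Real.log |(fderiv ℝ (al Φ u y) t).det| := by
    rw [hdet, Real.log_mul (mul_ne_zero n1 d2.ne') n2, Real.log_mul n1 d2.ne', Real.log_abs,
      Real.log_abs]
  have hS : SS K u τ y q = u y t + K (lf u (y, t)) - gg K u y (τ y 0) := rfl
  have hS' : SS (swK Φ K) s τ' x p = s x t + (inner ℝ q p - K (lf u (y, t)))
      - gg (swK Φ K) s x (τ' x 0) := by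
    show gg (swK Φ K) s x (τ' x p) - gg (swK Φ K) s x (τ' x 0) = _
    rw [f2]
    show s x t + swK Φ K (lf s (x, t)) - gg (swK Φ K) s x (τ' x 0) = _
    have h5 : swK Φ K (lf s (x, t)) = inner ℝ q p - K (lf u (y, t)) := by
      show inner ℝ (Φ (t, - gradient (s x) t)).1 (Φ (t, - gradient (s x) t)).2
        - K (t, - gradient (s x) t) = _
      rw [← hlf, f1]
    rw [h5]
  have hX : XX Φ u ρ h τ y q = ρ y t - h * u y t - Real.log |(fderiv ℝ (al Φ u y) t).det|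
      - xx Φ u ρ h y (τ y 0) := rfl
  have hX' : XX (sw Φ) s ρ' h τ' x p = ρ' x t - h * s x t
      - Real.log |(fderiv ℝ (al (sw Φ) s x) t).det| - xx (sw Φ) s ρ' h x (τ' x 0) := by
    show xx (sw Φ) s ρ' h x (τ' x p) - _ = _
    rw [f2]
    rfl
  rw [hS, hS', hX, hX', real_inner_comm p q]
  rw [hlog] at s2
  simp only [kk]
  have e9 : inner ℝ q p = inner ℝ p q := real_inner_comm p q
  linear_combination (-1 : ℝ) * s2

end Vale.Agent.P207.N3
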