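import Vale.Agent.P207.N3.H250.Prod

/-!
# P207, line N3, P3: the product formula
-/

open Set Filter Topology Metric MeasureTheory
open scoped ContDiff

noncomputable section

namespace Vale.Agent.P207.N3

open Side

variable {Φ : E2 × E2 → E2 × E2} {K : E2 × E2 → ℝ} {u ρ s ρ' : E2 → E2 → ℝ} {ϑ ϑ' : E2 → E2}
  {h : ℝ} {τ τ' : E2 → E2 → E2}

theorem hess_base (D : Side Φ K u ρ ϑ h) (T : IsTau Φ u τ) :
    ∀ᶠ q in 𝓝 (0 : E2), hess (SS K u τ 0) q = 0 := by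
  filter_upwards [(D.SS_grad_base T).eventually_nhds] with q hq
  have h1 : gradient (SS K u τ 0) =ᶠ[𝓝 q] fun _ => 0 := hq
  rw [hess, h1.fderiv_eq]
  simp

theorem det_one2 : (1 : E2 →L[ℝ] E2).det = 1 := by
  show LinearMap.det (LinearMap.id : E2 →ₗ[ℝ] E2) = 1
  exact LinearMap.det_id

/-- **the product formula** -/
theorem formula_ev (D : Side Φ K u ρ ϑ h) (D' : Side (sw Φ) (swK Φ K) s ρ' ϑ' h)
    (T : IsTau Φ u τ) (T' : IsTau (sw Φ) s τ')
    (star : ∀ᶠ z in 𝓝 (0 : (E2 × E2) × E2),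
      gradient (u z.1.2) z.2 + gradient (s z.1.1) z.2 = 0 →
      0 < (hess (u z.1.2) z.2 + hess (s z.1.1) z.2).det ∧
      Real.log (hess (u z.1.2) z.2 + hess (s z.1.1) z.2).det = ρ z.1.2 z.2 + ρ' z.1.1 z.2) :
    ∀ᶠ w in 𝓝 (0 : (E2 × E2) × (E2 × E2)),
      gradient (SS K u τ w.1.2) w.2.1 = w.2.2 →
      gradient (SS (swK Φ K) s τ' w.1.1) w.2.2 = w.2.1 →
      XX Φ u ρ h τ w.1.2 w.2.1 + XX (sw Φ) s ρ' h τ' w.1.1 w.2.2 +
        h * (SS K u τ w.1.2 w.2.1 + SS (swK Φ K) s τ' w.1.1 w.2.2 - inner ℝ w.2.2 w.2.1)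
      = Real.log (1 - hess (SS K u τ w.1.2) w.2.1 ∘L
          hess (SS (swK Φ K) s τ' w.1.1) w.2.2).det := by
  have F := formula_kk D D' T T' star
  -- the point `x = 0`, `q = 0`, `p = y`
  have ty : Tendsto (fun y : E2 => ((((0 : E2), y), ((0 : E2), y)) : (E2 × E2) × (E2 × E2)))
      (𝓝 0) (𝓝 0) := by
    have : Continuous (fun y : E2 => ((((0 : E2), y), ((0 : E2), y)) : (E2 × E2) × (E2 × E2))) := by
      fun_prop
    exact this.tendsto 0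
  have tx : Tendsto (fun x : E2 => (((x, (0 : E2)), (x, (0 : E2))) : (E2 × E2) × (E2 × E2)))
      (𝓝 0) (𝓝 0) := by
    have : Continuous (fun x : E2 => (((x, (0 : E2)), (x, (0 : E2))) : (E2 × E2) × (E2 × E2))) := by
      fun_prop
    exact this.tendsto 0
  have hy : ∀ᶠ y in 𝓝 (0 : E2), kk Φ K u ρ h τ y + kk (sw Φ) (swK Φ K) s ρ' h τ' 0 = 0 := by
    filter_upwards [ty.eventually F, D.SS_label T, D'.SS_grad_base T', D'.SS_base T',
      D'.XX_base T', hess_base D' T'] with y e1 e2 e3 e4 e5 e6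
    have e7 := e1 e2 e3
    simp only at e7
    rw [SS_zero, XX_zero, e4, e5, e6] at e7
    simp only [ContinuousLinearMap.comp_zero, sub_zero, det_one2, Real.log_one, inner_zero_right,
      add_zero, mul_zero, zero_add] at e7
    exact e7.symm
  have hx : ∀ᶠ x in 𝓝 (0 : E2), kk Φ K u ρ h τ 0 + kk (sw Φ) (swK Φ K) s ρ' h τ' x = 0 := by
    filter_upwards [tx.eventually F, D'.SS_label T', D.SS_grad_base T, D.SS_base T,
      D.XX_base T, hess_base D T] with x e1 e2 e3 e4 e5 e6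
    have e7 := e1 e3 e2
    simp only at e7
    rw [SS_zero, XX_zero, e4, e5, e6] at e7
    simp only [ContinuousLinearMap.zero_comp, sub_zero, det_one2, Real.log_one, inner_zero_left,
      add_zero, mul_zero, zero_add] at e7
    exact e7.symm
  have h0 := hy.self_of_nhds
  have gy : ∀ᶠ w in 𝓝 (0 : (E2 × E2) × (E2 × E2)),
      kk Φ K u ρ h τ w.1.2 + kk (sw Φ) (swK Φ K) s ρ' h τ' 0 = 0 := by
    have : Continuous (fun w : (E2 × E2) × (E2 × E2) => w.1.2) := by fun_prop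
    exact (this.tendsto 0).eventually hy
  have gx : ∀ᶠ w in 𝓝 (0 : (E2 × E2) × (E2 × E2)),
      kk Φ K u ρ h τ 0 + kk (sw Φ) (swK Φ K) s ρ' h τ' w.1.1 = 0 := by
    have : Continuous (fun w : (E2 × E2) × (E2 × E2) => w.1.1) := by fun_prop
    exact (this.tendsto 0).eventually hx
  filter_upwards [F, gy, gx] with w e1 e2 e3 hp hq
  have e4 := e1 hp hq
  have e5 : kk Φ K u ρ h τ w.1.2 + kk (sw Φ) (swK Φ K) s ρ' h τ' w.1.1 = 0 := by linarith
  rw [e5, add_zero] at e4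
  exact e4

/-! ### dynamics -/

theorem log_abs_det_comp {A B C : E2 →L[ℝ] E2} (hA : A.det ≠ 0) (hB : B.det ≠ 0)
    (h : A ∘L B = C) : Real.log |C.det| = Real.log |A.det| + Real.log |B.det| := by
  rw [← h, det_comp2, Real.log_abs, Real.log_mul hA hB, Real.log_abs, Real.log_abs]

/-- the base component of the Poincaré map on the leaves -/
def th (P : E2 × E2 → E2 × E2) (u : E2 → E2 → ℝ) (y t : E2) : E2 := (P (lf u (y, t))).1

theorem th_jg (D : Side Φ K u ρ ϑ h) {M : E2 → E2} {P : E2 × E2 → E2 × E2}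
    {ℓ : E2 × E2 → ℝ} (Y : SideDyn u ρ M P ℓ h) : JG (th P u) := by
  have h1 : JG (fun y t => P (lf u (y, t))) := by
    refine (lf_jg D.u_jg).post ?_
    rw [D.lf_zero]
    exact Y.ex.smooth
  exact h1.fst

theorem th_zero (D : Side Φ K u ρ ϑ h) {M : E2 → E2} {P : E2 × E2 → E2 × E2}
    {ℓ : E2 × E2 → ℝ} (Y : SideDyn u ρ M P ℓ h) : th P u 0 0 = 0 := by
  simp [th, D.lf_zero, Y.ex.zero]

theorem th_det (D : Side Φ K u ρ ϑ h) {M : E2 → E2} {P : E2 × E2 → E2 × E2}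
    {ℓ : E2 × E2 → ℝ} (Y : SideDyn u ρ M P ℓ h) : ∀ᶠ z in 𝓝 (0 : E2 × E2),
    (fderiv ℝ (th P u z.1) z.2).det ≠ 0 := by
  have hJ := th_jg D Y
  have h1 : ContinuousAt (fun z : E2 × E2 => (fderiv ℝ (th P u z.1) z.2).det) (0, 0) :=
    contDiff_det2.continuous.continuousAt.comp hJ.fderiv.contAt
  refine h1.eventually_ne ?_
  show (fderiv ℝ (th P u 0) 0).det ≠ 0
  -- injectivity of the derivative
  have hinj : ∀ v, fderiv ℝ (th P u 0) 0 v = 0 → v = 0 := by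
    intro v hv
    obtain ⟨c, hc⟩ := Y.leaf
    have e1 : ∀ᶠ t in 𝓝 (0 : E2), P (lf u (0, t)) = lf u (0, th P u 0 t) := by
      filter_upwards [ev_right hc] with t ht
      refine Prod.ext rfl ?_
      show (P (lf u (0, t))).2 = gradient (u 0) (P (lf u (0, t))).1
      rw [← ht.1]
      simp only [Y.M_zero]
    have dP : DifferentiableAt ℝ P (lf u (0, 0)) := by
      rw [D.lf_zero]; exact Y.ex.smooth.self_of_nhds.differentiableAt (by simp)
    have dg : DifferentiableAt ℝ (gradient (u 0)) 0 :=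
      D.u_jg.gradient.slice.at.differentiableAt (by simp)
    have e5 : HasFDerivAt (fun t => lf u (0, t))
        ((ContinuousLinearMap.id ℝ E2).prod (hess (u 0) 0)) 0 :=
      (hasFDerivAt_id 0).prodMk dg.hasFDerivAt
    have e6 : HasFDerivAt (fun t => P (lf u (0, t))) ((fderiv ℝ P (lf u (0, 0))) ∘L
        ((ContinuousLinearMap.id ℝ E2).prod (hess (u 0) 0))) 0 :=
      HasFDerivAt.comp (0 : E2) (f := fun t => lf u (0, t)) (g := P) dP.hasFDerivAt e5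
    have dth : HasFDerivAt (th P u 0) (fderiv ℝ (th P u 0) 0) 0 :=
      (hJ.slice.at.differentiableAt (by simp)).hasFDerivAt
    have e7 : HasFDerivAt (fun t => lf u (0, th P u 0 t))
        (((ContinuousLinearMap.id ℝ E2).prod (hess (u 0) 0)) ∘L (fderiv ℝ (th P u 0) 0)) 0 := by
      have e8 : HasFDerivAt (fun t => lf u (0, t))
          ((ContinuousLinearMap.id ℝ E2).prod (hess (u 0) 0)) (th P u 0 0) := by
        rw [th_zero D Y]; exact e5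
      exact HasFDerivAt.comp (0 : E2) (f := th P u 0) (g := fun t => lf u (0, t)) e8 dth
    have e9 := e6.unique (e7.congr_of_eventuallyEq e1)
    have e10 := congrArg (fun L : E2 →L[ℝ] E2 × E2 => L v) e9
    simp only [ContinuousLinearMap.comp_apply] at e10
    rw [hv, map_zero, D.lf_zero] at e10
    obtain ⟨B, hB⟩ := Y.ex.isInvertible
    rw [← hB] at e10
    have e11 : ((ContinuousLinearMap.id ℝ E2).prod (hess (u 0) 0)) v = 0 := by
      apply B.injective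
      rw [map_zero]
      exact e10
    exact congrArg Prod.fst e11
  rw [det_ne_zero_iff]
  exact isInvertible_of_injective hinj

theorem tendsto_th (D : Side Φ K u ρ ϑ h) (T : IsTau Φ u τ) {M : E2 → E2}
    {P : E2 × E2 → E2 × E2} {ℓ : E2 × E2 → ℝ} (Y : SideDyn u ρ M P ℓ h) :
    Tendsto (fun w : E2 × E2 => (M w.1, th P u w.1 (τ w.1 w.2))) (𝓝 0) (𝓝 0) := by
  have h1 : Tendsto (fun w : E2 × E2 => M w.1) (𝓝 0) (𝓝 0) := by
    have h2 : Tendsto M (𝓝 0) (𝓝 0) := by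
      have := Y.M_cont.tendsto
      rwa [Y.M_zero] at this
    exact h2.comp (continuous_fst.tendsto (0 : E2 × E2))
  have h3 : Tendsto (fun z : E2 × E2 => th P u z.1 z.2) (𝓝 0) (𝓝 0) :=
    (continuous_snd.tendsto (0 : E2 × E2)).comp ((th_jg D Y).tendsto (th_zero D Y))
  exact h1.prodMk_nhds (h3.comp (τ_tendsto T))

/-- the basic identity -/
theorem base_ev (D : Side Φ K u ρ ϑ h) (T : IsTau Φ u τ) {M : E2 → E2} {P : E2 × E2 → E2 × E2}
    {ℓ : E2 × E2 → ℝ} (Y : SideDyn u ρ M P ℓ h) {φ : E2 × E2 → E2 × E2}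
    (hφ : ∀ᶠ z in 𝓝 (0 : E2 × E2), φ (Φ z) = Φ (P z)) :
    ∀ᶠ w in 𝓝 (0 : E2 × E2), Φ (lf u (w.1, τ w.1 w.2))
      = (w.2, gradient (SS K u τ w.1) w.2) ∧
      P (lf u (w.1, τ w.1 w.2)) = lf u (M w.1, th P u w.1 (τ w.1 w.2)) ∧
      φ (w.2, gradient (SS K u τ w.1) w.2) = Φ (lf u (M w.1, th P u w.1 (τ w.1 w.2))) := by
  obtain ⟨c1, hleaf⟩ := Y.leaf
  have tz := D.lf_tendsto.comp (τ_tendsto T)
  have a1 := tz.eventually hφ
  have a2 := (τ_tendsto T).eventually hleaf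
  filter_upwards [a1, a2, T.right, D.SS_grad T] with w e1 e2 e3 e4
  have f1 : Φ (lf u (w.1, τ w.1 w.2)) = (w.2, gradient (SS K u τ w.1) w.2) :=
      Prod.ext e3 e4.symm
  have f2 : P (lf u (w.1, τ w.1 w.2)) = lf u (M w.1, th P u w.1 (τ w.1 w.2)) :=
      Prod.ext rfl e2.1.symm
  refine ⟨f1, f2, ?_⟩
  rw [← f1, ← f2]
  exact e1

/-- **invariance of the leaves and of the densities** -/
theorem inv_ev0 (D : Side Φ K u ρ ϑ h) (T : IsTau Φ u τ) {M : E2 → E2} {P : E2 × E2 → E2 × E2}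
    {ℓ : E2 × E2 → ℝ} (Y : SideDyn u ρ M P ℓ h) {φ : E2 × E2 → E2 × E2}
    (hφ : ∀ᶠ z in 𝓝 (0 : E2 × E2), φ (Φ z) = Φ (P z))
    (hφ0 : ∀ᶠ p in 𝓝 (0 : E2), φ (0, p) = (0, M p)) :
    ∀ᶠ w in 𝓝 (0 : E2 × E2),
      gradient (SS K u τ (M w.1)) (φ (w.2, gradient (SS K u τ w.1) w.2)).1
        = (φ (w.2, gradient (SS K u τ w.1) w.2)).2 ∧
      XX Φ u ρ h τ (M w.1) (φ (w.2, gradient (SS K u τ w.1) w.2)).1 = XX Φ u ρ h τ w.1 w.2
        - Real.log |(fderiv ℝ (fun q => (φ (q, gradient (SS K u τ w.1) q)).1) w.2).det|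
        + Real.log |(fderiv ℝ (fun q => (φ (q, gradient (SS K u τ w.1) q)).1) 0).det| ∧
      (fderiv ℝ (fun q => (φ (q, gradient (SS K u τ w.1) q)).1) w.2).det ≠ 0 := by
  obtain ⟨c1, hleaf⟩ := Y.leaf
  obtain ⟨c2, hdens⟩ := Y.dens
  have tz := D.lf_tendsto.comp (τ_tendsto T)
  have tM := tendsto_th D T Y
  have a1 := tz.eventually hφ
  have a2 := (τ_tendsto T).eventually hleaf
  have base := base_ev D T Y hφ
  -- gradient
  have A1 : ∀ᶠ w in 𝓝 (0 : E2 × E2),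
      gradient (SS K u τ (M w.1)) (φ (w.2, gradient (SS K u τ w.1) w.2)).1
        = (φ (w.2, gradient (SS K u τ w.1) w.2)).2 := by
    filter_upwards [base, tM.eventually (D.SS_grad' T)] with w e1 e2
    rw [e1.2.2]
    exact e2
  -- densities
  have B1 : ∀ᶠ w in 𝓝 (0 : E2 × E2),
      HasFDerivAt (fun q => (φ (q, gradient (SS K u τ w.1) q)).1)
        ((fderiv ℝ (al Φ u (M w.1)) (th P u w.1 (τ w.1 w.2))) ∘L
          ((fderiv ℝ (th P u w.1) (τ w.1 w.2)) ∘L (fderiv ℝ (τ w.1) w.2))) w.2 := by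
    filter_upwards [slice_ev base, T.jg.smooth, (τ_tendsto T).eventually (th_jg D Y).smooth,
      tM.eventually D.al_jg.smooth] with w e1 e2 e3 e4
    have d1 : HasFDerivAt (τ w.1) (fderiv ℝ (τ w.1) w.2) w.2 :=
      (e2.differentiableAt (by simp)).hasFDerivAt
    have d2 : HasFDerivAt (th P u w.1) (fderiv ℝ (th P u w.1) (τ w.1 w.2)) (τ w.1 w.2) :=
      (ContDiffAt.differentiableAt (n := ∞) e3 (by simp)).hasFDerivAt
    have d3 : HasFDerivAt (al Φ u (M w.1))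
        (fderiv ℝ (al Φ u (M w.1)) (th P u w.1 (τ w.1 w.2))) (th P u w.1 (τ w.1 w.2)) :=
      (ContDiffAt.differentiableAt (n := ∞) e4 (by simp)).hasFDerivAt
    have d5 : HasFDerivAt (fun q => th P u w.1 (τ w.1 q))
        ((fderiv ℝ (th P u w.1) (τ w.1 w.2)) ∘L (fderiv ℝ (τ w.1) w.2)) w.2 :=
      HasFDerivAt.comp w.2 (f := τ w.1) (g := th P u w.1) d2 d1
    have d4 := HasFDerivAt.comp w.2 (f := fun q => th P u w.1 (τ w.1 q))
      (g := al Φ u (M w.1)) d3 d5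
    refine d4.congr_of_eventuallyEq ?_
    filter_upwards [e1] with q hq
    rw [hq.2.2]
    rfl
  have B2 : ∀ᶠ w in 𝓝 (0 : E2 × E2), (fderiv ℝ (τ w.1) w.2) ∘L (fderiv ℝ (al Φ u w.1) (τ w.1 w.2))
      = ContinuousLinearMap.id ℝ E2 ∧ (fderiv ℝ (al Φ u w.1) (τ w.1 w.2)).det ≠ 0 := by
    have l1 := (τ_tendsto T).eventually (slice_ev T.left)
    filter_upwards [l1, T.jg.smooth, (τ_tendsto T).eventually D.al_jg.smooth, T.right,
      (τ_tendsto T).eventually D.al_det] with w e1 e2 e3 e4 e5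
    refine ⟨?_, e5⟩
    have d1 : HasFDerivAt (al Φ u w.1) (fderiv ℝ (al Φ u w.1) (τ w.1 w.2)) (τ w.1 w.2) :=
      (ContDiffAt.differentiableAt (n := ∞) e3 (by simp)).hasFDerivAt
    have d2 : HasFDerivAt (τ w.1) (fderiv ℝ (τ w.1) w.2) (al Φ u w.1 (τ w.1 w.2)) := by
      rw [e4]; exact (e2.differentiableAt (by simp)).hasFDerivAt
    have d3 := d2.comp (τ w.1 w.2) d1
    have d4 : HasFDerivAt (τ w.1 ∘ al Φ u w.1) (ContinuousLinearMap.id ℝ E2) (τ w.1 w.2) :=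
      (hasFDerivAt_id (τ w.1 w.2)).congr_of_eventuallyEq e1
    exact d3.unique d4
  have A3 : ∀ᶠ w in 𝓝 (0 : E2 × E2),
      XX Φ u ρ h τ (M w.1) (φ (w.2, gradient (SS K u τ w.1) w.2)).1 = XX Φ u ρ h τ w.1 w.2
        - Real.log |(fderiv ℝ (fun q => (φ (q, gradient (SS K u τ w.1) q)).1) w.2).det|
        + (c2 w.1 - h * c1 w.1 + xx Φ u ρ h w.1 (τ w.1 0)
          - xx Φ u ρ h (M w.1) (τ (M w.1) 0)) ∧
      (fderiv ℝ (fun q => (φ (q, gradient (SS K u τ w.1) q)).1) w.2).det ≠ 0 := by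
    filter_upwards [base, B1, B2, a2, tM.eventually T.left, tM.eventually D.al_det,
      (τ_tendsto T).eventually (th_det D Y), (τ_tendsto T).eventually hdens]
      with w e1 e2 e3 e4 e5 e6 e7 e8
    obtain ⟨f1, f2, f3⟩ := e1
    have g1 : XX Φ u ρ h τ (M w.1) (Φ (lf u (M w.1, th P u w.1 (τ w.1 w.2)))).1
        = xx Φ u ρ h (M w.1) (th P u w.1 (τ w.1 w.2)) - xx Φ u ρ h (M w.1) (τ (M w.1) 0) := by
      show xx Φ u ρ h (M w.1) (τ (M w.1) (al Φ u (M w.1) (th P u w.1 (τ w.1 w.2)))) - _ = _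
      rw [show τ (M w.1) (al Φ u (M w.1) (th P u w.1 (τ w.1 w.2))) = th P u w.1 (τ w.1 w.2)
        from e5]
    have g2 : ((fderiv ℝ (al Φ u (M w.1)) (th P u w.1 (τ w.1 w.2))) ∘L
          ((fderiv ℝ (th P u w.1) (τ w.1 w.2)) ∘L (fderiv ℝ (τ w.1) w.2))).det *
          (fderiv ℝ (al Φ u w.1) (τ w.1 w.2)).det =
        (fderiv ℝ (al Φ u (M w.1)) (th P u w.1 (τ w.1 w.2))).det *
          (fderiv ℝ (th P u w.1) (τ w.1 w.2)).det := by
      have g3 : (fderiv ℝ (τ w.1) w.2).det * (fderiv ℝ (al Φ u w.1) (τ w.1 w.2)).det = 1 := by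
        rw [← det_comp2, e3.1]
        exact det_one2
      rw [det_comp2, det_comp2]
      linear_combination ((fderiv ℝ (al Φ u (M w.1)) (th P u w.1 (τ w.1 w.2))).det *
          (fderiv ℝ (th P u w.1) (τ w.1 w.2)).det) * g3
    have n1 : (fderiv ℝ (al Φ u (M w.1)) (th P u w.1 (τ w.1 w.2))).det ≠ 0 := e6
    have n2 : (fderiv ℝ (th P u w.1) (τ w.1 w.2)).det ≠ 0 := e7
    have n3 : ((fderiv ℝ (al Φ u (M w.1)) (th P u w.1 (τ w.1 w.2))) ∘L
          ((fderiv ℝ (th P u w.1) (τ w.1 w.2)) ∘L (fderiv ℝ (τ w.1) w.2))).det ≠ 0 := by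
      intro h0
      rw [h0, zero_mul] at g2
      exact mul_ne_zero n1 n2 g2.symm
    refine ⟨?_, by rw [e2.fderiv]; exact n3⟩
    have g4 := congrArg Real.log g2
    rw [Real.log_mul n3 e3.2, Real.log_mul n1 n2] at g4
    rw [f3, e2.fderiv, g1]
    have g5 : xx Φ u ρ h (M w.1) (th P u w.1 (τ w.1 w.2)) = ρ (M w.1) (th P u w.1 (τ w.1 w.2))
      - h * u (M w.1) (th P u w.1 (τ w.1 w.2))
      - Real.log |(fderiv ℝ (al Φ u (M w.1)) (th P u w.1 (τ w.1 w.2))).det| := rfl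
    have g6 : XX Φ u ρ h τ w.1 w.2 = ρ w.1 (τ w.1 w.2) - h * u w.1 (τ w.1 w.2)
      - Real.log |(fderiv ℝ (al Φ u w.1) (τ w.1 w.2)).det| - xx Φ u ρ h w.1 (τ w.1 0) := rfl
    have g7 : u (M w.1) (th P u w.1 (τ w.1 w.2)) = u w.1 (τ w.1 w.2)
      + ℓ (lf u (w.1, τ w.1 w.2)) + c1 w.1 := e4.2
    have g8 : ρ (M w.1) (th P u w.1 (τ w.1 w.2))
        + Real.log |(fderiv ℝ (th P u w.1) (τ w.1 w.2)).det|
        = ρ w.1 (τ w.1 w.2) + h * ℓ (lf u (w.1, τ w.1 w.2)) + c2 w.1 := e8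
    rw [g5, g6, g7]
    rw [Real.log_abs] at g8 ⊢
    rw [Real.log_abs, Real.log_abs]
    linear_combination g8 + g4
  have hc' : ∀ᶠ y in 𝓝 (0 : E2), c2 y - h * c1 y + xx Φ u ρ h y (τ y 0)
          - xx Φ u ρ h (M y) (τ (M y) 0) =
      Real.log |(fderiv ℝ (fun q => (φ (q, gradient (SS K u τ y) q)).1) 0).det| := by
    filter_upwards [ev_left A3, D.SS_label T, hφ0] with y e1 e2 e3
    have e1 := e1.1
    rw [e2, e3] at e1
    simp only [XX_zero] at e1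
    linarith
  filter_upwards [A1, A3, ev_fst hc'] with w e1 e3 e5
  refine ⟨e1, ?_, e3.2⟩
  rw [e3.1, e5]

/-- **invariance of the generating functions** -/
theorem inv_ev1 (D : Side Φ K u ρ ϑ h) (T : IsTau Φ u τ) {M : E2 → E2} {P : E2 × E2 → E2 × E2}
    {ℓ : E2 × E2 → ℝ} (Y : SideDyn u ρ M P ℓ h) {φ : E2 × E2 → E2 × E2} {κ : E2 × E2 → ℝ}
    (hφ : ∀ᶠ z in 𝓝 (0 : E2 × E2), φ (Φ z) = Φ (P z))
    (hκ : ∃ c, ∀ᶠ z in 𝓝 (0 : E2 × E2), κ (Φ z) = ℓ z + K (P z) - K z + c)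
    (hφ0 : ∀ᶠ p in 𝓝 (0 : E2), φ (0, p) = (0, M p))
    (hκ0 : ∀ᶠ p in 𝓝 (0 : E2), κ (0, p) = 0) :
    ∀ᶠ w in 𝓝 (0 : E2 × E2),
      SS K u τ (M w.1) (φ (w.2, gradient (SS K u τ w.1) w.2)).1
        = SS K u τ w.1 w.2 + κ (w.2, gradient (SS K u τ w.1) w.2) := by
  obtain ⟨c1, hleaf⟩ := Y.leaf
  obtain ⟨c0, hκ⟩ := hκ
  have tz := D.lf_tendsto.comp (τ_tendsto T)
  have tM := tendsto_th D T Y
  have a1 := tz.eventually hφ
  have a2 := (τ_tendsto T).eventually hleaf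
  have base := base_ev D T Y hφ
  -- generating functions up to a constant
  have A2 : ∀ᶠ w in 𝓝 (0 : E2 × E2),
      SS K u τ (M w.1) (φ (w.2, gradient (SS K u τ w.1) w.2)).1
        = SS K u τ w.1 w.2 + κ (w.2, gradient (SS K u τ w.1) w.2)
          + (c1 w.1 - gg K u (M w.1) (τ (M w.1) 0) + gg K u w.1 (τ w.1 0) - c0) := by
    filter_upwards [base, a2, tM.eventually T.left, tz.eventually hκ] with w e1 e2 e3 e4
    obtain ⟨f1, f2, f3⟩ := e1
    rw [f3]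
    have g1 : SS K u τ (M w.1) (Φ (lf u (M w.1, th P u w.1 (τ w.1 w.2)))).1
        = gg K u (M w.1) (th P u w.1 (τ w.1 w.2)) - gg K u (M w.1) (τ (M w.1) 0) := by
      show gg K u (M w.1) (τ (M w.1) (al Φ u (M w.1) (th P u w.1 (τ w.1 w.2)))) - _ = _
      rw [show τ (M w.1) (al Φ u (M w.1) (th P u w.1 (τ w.1 w.2))) = th P u w.1 (τ w.1 w.2)
        from e3]
    have g2 : gg K u (M w.1) (th P u w.1 (τ w.1 w.2)) = u w.1 (τ w.1 w.2)
        + ℓ (lf u (w.1, τ w.1 w.2)) + c1 w.1 + K (P (lf u (w.1, τ w.1 w.2))) := by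
      rw [f2]
      show u (M w.1) (P (lf u (w.1, τ w.1 w.2))).1 + _ = _
      rw [e2.2]
    have g3 : SS K u τ w.1 w.2 = u w.1 (τ w.1 w.2) + K (lf u (w.1, τ w.1 w.2))
      - gg K u w.1 (τ w.1 0) := rfl
    have g4 : κ (w.2, gradient (SS K u τ w.1) w.2) = ℓ (lf u (w.1, τ w.1 w.2))
        + K (P (lf u (w.1, τ w.1 w.2))) - K (lf u (w.1, τ w.1 w.2)) + c0 := by
      rw [← f1]; exact e4
    rw [g1, g2, g3, g4]
    ring
  have hc : ∀ᶠ y in 𝓝 (0 : E2),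
      c1 y - gg K u (M y) (τ (M y) 0) + gg K u y (τ y 0) - c0 = 0 := by
    filter_upwards [ev_left A2, D.SS_label T, hφ0, hκ0] with y e1 e2 e3 e4
    rw [e2, e3, e4] at e1
    simp only [SS_zero] at e1
    linarith
  filter_upwards [A2, ev_fst hc] with w e2 e4
  rw [e2, e4, add_zero]

/-- **invariance of the leaves, of the generating functions and of the densities** -/
theorem inv_ev (D : Side Φ K u ρ ϑ h) (T : IsTau Φ u τ) {M : E2 → E2} {P : E2 × E2 → E2 × E2}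
    {ℓ : E2 × E2 → ℝ} (Y : SideDyn u ρ M P ℓ h) {φ : E2 × E2 → E2 × E2} {κ : E2 × E2 → ℝ}
    (hφ : ∀ᶠ z in 𝓝 (0 : E2 × E2), φ (Φ z) = Φ (P z))
    (hκ : ∃ c, ∀ᶠ z in 𝓝 (0 : E2 × E2), κ (Φ z) = ℓ z + K (P z) - K z + c)
    (hφ0 : ∀ᶠ p in 𝓝 (0 : E2), φ (0, p) = (0, M p))
    (hκ0 : ∀ᶠ p in 𝓝 (0 : E2), κ (0, p) = 0) :
    ∀ᶠ w in 𝓝 (0 : E2 × E2),
      gradient (SS K u τ (M w.1)) (φ (w.2, gradient (SS K u τ w.1) w.2)).1
        = (φ (w.2, gradient (SS K u τ w.1) w.2)).2 ∧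
      SS K u τ (M w.1) (φ (w.2, gradient (SS K u τ w.1) w.2)).1
        = SS K u τ w.1 w.2 + κ (w.2, gradient (SS K u τ w.1) w.2) ∧
      XX Φ u ρ h τ (M w.1) (φ (w.2, gradient (SS K u τ w.1) w.2)).1 = XX Φ u ρ h τ w.1 w.2
        - Real.log |(fderiv ℝ (fun q => (φ (q, gradient (SS K u τ w.1) q)).1) w.2).det|
        + Real.log |(fderiv ℝ (fun q => (φ (q, gradient (SS K u τ w.1) q)).1) 0).det| ∧
      (fderiv ℝ (fun q => (φ (q, gradient (SS K u τ w.1) q)).1) w.2).det ≠ 0 := by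
  filter_upwards [inv_ev0 D T Y hφ hφ0, inv_ev1 D T Y hφ hκ hφ0 hκ0] with w h1 h2
  exact ⟨h1.1, h2, h1.2.1, h1.2.2⟩

end Vale.Agent.P207.N3
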