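import Vale.Agent.P207.N3.H250.Germ

/-!
# P207, line N3, P3: the leaves in an exact symplectic chart (one side)
-/

open Set Filter Topology Metric MeasureTheory
open scoped ContDiff

noncomputable section

namespace Vale.Agent.P207.N3

variable {E F G H : Type}
  [NormedAddCommGroup E] [NormedSpace ℝ E] [NormedAddCommGroup F] [NormedSpace ℝ F]
  [NormedAddCommGroup G] [NormedSpace ℝ G] [NormedAddCommGroup H] [NormedSpace ℝ H]

/-- one sided data: an exact chart, a family of leaves, a density -/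
structure Side (Φ : E2 × E2 → E2 × E2) (K : E2 × E2 → ℝ) (u ρ : E2 → E2 → ℝ) (ϑ : E2 → E2)
    (h : ℝ) : Prop where
  ex : ExG Φ K
  u_jg : JG u
  ρ_jg : JG ρ
  crit : gradient (u 0) 0 = 0
  ϑ_inv : (fderiv ℝ ϑ 0).IsInvertible
  axis : ∀ᶠ t in 𝓝 (0 : E2), Φ (lf u (0, t)) = (ϑ t, 0)
  label : ∀ᶠ z in 𝓝 (0 : E2 × E2), (Φ (lf u z)).1 = 0 → (Φ (lf u z)).2 = z.1
  dens : ∃ c, ∀ᶠ t in 𝓝 (0 : E2), Real.log |(fderiv ℝ ϑ t).det| = ρ 0 t - h * u 0 t + c

namespace Side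

variable {Φ : E2 × E2 → E2 × E2} {K : E2 × E2 → ℝ} {u ρ : E2 → E2 → ℝ} {ϑ : E2 → E2} {h : ℝ}

theorem lf_zero (D : Side Φ K u ρ ϑ h) : lf u (0, 0) = 0 := by
  simp [lf, D.crit]

theorem lf_jg (hu : JG u) : JG (fun y t => lf u (y, t)) :=
  JG.id.prodMk hu.gradient

theorem lf_cont (hu : JG u) : ∀ᶠ z in 𝓝 (0 : E2 × E2), ContinuousAt (lf u) z :=
  (lf_jg hu).cont

theorem lf_tendsto (D : Side Φ K u ρ ϑ h) : Tendsto (lf u) (𝓝 0) (𝓝 0) := by
  have h1 := (lf_cont D.u_jg).self_of_nhds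
  have h2 := h1.tendsto
  rwa [show lf u (0 : E2 × E2) = 0 from D.lf_zero] at h2

/-- the base coordinate of the leaf -/
def al (Φ : E2 × E2 → E2 × E2) (u : E2 → E2 → ℝ) (y t : E2) : E2 := (Φ (lf u (y, t))).1

/-- the fibre coordinate of the leaf -/
def be (Φ : E2 × E2 → E2 × E2) (u : E2 → E2 → ℝ) (y t : E2) : E2 := (Φ (lf u (y, t))).2

theorem Φlf_jg (D : Side Φ K u ρ ϑ h) : JG (fun y t => Φ (lf u (y, t))) := by
  refine (lf_jg D.u_jg).post ?_
  rw [D.lf_zero]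
  exact D.ex.smooth

theorem al_jg (D : Side Φ K u ρ ϑ h) : JG (al Φ u) := D.Φlf_jg.fst

theorem be_jg (D : Side Φ K u ρ ϑ h) : JG (be Φ u) := D.Φlf_jg.snd

theorem Klf_jg (D : Side Φ K u ρ ϑ h) : JG (fun y t => K (lf u (y, t))) := by
  refine (lf_jg D.u_jg).post ?_
  rw [D.lf_zero]
  exact D.ex.pot

theorem al_zero (D : Side Φ K u ρ ϑ h) : al Φ u 0 0 = 0 := by
  simp [al, D.lf_zero, D.ex.zero]

theorem al_base (D : Side Φ K u ρ ϑ h) : ∀ᶠ t in 𝓝 (0 : E2), al Φ u 0 t = ϑ t := by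
  filter_upwards [D.axis] with t ht
  simp [al, ht]

theorem be_base (D : Side Φ K u ρ ϑ h) : ∀ᶠ t in 𝓝 (0 : E2), be Φ u 0 t = 0 := by
  filter_upwards [D.axis] with t ht
  simp [be, ht]

/-- the primitive of `p dq` on the leaf -/
def gg (K : E2 × E2 → ℝ) (u : E2 → E2 → ℝ) (y t : E2) : ℝ := u y t + K (lf u (y, t))

theorem gg_jg (D : Side Φ K u ρ ϑ h) : JG (gg K u) := D.u_jg.add D.Klf_jg

/-- `dg = p dq` on the leaf -/
theorem gg_deriv (D : Side Φ K u ρ ϑ h) : ∀ᶠ z in 𝓝 (0 : E2 × E2), ∀ v,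
    fderiv ℝ (gg K u z.1) z.2 v = inner ℝ (be Φ u z.1 z.2) (fderiv ℝ (al Φ u z.1) z.2 v) := by
  have hK := D.lf_tendsto.eventually D.ex.pot
  have hΦ := D.lf_tendsto.eventually D.ex.smooth
  have hE := D.lf_tendsto.eventually D.ex.exact
  filter_upwards [D.u_jg.smooth, (lf_jg D.u_jg).smooth, hK, hΦ, hE] with z h1 h2 h3 h4 h5 v
  have e1 : DifferentiableAt ℝ (u z.1) z.2 := h1.differentiableAt (by simp)
  have e2 : DifferentiableAt ℝ (fun t => lf u (z.1, t)) z.2 := h2.differentiableAt (by simp)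
  have e3 : DifferentiableAt ℝ K (lf u (z.1, z.2)) := h3.differentiableAt (by simp)
  have e4 : DifferentiableAt ℝ Φ (lf u (z.1, z.2)) := h4.differentiableAt (by simp)
  have d1 : HasFDerivAt (gg K u z.1) (fderiv ℝ (u z.1) z.2 +
      (fderiv ℝ K (lf u (z.1, z.2))).comp (fderiv ℝ (fun t => lf u (z.1, t)) z.2)) z.2 :=
    e1.hasFDerivAt.add (e3.hasFDerivAt.comp z.2 e2.hasFDerivAt)
  have d2 : HasFDerivAt (al Φ u z.1) ((ContinuousLinearMap.fst ℝ E2 E2).comp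
      ((fderiv ℝ Φ (lf u (z.1, z.2))).comp (fderiv ℝ (fun t => lf u (z.1, t)) z.2))) z.2 :=
    (ContinuousLinearMap.fst ℝ E2 E2).hasFDerivAt.comp z.2
      (e4.hasFDerivAt.comp z.2 e2.hasFDerivAt)
  have d3 : (fderiv ℝ (fun t => lf u (z.1, t)) z.2 v).1 = v := by
    have e5 : HasFDerivAt (fun t => (lf u (z.1, t)).1) ((ContinuousLinearMap.fst ℝ E2 E2).comp
        (fderiv ℝ (fun t => lf u (z.1, t)) z.2)) z.2 :=
      (ContinuousLinearMap.fst ℝ E2 E2).hasFDerivAt.comp z.2 e2.hasFDerivAt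
    have e6 : HasFDerivAt (fun t : E2 => (lf u (z.1, t)).1) (ContinuousLinearMap.id ℝ E2) z.2 :=
      hasFDerivAt_id z.2
    have := congrArg (fun L : E2 →L[ℝ] E2 => L v) (e5.unique e6)
    simpa using this
  rw [d1.fderiv, d2.fderiv]
  have key := h5 (fderiv ℝ (fun t => lf u (z.1, t)) z.2 v)
  simp only [add_apply, ContinuousLinearMap.comp_apply,
    ContinuousLinearMap.coe_fst']
  rw [show fderiv ℝ K (lf u (z.1, z.2)) (fderiv ℝ (fun t => lf u (z.1, t)) z.2 v) = _ from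
    key.symm, d3, ← inner_gradient]
  show inner ℝ (gradient (u z.1) z.2) v + (_ - inner ℝ (gradient (u z.1) z.2) v) = _
  rw [add_sub_cancel]
  rfl

end Side

end Vale.Agent.P207.N3
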