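import Vale.Agent.P207.N3.H250.Side
import Vale.Agent.P207.N3.H250.Det2

/-!
# P207, line N3, P3: the generating functions and the densities of the leaves (one side)
-/

open Set Filter Topology Metric MeasureTheory
open scoped ContDiff

noncomputable section

namespace Vale.Agent.P207.N3

set_option linter.unusedSectionVars false

section

variable {E F G : Type}
  [NormedAddCommGroup E] [NormedSpace ℝ E] [NormedAddCommGroup F] [NormedSpace ℝ F]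
  [NormedAddCommGroup G] [NormedSpace ℝ G]

theorem slice_ev {P : E2 × E → Prop} (h : ∀ᶠ p in 𝓝 (0 : E2 × E), P p) :
    ∀ᶠ p in 𝓝 (0 : E2 × E), ∀ᶠ q in 𝓝 p.2, P (p.1, q) := by
  filter_upwards [h.eventually_nhds] with p hp
  have h6 : Tendsto (fun q : E => (p.1, q)) (𝓝 p.2) (𝓝 p) :=
    (Continuous.prodMk_right p.1).tendsto _
  exact h6.eventually hp

theorem ev_left {P : E2 × E → Prop} (h : ∀ᶠ p in 𝓝 (0 : E2 × E), P p) :
    ∀ᶠ y in 𝓝 (0 : E2), P (y, 0) := by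
  have h2 : Tendsto (fun y : E2 => (y, (0 : E))) (𝓝 0) (𝓝 (0, 0)) :=
    (Continuous.prodMk_left (0 : E)).tendsto _
  exact h2.eventually h

theorem ev_right {P : E2 × E → Prop} (h : ∀ᶠ p in 𝓝 (0 : E2 × E), P p) :
    ∀ᶠ t in 𝓝 (0 : E), P (0, t) := by
  have h2 : Tendsto (fun t : E => ((0 : E2), t)) (𝓝 0) (𝓝 (0, 0)) :=
    (Continuous.prodMk_right (0 : E2)).tendsto _
  exact h2.eventually h

theorem ev_snd {P : E → Prop} (h : ∀ᶠ t in 𝓝 (0 : E), P t) :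
    ∀ᶠ p in 𝓝 (0 : E2 × E), P p.2 := by
  have h2 : Tendsto (fun p : E2 × E => p.2) (𝓝 0) (𝓝 0) := continuous_snd.tendsto _
  exact h2.eventually h

theorem ev_fst {P : E2 → Prop} (h : ∀ᶠ t in 𝓝 (0 : E2), P t) :
    ∀ᶠ p in 𝓝 (0 : E2 × E), P p.1 := by
  have h2 : Tendsto (fun p : E2 × E => p.1) (𝓝 0) (𝓝 0) := continuous_fst.tendsto _
  exact h2.eventually h

theorem JG.tendsto {f : E2 → E → F} (h : JG f) (h0 : f 0 0 = 0) :
    Tendsto (fun p : E2 × E => (p.1, f p.1 p.2)) (𝓝 0) (𝓝 0) := by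
  have h1 : ContinuousAt (fun p : E2 × E => (p.1, f p.1 p.2)) (0, 0) :=
    continuousAt_fst.prodMk h.contAt
  have h2 := h1.tendsto
  simp only [h0] at h2
  exact h2

end

/-- `τ` inverts the base coordinate of the leaves -/
structure IsTau (Φ : E2 × E2 → E2 × E2) (u : E2 → E2 → ℝ) (τ : E2 → E2 → E2) : Prop where
  jg : JG τ
  zero : τ 0 0 = 0
  right : ∀ᶠ p in 𝓝 (0 : E2 × E2), Side.al Φ u p.1 (τ p.1 p.2) = p.2
  left : ∀ᶠ p in 𝓝 (0 : E2 × E2), τ p.1 (Side.al Φ u p.1 p.2) = p.2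

namespace Side

variable {Φ : E2 × E2 → E2 × E2} {K : E2 × E2 → ℝ} {u ρ : E2 → E2 → ℝ} {ϑ : E2 → E2} {h : ℝ}
  {τ : E2 → E2 → E2}

theorem al_fderiv_zero (D : Side Φ K u ρ ϑ h) : fderiv ℝ (al Φ u 0) 0 = fderiv ℝ ϑ 0 :=
  Filter.EventuallyEq.fderiv_eq D.al_base

theorem exists_tau (D : Side Φ K u ρ ϑ h) : ∃ τ, IsTau Φ u τ := by
  obtain ⟨τ, h1, h2, h3, h4⟩ := jg_inverse D.al_jg D.al_zero (by
    rw [D.al_fderiv_zero]; exact D.ϑ_inv)
  exact ⟨τ, h1, h2, h3, h4⟩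

/-- the generating function of the leaf -/
def SS (K : E2 × E2 → ℝ) (u : E2 → E2 → ℝ) (τ : E2 → E2 → E2) (y q : E2) : ℝ :=
  gg K u y (τ y q) - gg K u y (τ y 0)

/-- the logarithmic density as a function of `t` -/
def xx (Φ : E2 × E2 → E2 × E2) (u ρ : E2 → E2 → ℝ) (h : ℝ) (y t : E2) : ℝ :=
  ρ y t - h * u y t - Real.log |(fderiv ℝ (al Φ u y) t).det|

/-- the logarithmic density -/
def XX (Φ : E2 × E2 → E2 × E2) (u ρ : E2 → E2 → ℝ) (h : ℝ) (τ : E2 → E2 → E2) (y q : E2) : ℝ :=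
  xx Φ u ρ h y (τ y q) - xx Φ u ρ h y (τ y 0)

theorem al_det_zero (D : Side Φ K u ρ ϑ h) : (fderiv ℝ (al Φ u 0) 0).det ≠ 0 := by
  rw [D.al_fderiv_zero]
  exact (det_ne_zero_iff _).2 D.ϑ_inv

theorem al_det (D : Side Φ K u ρ ϑ h) : ∀ᶠ z in 𝓝 (0 : E2 × E2),
    (fderiv ℝ (al Φ u z.1) z.2).det ≠ 0 := by
  have h1 : ContinuousAt (fun z : E2 × E2 => fderiv ℝ (al Φ u z.1) z.2) (0, 0) :=
    D.al_jg.fderiv.contAt
  have h2 : ContinuousAt (fun z : E2 × E2 => (fderiv ℝ (al Φ u z.1) z.2).det) (0, 0) :=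
    contDiff_det2.continuous.continuousAt.comp h1
  exact h2.eventually_ne D.al_det_zero

theorem log_det_jg (D : Side Φ K u ρ ϑ h) :
    JG (fun y t => Real.log |(fderiv ℝ (al Φ u y) t).det|) := by
  have h1 : SG (fun A : E2 →L[ℝ] E2 => Real.log |A.det|) (fderiv ℝ (al Φ u 0) 0) := by
    have h2 : ∀ᶠ A in 𝓝 (fderiv ℝ (al Φ u 0) 0), A.det ≠ 0 :=
      (contDiff_det2.continuous.continuousAt).eventually_ne D.al_det_zero
    filter_upwards [h2] with A hA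
    have h3 : (fun A : E2 →L[ℝ] E2 => Real.log |A.det|) = fun A => Real.log A.det := by
      funext A; exact Real.log_abs _
    rw [h3]
    exact contDiff_det2.contDiffAt.log hA
  exact JG.post (φ := fun A : E2 →L[ℝ] E2 => Real.log |A.det|)
    (f := fun y t => fderiv ℝ (al Φ u y) t) h1 D.al_jg.fderiv

theorem xx_jg (D : Side Φ K u ρ ϑ h) : JG (xx Φ u ρ h) :=
  (D.ρ_jg.sub (D.u_jg.const_mul h)).sub D.log_det_jg

theorem SS_jg (D : Side Φ K u ρ ϑ h) (T : IsTau Φ u τ) : JG (SS K u τ) :=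
  (D.gg_jg.comp T.jg T.zero).sub (D.gg_jg.comp T.jg T.zero).at_zero

theorem XX_jg (D : Side Φ K u ρ ϑ h) (T : IsTau Φ u τ) : JG (XX Φ u ρ h τ) :=
  (D.xx_jg.comp T.jg T.zero).sub (D.xx_jg.comp T.jg T.zero).at_zero

theorem τ_tendsto (T : IsTau Φ u τ) :
    Tendsto (fun p : E2 × E2 => (p.1, τ p.1 p.2)) (𝓝 0) (𝓝 0) := T.jg.tendsto T.zero

theorem al_tendsto (D : Side Φ K u ρ ϑ h) :
    Tendsto (fun p : E2 × E2 => (p.1, al Φ u p.1 p.2)) (𝓝 0) (𝓝 0) :=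
  D.al_jg.tendsto D.al_zero

theorem SS_grad (D : Side Φ K u ρ ϑ h) (T : IsTau Φ u τ) : ∀ᶠ p in 𝓝 (0 : E2 × E2),
    gradient (SS K u τ p.1) p.2 = be Φ u p.1 (τ p.1 p.2) := by
  have h1 := (τ_tendsto T).eventually D.gg_deriv
  have h2 := (τ_tendsto T).eventually D.gg_jg.smooth
  have h3 := (τ_tendsto T).eventually D.al_jg.smooth
  filter_upwards [h1, h2, h3, T.jg.smooth, slice_ev T.right] with p e1 e2 e3 e4 e5
  have d1 : HasFDerivAt (gg K u p.1) (fderiv ℝ (gg K u p.1) (τ p.1 p.2)) (τ p.1 p.2) :=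
    (e2.differentiableAt (by simp)).hasFDerivAt
  have d2 : HasFDerivAt (al Φ u p.1) (fderiv ℝ (al Φ u p.1) (τ p.1 p.2)) (τ p.1 p.2) :=
    (e3.differentiableAt (by simp)).hasFDerivAt
  have d3 : HasFDerivAt (τ p.1) (fderiv ℝ (τ p.1) p.2) p.2 :=
    (e4.differentiableAt (by simp)).hasFDerivAt
  have d4 := d2.comp p.2 d3
  have d5 : HasFDerivAt (al Φ u p.1 ∘ τ p.1) (ContinuousLinearMap.id ℝ E2) p.2 :=
    (hasFDerivAt_id p.2).congr_of_eventuallyEq e5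
  have d6 := d4.unique d5
  have d7 : HasFDerivAt (SS K u τ p.1)
      ((fderiv ℝ (gg K u p.1) (τ p.1 p.2)).comp (fderiv ℝ (τ p.1) p.2)) p.2 :=
    (d1.comp p.2 d3).sub_const _
  refine gradient_eq_of fun v => ?_
  rw [d7.fderiv, ContinuousLinearMap.comp_apply]
  have e6 := e1 (fderiv ℝ (τ p.1) p.2 v)
  rw [show fderiv ℝ (gg K u p.1) (τ p.1 p.2) (fderiv ℝ (τ p.1) p.2 v) = _ from e6]
  have e7 := congrArg (fun L : E2 →L[ℝ] E2 => L v) d6
  simp only [ContinuousLinearMap.comp_apply, ContinuousLinearMap.id_apply] at e7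
  rw [e7]

/-- the gradient of the generating function, at the point `t` of the leaf -/
theorem SS_grad' (D : Side Φ K u ρ ϑ h) (T : IsTau Φ u τ) : ∀ᶠ p in 𝓝 (0 : E2 × E2),
    gradient (SS K u τ p.1) (al Φ u p.1 p.2) = be Φ u p.1 p.2 := by
  filter_upwards [D.al_tendsto.eventually (D.SS_grad T), T.left] with p h1 h2
  rw [h1, h2]

theorem SS_hess (D : Side Φ K u ρ ϑ h) (T : IsTau Φ u τ) : ∀ᶠ p in 𝓝 (0 : E2 × E2),
    hess (SS K u τ p.1) (al Φ u p.1 p.2) ∘L fderiv ℝ (al Φ u p.1) p.2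
      = fderiv ℝ (be Φ u p.1) p.2 := by
  have h1 := D.al_tendsto.eventually (D.SS_jg T).gradient.smooth
  filter_upwards [h1, D.al_jg.smooth, slice_ev (D.SS_grad' T)] with p e1 e2 e3
  have d1 : HasFDerivAt (gradient (SS K u τ p.1)) (hess (SS K u τ p.1) (al Φ u p.1 p.2))
      (al Φ u p.1 p.2) := (e1.differentiableAt (by simp)).hasFDerivAt
  have d2 : HasFDerivAt (al Φ u p.1) (fderiv ℝ (al Φ u p.1) p.2) p.2 :=
    (e2.differentiableAt (by simp)).hasFDerivAt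
  have d3 := d1.comp p.2 d2
  have d4 : HasFDerivAt (be Φ u p.1)
      ((hess (SS K u τ p.1) (al Φ u p.1 p.2)).comp (fderiv ℝ (al Φ u p.1) p.2)) p.2 :=
    d3.congr_of_eventuallyEq (e3.mono fun t ht => ht.symm)
  exact d4.fderiv.symm

theorem SS_zero (y : E2) : SS K u τ y 0 = 0 := sub_self _

theorem XX_zero (y : E2) : XX Φ u ρ h τ y 0 = 0 := sub_self _

theorem SS_label (D : Side Φ K u ρ ϑ h) (T : IsTau Φ u τ) : ∀ᶠ y in 𝓝 (0 : E2),
    gradient (SS K u τ y) 0 = y := by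
  have h1 := ev_left (D.SS_grad T)
  have h2 := ev_left T.right
  have h3 := ev_left ((τ_tendsto T).eventually D.label)
  filter_upwards [h1, h2, h3] with y e1 e2 e3
  rw [e1]
  exact e3 e2

theorem SS_grad_base (D : Side Φ K u ρ ϑ h) (T : IsTau Φ u τ) : ∀ᶠ q in 𝓝 (0 : E2),
    gradient (SS K u τ 0) q = 0 := by
  have h1 := ev_right (D.SS_grad T)
  have h4 : Tendsto (τ 0) (𝓝 0) (𝓝 0) := by
    have h5 := T.jg.slice.contAt.tendsto
    rwa [T.zero] at h5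
  filter_upwards [h1, h4.eventually D.be_base] with q e1 e2
  rw [e1, e2]

/-- a function with zero derivative near `0` is constant near `0` -/
theorem const_of_fderiv {f : E2 → ℝ} (h1 : ∀ᶠ q in 𝓝 (0 : E2), DifferentiableAt ℝ f q)
    (h2 : ∀ᶠ q in 𝓝 (0 : E2), fderiv ℝ f q = 0) : ∀ᶠ q in 𝓝 (0 : E2), f q = f 0 := by
  obtain ⟨r, hr, h3⟩ := Metric.eventually_nhds_iff_ball.1 (h1.and h2)
  filter_upwards [Metric.ball_mem_nhds (0 : E2) hr] with q hq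
  refine (convex_ball (0 : E2) r).is_const_of_fderivWithin_eq_zero (𝕜 := ℝ)
    (fun x hx => (h3 x hx).1.differentiableWithinAt) (fun x hx => ?_) hq (mem_ball_self hr)
  rw [fderivWithin_of_isOpen isOpen_ball hx]
  exact (h3 x hx).2

theorem fderiv_of_gradient {f : E2 → ℝ} {x : E2} (h : gradient f x = 0) : fderiv ℝ f x = 0 := by
  ext v
  rw [← inner_gradient, h]
  simp

theorem SS_base (D : Side Φ K u ρ ϑ h) (T : IsTau Φ u τ) : ∀ᶠ q in 𝓝 (0 : E2),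
    SS K u τ 0 q = 0 := by
  have h1 := const_of_fderiv (f := SS K u τ 0) (D.SS_jg T).slice.diffAt
    ((D.SS_grad_base T).mono fun q hq => fderiv_of_gradient hq)
  filter_upwards [h1] with q hq
  rw [hq, SS_zero]

theorem XX_base (D : Side Φ K u ρ ϑ h) (T : IsTau Φ u τ) : ∀ᶠ q in 𝓝 (0 : E2),
    XX Φ u ρ h τ 0 q = 0 := by
  obtain ⟨c, hc⟩ := D.dens
  have h1 : ∀ᶠ t in 𝓝 (0 : E2), xx Φ u ρ h 0 t = -c := by
    filter_upwards [hc, D.al_base.eventually_nhds] with t e1 e2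
    have e3 : fderiv ℝ (al Φ u 0) t = fderiv ℝ ϑ t := Filter.EventuallyEq.fderiv_eq e2
    rw [xx, e3, e1]
    ring
  have h4 : Tendsto (τ 0) (𝓝 0) (𝓝 0) := by
    have h5 := T.jg.slice.contAt.tendsto
    rwa [T.zero] at h5
  have h6 := h1.self_of_nhds
  filter_upwards [h4.eventually h1] with q e1
  rw [XX, e1, T.zero, h6, sub_self]

end Side

end Vale.Agent.P207.N3
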