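import Vale.Agent.P207.N3.H250.Prod3

/-!
# P207, line N3, P3: inverse dynamics, the two sides together
-/

open Set Filter Topology Metric MeasureTheory
open scoped ContDiff

noncomputable section

namespace Vale.Agent.P207.N3

open Side

variable {Φ : E2 × E2 → E2 × E2} {K : E2 × E2 → ℝ} {u ρ s ρ' : E2 → E2 → ℝ} {ϑ ϑ' : E2 → E2}
  {h : ℝ} {τ τ' : E2 → E2 → E2}

/-- **the inverse dynamics** -/
theorem SideDyn.inv (D : Side Φ K u ρ ϑ h) {M Mi : E2 → E2} {P Q : E2 × E2 → E2 × E2}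
    {ℓ : E2 × E2 → ℝ} (Y : SideDyn u ρ M P ℓ h) (hQ : ExG Q (fun z => - ℓ (Q z)))
    (hQP : ∀ᶠ z in 𝓝 (0 : E2 × E2), Q (P z) = z)
    (hMi0 : Mi 0 = 0) (hMic : ContinuousAt Mi 0) (hMi : ∀ᶠ y in 𝓝 (0 : E2), M (Mi y) = y) :
    SideDyn u ρ Mi Q (fun z => - ℓ (Q z)) h := by
  obtain ⟨c1, hleaf⟩ := Y.leaf
  obtain ⟨c2, hdens⟩ := Y.dens
  have hJ := th_jg D Y
  have h0 := th_zero D Y
  obtain ⟨σ, σjg, σ0, σr, σl⟩ := jg_inverse hJ h0
    ((det_ne_zero_iff _).1 (th_det D Y).self_of_nhds)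
  -- `(Mi y, σ (Mi y) t)`
  have tMi : Tendsto Mi (𝓝 0) (𝓝 0) := by
    have := hMic.tendsto
    rwa [hMi0] at this
  have tMif : Tendsto (fun w : E2 × E2 => Mi w.1) (𝓝 0) (𝓝 0) :=
    tMi.comp (continuous_fst.tendsto (0 : E2 × E2))
  have tMiz : Tendsto (fun w : E2 × E2 => (Mi w.1, w.2)) (𝓝 0) (𝓝 0) :=
    tMif.prodMk_nhds (continuous_snd.tendsto (0 : E2 × E2))
  have tσ : Tendsto (fun w : E2 × E2 => (Mi w.1, σ (Mi w.1) w.2)) (𝓝 0) (𝓝 0) :=
    (σjg.tendsto σ0).comp tMiz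
  have base : ∀ᶠ w in 𝓝 (0 : E2 × E2), M (Mi w.1) = w.1 ∧
      P (lf u (Mi w.1, σ (Mi w.1) w.2)) = lf u w ∧
      Q (lf u w) = lf u (Mi w.1, σ (Mi w.1) w.2) ∧
      u w.1 w.2 = u (Mi w.1) (σ (Mi w.1) w.2) + ℓ (lf u (Mi w.1, σ (Mi w.1) w.2))
        + c1 (Mi w.1) := by
    filter_upwards [tMiz.eventually σr, tσ.eventually hleaf,
      (D.lf_tendsto.comp tσ).eventually hQP, ev_fst hMi] with w e1 e2 e3 e4
    have f1 : th P u (Mi w.1) (σ (Mi w.1) w.2) = w.2 := e1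
    have f2 : P (lf u (Mi w.1, σ (Mi w.1) w.2)) = lf u w := by
      refine Prod.ext f1 ?_
      have := e2.1
      rw [e4] at this
      rw [← this]
      show gradient (u w.1) (th P u (Mi w.1) (σ (Mi w.1) w.2)) = _
      rw [f1]
      rfl
    refine ⟨e4, f2, ?_, ?_⟩
    · rw [← f2]; exact e3
    · have := e2.2
      rw [e4] at this
      rw [← this]
      show _ = u w.1 (th P u (Mi w.1) (σ (Mi w.1) w.2))
      rw [f1]
  refine ⟨hQ, hMi0, hMic, ⟨fun y => - c1 (Mi y), ?_⟩, ⟨fun y => - c2 (Mi y), ?_⟩⟩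
  · filter_upwards [base] with w e1
    obtain ⟨f1, f2, f3, f4⟩ := e1
    rw [f3]
    refine ⟨rfl, ?_⟩
    show u (Mi w.1) (σ (Mi w.1) w.2) = _
    rw [f4]
    ring
  · filter_upwards [slice_ev base, base, tσ.eventually hdens, tσ.eventually hJ.smooth,
      tMiz.eventually σjg.smooth, tσ.eventually (th_det D Y), tMiz.eventually (slice_ev σr)]
      with w e1 e2 e3 e4 e5 e6 e7
    obtain ⟨f1, f2, f3, f4⟩ := e2
    have d1 : HasFDerivAt (σ (Mi w.1)) (fderiv ℝ (σ (Mi w.1)) w.2) w.2 :=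
      (ContDiffAt.differentiableAt (n := ∞) e5 (by simp)).hasFDerivAt
    have d2 : HasFDerivAt (th P u (Mi w.1))
        (fderiv ℝ (th P u (Mi w.1)) (σ (Mi w.1) w.2)) (σ (Mi w.1) w.2) :=
      (ContDiffAt.differentiableAt (n := ∞) e4 (by simp)).hasFDerivAt
    have d3 : HasFDerivAt (fun t => (Q (lf u (w.1, t))).1) (fderiv ℝ (σ (Mi w.1)) w.2) w.2 := by
      refine d1.congr_of_eventuallyEq ?_
      filter_upwards [e1] with t ht
      rw [ht.2.2.1]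
      rfl
    have d4 : HasFDerivAt (fun t => th P u (Mi w.1) (σ (Mi w.1) t))
        ((fderiv ℝ (th P u (Mi w.1)) (σ (Mi w.1) w.2)) ∘L (fderiv ℝ (σ (Mi w.1)) w.2)) w.2 :=
      HasFDerivAt.comp w.2 (f := σ (Mi w.1)) (g := th P u (Mi w.1)) d2 d1
    have d5 : HasFDerivAt (fun t => th P u (Mi w.1) (σ (Mi w.1) t))
        (ContinuousLinearMap.id ℝ E2) w.2 := by
      refine (hasFDerivAt_id w.2).congr_of_eventuallyEq ?_
      exact e7
    have d6 := congrArg ContinuousLinearMap.det (d4.unique d5)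
    rw [det_comp2] at d6
    have d7 : (ContinuousLinearMap.id ℝ E2).det = 1 := det_one2
    rw [d7] at d6
    have n1 : (fderiv ℝ (th P u (Mi w.1)) (σ (Mi w.1) w.2)).det ≠ 0 := e6
    have n2 : (fderiv ℝ (σ (Mi w.1)) w.2).det ≠ 0 := by
      intro h1
      rw [h1, mul_zero] at d6
      exact zero_ne_one d6
    have d8 := congrArg Real.log d6
    rw [Real.log_mul n1 n2, Real.log_one] at d8
    rw [d3.fderiv, f3]
    have g8 : ρ (M (Mi w.1)) (P (lf u (Mi w.1, σ (Mi w.1) w.2))).1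
        + Real.log |(fderiv ℝ (th P u (Mi w.1)) (σ (Mi w.1) w.2)).det|
        = ρ (Mi w.1) (σ (Mi w.1) w.2) + h * ℓ (lf u (Mi w.1, σ (Mi w.1) w.2)) + c2 (Mi w.1) := e3
    rw [f1, f2] at g8
    show ρ (Mi w.1) (σ (Mi w.1) w.2) + _ = ρ w.1 w.2 + _ + _
    have g9 : (lf u w).1 = w.2 := rfl
    rw [g9] at g8
    rw [Real.log_abs] at g8 ⊢
    linear_combination (-1 : ℝ) * g8 + d8

end Vale.Agent.P207.N3
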