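import Vale.Agent.P207.N3.H250.Two

/-!
# P207, line N3, P3: the map `φ` in the exact chart and its axes
-/

open Set Filter Topology Metric MeasureTheory
open scoped ContDiff

noncomputable section

namespace Vale.Agent.P207.N3

open Side

theorem ngm_ngm (P : E2 × E2 → E2 × E2) : ngm (ngm P) = P := by
  funext z; simp [ngm]

theorem ngl_ngl (ℓ : E2 × E2 → ℝ) : ngl (ngl ℓ) = ℓ := by
  funext z; simp [ngl]

theorem exg_ngm {P : E2 × E2 → E2 × E2} {ℓ : E2 × E2 → ℝ} (hP : ExG P ℓ) :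
    ExG (ngm P) (ngl ℓ) := by
  let ν : E2 × E2 →L[ℝ] E2 × E2 := (ContinuousLinearMap.fst ℝ E2 E2).prod
    (-(ContinuousLinearMap.snd ℝ E2 E2))
  have hν : ∀ z, ν z = (z.1, -z.2) := fun z => rfl
  have hν0 : Tendsto ν (𝓝 0) (𝓝 0) := by
    have := ν.continuous.tendsto 0
    rwa [map_zero] at this
  have cs : ∀ z, ContDiffAt ℝ ∞ P (ν z) → ContDiffAt ℝ ∞ (fun y => P (ν y)) z := fun z hz =>
    hz.comp z ν.contDiff.contDiffAt
  refine ⟨?_, ?_, ?_, ?_⟩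
  · have h0 : P (0, 0) = 0 := hP.zero
    simp [ngm, h0]
  · filter_upwards [hν0.eventually hP.smooth] with z hz
    exact (cs z hz).fst.prodMk (cs z hz).snd.neg
  · filter_upwards [hν0.eventually hP.pot] with z hz
    exact (hz.comp z ν.contDiff.contDiffAt).neg
  · filter_upwards [hν0.eventually hP.smooth, hν0.eventually hP.pot, hν0.eventually hP.exact]
      with z hz hz2 hz3 v
    have d1 : HasFDerivAt (fun y => P (ν y)) ((fderiv ℝ P (ν z)).comp ν) z :=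
      (hz.differentiableAt (by simp)).hasFDerivAt.comp z ν.hasFDerivAt
    have d2 : HasFDerivAt (fun y => ℓ (ν y)) ((fderiv ℝ ℓ (ν z)).comp ν) z :=
      (hz2.differentiableAt (by simp)).hasFDerivAt.comp z ν.hasFDerivAt
    have e1 : HasFDerivAt (ngm P) _ z := d1.fst.prodMk d1.snd.neg
    have e2 : HasFDerivAt (ngl ℓ) _ z := d2.neg
    have e3 := hz3 (ν v)
    rw [e1.fderiv, e2.fderiv]
    simp only [hν] at e3
    simp only [ngm, ContinuousLinearMap.prod_apply, ContinuousLinearMap.comp_apply,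
      ContinuousLinearMap.coe_fst', ContinuousLinearMap.coe_snd', neg_apply, hν,
      inner_neg_left]
    rw [← e3]
    simp only [inner_neg_left]
    ring

/-- swap the two coordinates -/
def swm (φ : E2 × E2 → E2 × E2) : E2 × E2 → E2 × E2 := fun z =>
  ((φ (z.2, z.1)).2, (φ (z.2, z.1)).1)

variable {Φ : E2 × E2 → E2 × E2} {K : E2 × E2 → ℝ} {u ρ s ρ' : E2 → E2 → ℝ} {ϑ ϑ' : E2 → E2}
  {h : ℝ} {τ τ' : E2 → E2 → E2}

/-- points `(q, 0)` and `(0, p)` on the leaves -/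
theorem axis_pt (D : Side Φ K u ρ ϑ h) (T : IsTau Φ u τ) :
    (∀ᶠ q in 𝓝 (0 : E2), Φ (lf u (0, τ 0 q)) = (q, 0)) ∧
    (∀ᶠ p in 𝓝 (0 : E2), Φ (lf u (p, τ p 0)) = (0, p)) := by
  have t0 : Tendsto (τ 0) (𝓝 0) (𝓝 0) := by
    have h5 := T.jg.slice.contAt.tendsto
    rwa [T.zero] at h5
  constructor
  · filter_upwards [ev_right T.right, t0.eventually D.be_base] with q e1 e2
    exact Prod.ext e1 e2
  · filter_upwards [ev_left T.right, ev_left ((τ_tendsto T).eventually D.label)] with p e1 e2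
    exact Prod.ext e1 (e2 e1)

/-- the unstable leaf of `0` is invariant -/
theorem axisA (D : Side Φ K u ρ ϑ h) {M : E2 → E2} {P : E2 × E2 → E2 × E2}
    {ℓ : E2 × E2 → ℝ} (Y : SideDyn u ρ M P ℓ h) {φ : E2 × E2 → E2 × E2}
    (hφ : ∀ᶠ z in 𝓝 (0 : E2 × E2), φ (Φ z) = Φ (P z)) :
    ∀ᶠ q in 𝓝 (0 : E2), (φ (q, 0)).2 = 0 := by
  obtain ⟨τ, T⟩ := D.exists_tau
  obtain ⟨c1, hleaf⟩ := Y.leaf
  have t0 : Tendsto (τ 0) (𝓝 0) (𝓝 0) := by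
    have h5 := T.jg.slice.contAt.tendsto
    rwa [T.zero] at h5
  have t1 : Tendsto (fun q => th P u 0 (τ 0 q)) (𝓝 0) (𝓝 0) := by
    have h5 : Tendsto (th P u 0) (𝓝 0) (𝓝 0) := by
      have h6 := (th_jg D Y).slice.contAt.tendsto
      rwa [th_zero D Y] at h6
    exact h5.comp t0
  have e0 := ev_right ((D.lf_tendsto.comp (τ_tendsto T)).eventually hφ)
  have e1 := ev_right ((τ_tendsto T).eventually hleaf)
  filter_upwards [(axis_pt D T).1, e0, e1, t1.eventually D.be_base] with q f1 f2 f3 f4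
  have f2' : φ (Φ (lf u (0, τ 0 q))) = Φ (P (lf u (0, τ 0 q))) := f2
  rw [← f1, f2']
  have f5 : P (lf u (0, τ 0 q)) = lf u (0, th P u 0 (τ 0 q)) := by
    refine Prod.ext rfl ?_
    have := f3.1
    simp only [Y.M_zero] at this
    exact this.symm
  rw [f5]
  exact f4

/-- the labels are transformed by `M` -/
theorem axisB (D : Side Φ K u ρ ϑ h) {M : E2 → E2} {P : E2 × E2 → E2 × E2}
    {ℓ : E2 × E2 → ℝ} (Y : SideDyn u ρ M P ℓ h) {φ : E2 × E2 → E2 × E2}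
    (hφ : ∀ᶠ z in 𝓝 (0 : E2 × E2), φ (Φ z) = Φ (P z))
    (hax : ∀ᶠ p in 𝓝 (0 : E2), (φ (0, p)).1 = 0) :
    ∀ᶠ p in 𝓝 (0 : E2), φ (0, p) = (0, M p) := by
  obtain ⟨τ, T⟩ := D.exists_tau
  obtain ⟨c1, hleaf⟩ := Y.leaf
  have e0 := ev_left ((D.lf_tendsto.comp (τ_tendsto T)).eventually hφ)
  have e1 := ev_left ((τ_tendsto T).eventually hleaf)
  have e2 := ev_left ((tendsto_th D T Y).eventually D.label)
  filter_upwards [(axis_pt D T).2, e0, e1, e2, hax] with p f1 f2 f3 f4 f5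
  have f2' : φ (Φ (lf u (p, τ p 0))) = Φ (P (lf u (p, τ p 0))) := f2
  have f6 : P (lf u (p, τ p 0)) = lf u (M p, th P u p (τ p 0)) :=
    Prod.ext rfl f3.1.symm
  have f7 : φ (0, p) = Φ (lf u (M p, th P u p (τ p 0))) := by
    rw [← f1, f2', f6]
  refine Prod.ext f5 ?_
  rw [f7] at f5 ⊢
  exact f4 f5

/-- the two sides and the dynamics -/
structure Two (Φ : E2 × E2 → E2 × E2) (K : E2 × E2 → ℝ) (u ρ : E2 → E2 → ℝ) (ϑ : E2 → E2)
    (s ρ' : E2 → E2 → ℝ) (ϑ' : E2 → E2) (h : ℝ) (N N' : E2 → E2) (P : E2 × E2 → E2 × E2)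
    (ℓ : E2 × E2 → ℝ) : Prop where
  D : Side Φ K u ρ ϑ h
  D' : Side (sw Φ) (swK Φ K) s ρ' ϑ' h
  Y : SideDyn u ρ N' P ℓ h
  Y' : SideDyn s ρ' N (ngm P) (ngl ℓ) h

namespace Two

variable {N N' : E2 → E2} {P : E2 × E2 → E2 × E2} {ℓ : E2 × E2 → ℝ}

/-- the map `φ` in the exact chart -/
theorem exists_phi (W : Two Φ K u ρ ϑ s ρ' ϑ' h N N' P ℓ) : ∃ φ κ, ExG φ κ ∧
    (∀ᶠ z in 𝓝 (0 : E2 × E2), φ (Φ z) = Φ (P z)) ∧
    (∃ c, ∀ᶠ z in 𝓝 (0 : E2 × E2), κ (Φ z) = ℓ z + K (P z) - K z + c) ∧ κ 0 = 0 := by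
  obtain ⟨Ψ, hΨ, h1, h2⟩ := W.D.ex.inv
  have h3 := W.D.ex.comp (W.Y.ex.comp hΨ)
  set κ0 : E2 × E2 → ℝ := fun z => - K (Ψ z) + ℓ (Ψ z) + K (P (Ψ z)) with hκ0
  refine ⟨fun z => Φ (P (Ψ z)), fun z => κ0 z - κ0 0, ?_, ?_, ⟨- κ0 0, ?_⟩, sub_self _⟩
  · refine ⟨h3.zero, h3.smooth, ?_, ?_⟩
    · filter_upwards [h3.pot] with z hz
      exact hz.sub contDiffAt_const
    · filter_upwards [h3.exact] with z hz v
      have := hz v
      rw [fderiv_sub_const]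
      exact this
  · filter_upwards [h2] with z hz
    rw [hz]
  · filter_upwards [h2] with z hz
    simp only [hκ0]
    rw [hz]
    ring

theorem phi_sw {φ : E2 × E2 → E2 × E2} (hφ : ∀ᶠ z in 𝓝 (0 : E2 × E2), φ (Φ z) = Φ (P z)) :
    ∀ᶠ z in 𝓝 (0 : E2 × E2), swm φ (sw Φ z) = sw Φ (ngm P z) := by
  filter_upwards [tendsto_neg_snd.eventually hφ] with z hz
  simp only [swm, sw, ngm, neg_neg, Prod.mk.eta]
  rw [hz]

/-- the axes of `φ` -/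
theorem axes (W : Two Φ K u ρ ϑ s ρ' ϑ' h N N' P ℓ) {φ : E2 × E2 → E2 × E2}
    (hφ : ∀ᶠ z in 𝓝 (0 : E2 × E2), φ (Φ z) = Φ (P z)) :
    (∀ᶠ q in 𝓝 (0 : E2), φ (q, 0) = (N q, 0)) ∧ (∀ᶠ p in 𝓝 (0 : E2), φ (0, p) = (0, N' p)) := by
  have h1 := axisA W.D W.Y hφ
  have h2 := axisA W.D' W.Y' (phi_sw hφ)
  have h3 := axisB W.D W.Y hφ (h2.mono fun p hp => hp)
  have h4 := axisB W.D' W.Y' (phi_sw hφ) (h1.mono fun p hp => hp)
  refine ⟨?_, h3⟩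
  filter_upwards [h4] with q hq
  exact Prod.ext (congrArg Prod.snd hq) (congrArg Prod.fst hq)

/-- the inverse of the two-sided dynamics -/
theorem inv (W : Two Φ K u ρ ϑ s ρ' ϑ' h N N' P ℓ) {Ni N'i : E2 → E2}
    (h1 : Ni 0 = 0) (h2 : ContinuousAt Ni 0) (h3 : ∀ᶠ x in 𝓝 (0 : E2), N (Ni x) = x)
    (h1' : N'i 0 = 0) (h2' : ContinuousAt N'i 0) (h3' : ∀ᶠ y in 𝓝 (0 : E2), N' (N'i y) = y) :
    ∃ Q, (∀ᶠ z in 𝓝 (0 : E2 × E2), P (Q z) = z) ∧ (∀ᶠ z in 𝓝 (0 : E2 × E2), Q (P z) = z) ∧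
      Two Φ K u ρ ϑ s ρ' ϑ' h Ni N'i Q (fun z => - ℓ (Q z)) := by
  obtain ⟨Q, hQ, hPQ, hQP⟩ := W.Y.ex.inv
  refine ⟨Q, hPQ, hQP, W.D, W.D', SideDyn.inv W.D W.Y hQ hQP h1' h2' h3', ?_⟩
  have e1 : ngl (fun z => - ℓ (Q z)) = fun z => - (ngl ℓ) (ngm Q z) := by
    funext z
    simp [ngl, ngm]
  have hQ' := exg_ngm hQ
  rw [e1] at hQ' ⊢
  refine SideDyn.inv W.D' W.Y' hQ' ?_ h1 h2 h3
  filter_upwards [tendsto_neg_snd.eventually hQP] with z hz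
  simp only [ngm, neg_neg, Prod.mk.eta]
  rw [hz]
  simp

/-- exchange of the two sides -/
theorem swap (W : Two Φ K u ρ ϑ s ρ' ϑ' h N N' P ℓ)
    (D2 : Side (sw (sw Φ)) (swK (sw Φ) (swK Φ K)) u ρ ϑ h) :
    Two (sw Φ) (swK Φ K) s ρ' ϑ' u ρ ϑ h N' N (ngm P) (ngl ℓ) :=
  ⟨W.D', D2, W.Y', by rw [ngm_ngm, ngl_ngl]; exact W.Y⟩

end Two

end Vale.Agent.P207.N3
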